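import Vale.Agent.P096.Defs
import Mathlib.Analysis.InnerProductSpace.PiL2

/-! Operator matrices and compressions. -/

namespace Vale.Agent.P096

open scoped InnerProductSpace

variable {K : Type*} [NormedAddCommGroup K] [InnerProductSpace ℂ K] [CompleteSpace K]

section op

variable {ι : Type*} [Fintype ι] [DecidableEq ι]

/-- Finite direct sum of copies of `K`. -/
abbrev Pw (ι K : Type*) := PiLp 2 fun _ : ι => K

/-- The operator of an operator matrix. -/
noncomputable def opL (X : Matrix ι ι (K →L[ℂ] K)) : Pw ι K →L[ℂ] Pw ι K :=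
  (PiLp.continuousLinearEquiv 2 ℂ fun _ : ι => K).symm.toContinuousLinearMap ∘L
    ContinuousLinearMap.pi fun i => ∑ j, X i j ∘L PiLp.proj 2 (fun _ : ι => K) j

omit [CompleteSpace K] [DecidableEq ι] in
lemma opL_apply (X : Matrix ι ι (K →L[ℂ] K)) (v : Pw ι K) (i : ι) :
    opL X v i = ∑ j, X i j (v j) := by simp [opL]

variable (K ι) in
/-- The operator of an operator matrix, as a star homomorphism. -/
noncomputable def op : Matrix ι ι (K →L[ℂ] K) →⋆ₐ[ℂ] (Pw ι K →L[ℂ] Pw ι K) where
  toFun := opL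
  map_one' := by ext v i; simp [opL_apply, Matrix.one_apply, DFunLike.ite_apply]
  map_mul' X Y := by
    ext v i
    simp only [opL_apply, Matrix.mul_apply, ContinuousLinearMap.sum_apply,
      ContinuousLinearMap.mul_apply, map_sum]
    exact Finset.sum_comm
  map_zero' := by ext v i; simp [opL_apply]
  map_add' X Y := by ext v i; simp [opL_apply, Finset.sum_add_distrib]
  commutes' c := by
    ext v i
    simp [opL_apply, Matrix.algebraMap_matrix_apply, DFunLike.ite_apply]
  map_star' X := by
    rw [ContinuousLinearMap.star_eq_adjoint, ContinuousLinearMap.eq_adjoint_iff]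
    intro v w
    simp only [PiLp.inner_apply, opL_apply, sum_inner, inner_sum, Matrix.star_apply,
      ContinuousLinearMap.star_eq_adjoint, ContinuousLinearMap.adjoint_inner_left]
    exact Finset.sum_comm

lemma op_apply (X : Matrix ι ι (K →L[ℂ] K)) (v : Pw ι K) (i : ι) :
    op K ι X v i = ∑ j, X i j (v j) := opL_apply X v i

omit [InnerProductSpace ℂ K] [CompleteSpace K] [DecidableEq ι] in
lemma norm_le_sum (v : Pw ι K) : ‖v‖ ≤ ∑ i, ‖v i‖ := by
  rw [PiLp.norm_eq_of_L2, Real.sqrt_le_iff]
  exact ⟨Finset.sum_nonneg fun _ _ => norm_nonneg _,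
    Finset.sum_sq_le_sq_sum_of_nonneg fun _ _ => norm_nonneg _⟩

lemma norm_op_le (X : Matrix ι ι (K →L[ℂ] K)) : ‖op K ι X‖ ≤ ∑ i, ∑ j, ‖X i j‖ := by
  refine ContinuousLinearMap.opNorm_le_bound _ (by positivity) fun v => (norm_le_sum _).trans ?_
  simp only [op_apply, Finset.sum_mul]
  exact Finset.sum_le_sum fun i _ => (norm_sum_le _ _).trans (Finset.sum_le_sum fun j _ =>
    ((X i j).le_opNorm _).trans (by gcongr; exact PiLp.norm_apply_le v j))

/-- The matrix entry of an operator. -/
noncomputable def ent (T : Pw ι K →L[ℂ] Pw ι K) (i j : ι) : K →L[ℂ] K :=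
  PiLp.proj 2 (fun _ : ι => K) i ∘L T ∘L
    (PiLp.continuousLinearEquiv 2 ℂ fun _ : ι => K).symm.toContinuousLinearMap ∘L
      ContinuousLinearMap.single ℂ (fun _ : ι => K) j

omit [CompleteSpace K] [Fintype ι] in
lemma ent_apply (T : Pw ι K →L[ℂ] Pw ι K) (i j : ι) (v : K) :
    ent T i j v = T (PiLp.single 2 j v) i := rfl

omit [CompleteSpace K] in
lemma norm_ent_le (T : Pw ι K →L[ℂ] Pw ι K) (i j : ι) : ‖ent T i j‖ ≤ ‖T‖ :=
  ContinuousLinearMap.opNorm_le_bound _ T.opNorm_nonneg fun v => by
    rw [ent_apply]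
    exact (PiLp.norm_apply_le _ i).trans ((T.le_opNorm _).trans (by rw [PiLp.norm_single]))

omit [CompleteSpace K] in
lemma apply_eq_sum_ent (T : Pw ι K →L[ℂ] Pw ι K) (v : Pw ι K) (i : ι) :
    T v i = ∑ j, ent T i j (v j) := by
  have : v = ∑ j, PiLp.single 2 j (v j) := by
    ext k; simp [PiLp.single_apply, Pi.single_apply]
  conv_lhs => rw [this]
  simp [ent_apply]

lemma ent_op (X : Matrix ι ι (K →L[ℂ] K)) (i j : ι) : ent (op K ι X) i j = X i j := by
  ext v
  simp [ent_apply, op_apply, PiLp.single_apply, Pi.single_apply, apply_ite (X i _)]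

lemma norm_entry_le (X : Matrix ι ι (K →L[ℂ] K)) (i j : ι) : ‖X i j‖ ≤ ‖op K ι X‖ :=
  ent_op X i j ▸ norm_ent_le _ i j

variable (K ι) in
/-- Amplification. -/
noncomputable def amp :
    (K →L[ℂ] K) →⋆ₐ[ℂ] (Pw ι K →L[ℂ] Pw ι K) :=
  (op K ι).comp { Matrix.scalarAlgHom ι ℂ with
    map_star' := fun T => by
      ext i j
      simp [Matrix.diagonal_apply, eq_comm, apply_ite star] }

lemma amp_apply (T : K →L[ℂ] K) (v : Pw ι K) (i : ι) : amp K ι T v i = T (v i) := by
  simp [amp, op_apply, Matrix.diagonal_apply, DFunLike.ite_apply]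

end op

section cmp

variable (S : Submodule ℂ K) [CompleteSpace S]

/-- Compression to a closed subspace. -/
noncomputable def cmp : (K →L[ℂ] K) →ₗ[ℂ] (S →L[ℂ] S) where
  toFun T := S.orthogonalProjection ∘L T ∘L S.subtypeL
  map_add' _ _ := by ext; simp
  map_smul' _ _ := by ext; simp

/-- Extension by zero. -/
noncomputable def xt : (S →L[ℂ] S) →ₗ[ℂ] (K →L[ℂ] K) where
  toFun T := S.subtypeL ∘L T ∘L S.orthogonalProjection
  map_add' _ _ := by ext; simp
  map_smul' _ _ := by ext; simp

variable {S}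

omit [CompleteSpace K] in
lemma cmp_apply (T : K →L[ℂ] K) (v : S) : (cmp S T v : K) = S.starProjection (T v) := rfl

omit [CompleteSpace K] in
lemma xt_apply (T : S →L[ℂ] S) (v : K) : xt S T v = T (S.orthogonalProjection v) := rfl

omit [CompleteSpace K] in
lemma cmp_apply' {T : K →L[ℂ] K} (h : S.starProjection * T = T * S.starProjection) (v : S) :
    (cmp S T v : K) = T v := by
  rw [cmp_apply, ← ContinuousLinearMap.mul_apply, h, ContinuousLinearMap.mul_apply,
    Submodule.starProjection_mem_subspace_eq_self]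

omit [CompleteSpace K] in
lemma cmp_mul (T : K →L[ℂ] K) {T' : K →L[ℂ] K}
    (h : S.starProjection * T' = T' * S.starProjection) : cmp S (T * T') = cmp S T * cmp S T' := by
  ext v
  rw [ContinuousLinearMap.mul_apply, cmp_apply, cmp_apply T, cmp_apply' h]
  rfl

omit [CompleteSpace K] in
lemma cmp_one : cmp S 1 = 1 := by
  ext v
  exact cmp_apply' (by simp) v

lemma cmp_star (T : K →L[ℂ] K) : cmp S (star T) = star (cmp S T) := by
  rw [ContinuousLinearMap.star_eq_adjoint (cmp S T), ContinuousLinearMap.eq_adjoint_iff]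
  intro v w
  rw [Submodule.coe_inner, Submodule.coe_inner, cmp_apply, cmp_apply,
    Submodule.inner_starProjection_left_eq_right, Submodule.starProjection_mem_subspace_eq_self,
    ← Submodule.inner_starProjection_left_eq_right, Submodule.starProjection_mem_subspace_eq_self,
    ContinuousLinearMap.star_eq_adjoint, ContinuousLinearMap.adjoint_inner_left]

omit [CompleteSpace K] in
lemma norm_cmp_le (T : K →L[ℂ] K) : ‖cmp S T‖ ≤ ‖T‖ :=
  ContinuousLinearMap.opNorm_le_bound _ T.opNorm_nonneg fun v =>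
    (S.norm_orthogonalProjection_apply_le _).trans (T.le_opNorm (v : K))

omit [CompleteSpace K] in
lemma norm_xt_le (T : S →L[ℂ] S) : ‖xt S T‖ ≤ ‖T‖ :=
  ContinuousLinearMap.opNorm_le_bound _ T.opNorm_nonneg fun v =>
    (T.le_opNorm _).trans (by gcongr; exact S.norm_orthogonalProjection_apply_le v)

omit [CompleteSpace K] in
lemma xt_cmp (T : K →L[ℂ] K) : xt S (cmp S T) = S.starProjection * T * S.starProjection := rfl

omit [CompleteSpace K] in
lemma cmp_xt (T : S →L[ℂ] S) : cmp S (xt S T) = T := by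
  ext v
  simp [cmp_apply, xt_apply]

omit [CompleteSpace K] in
lemma proj_mul_xt (T : S →L[ℂ] S) : S.starProjection * xt S T = xt S T := by
  ext v
  simp [xt_apply]

omit [CompleteSpace K] in
lemma xt_mul_proj (T : S →L[ℂ] S) : xt S T * S.starProjection = xt S T := by
  ext v
  rw [ContinuousLinearMap.mul_apply, xt_apply, xt_apply, Submodule.starProjection_apply,
    Submodule.orthogonalProjection_mem_subspace_eq_self]

omit [CompleteSpace K] in
lemma xt_mul (T T' : S →L[ℂ] S) : xt S (T * T') = xt S T * xt S T' := by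
  ext v
  simp [xt_apply]

/-- Compression of a representation commuting with the projection. -/
noncomputable def cmpHom {A : Type*} [Semiring A] [Algebra ℂ A] [Star A]
    (π : A →⋆ₐ[ℂ] (K →L[ℂ] K)) (h : ∀ a, S.starProjection * π a = π a * S.starProjection) :
    A →⋆ₐ[ℂ] (S →L[ℂ] S) where
  toFun a := cmp S (π a)
  map_one' := by rw [map_one, cmp_one]
  map_mul' a b := by rw [map_mul, cmp_mul _ (h b)]
  map_zero' := by simp
  map_add' a b := by simp
  commutes' c := by simp [Algebra.algebraMap_eq_smul_one, cmp_one]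
  map_star' a := by rw [map_star, cmp_star]

end cmp

end Vale.Agent.P096
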