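import Vale.Agent.P096.Tr
import Vale.Agent.P096.Op
import Vale.Agent.P082.Main
import Mathlib.Analysis.CStarAlgebra.GelfandNaimarkSegal
import Mathlib.Analysis.Normed.Operator.Extend

/-! Helpers for traces: monotonicity, linear extension, domination, monotone limits. -/

namespace Vale.Agent.P096

open scoped InnerProductSpace Topology ComplexOrder ComplexStarModule CStarAlgebra
open Filter

section abs

variable {A : Type*} [CStarAlgebra A] [PartialOrder A] [StarOrderedRing A]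

/-- Additive homogeneous functions on the positive cone extend to positive functionals. -/
lemma exists_plm (t : A → ℝ) (hadd : ∀ a b, 0 ≤ a → 0 ≤ b → t (a + b) = t a + t b)
    (hsm : ∀ a, 0 ≤ a → ∀ c : ℝ, 0 ≤ c → t (c • a) = c * t a) (h0 : ∀ a, 0 ≤ a → 0 ≤ t a) :
    ∃ f : A →ₚ[ℂ] ℂ, ∀ a, 0 ≤ a → f a = t a := by
  have key : ∀ z a b : A, 0 ≤ a → 0 ≤ b → z = a - b → t z⁺ - t z⁻ = t a - t b := by
    intro z a b ha hb hz
    have hs : IsSelfAdjoint z := hz ▸ ha.isSelfAdjoint.sub hb.isSelfAdjoint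
    have e : z⁺ + b = a + z⁻ := by
      have := CFC.posPart_sub_negPart z hs
      rw [hz] at this ⊢
      rw [sub_eq_sub_iff_add_eq_add] at this
      exact this
    have := congrArg t e
    rw [hadd _ _ (CFC.posPart_nonneg z) hb, hadd _ _ ha (CFC.negPart_nonneg z)] at this
    linarith
  let φ : selfAdjoint A →ₗ[ℝ] ℝ :=
    { toFun := fun z => t (z : A)⁺ - t (z : A)⁻
      map_add' := fun z w => by
        rw [key _ ((z : A)⁺ + (w : A)⁺) ((z : A)⁻ + (w : A)⁻)
          (add_nonneg (CFC.posPart_nonneg _) (CFC.posPart_nonneg _))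
          (add_nonneg (CFC.negPart_nonneg _) (CFC.negPart_nonneg _)) (by
            rw [add_sub_add_comm, CFC.posPart_sub_negPart _ z.2, CFC.posPart_sub_negPart _ w.2]
            rfl), hadd _ _ (CFC.posPart_nonneg _) (CFC.posPart_nonneg _),
          hadd _ _ (CFC.negPart_nonneg _) (CFC.negPart_nonneg _)]
        ring
      map_smul' := fun c z => by
        have hp := CFC.posPart_nonneg (z : A)
        have hn := CFC.negPart_nonneg (z : A)
        have e := CFC.posPart_sub_negPart (z : A) z.2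
        rcases le_total 0 c with hc | hc
        · rw [key _ (c • (z : A)⁺) (c • (z : A)⁻) (smul_nonneg hc hp) (smul_nonneg hc hn)
            (by rw [← smul_sub, e]; rfl), hsm _ hp _ hc, hsm _ hn _ hc]
          simp [mul_sub]
        · have hc' := neg_nonneg.2 hc
          rw [key _ (-c • (z : A)⁻) (-c • (z : A)⁺) (smul_nonneg hc' hn) (smul_nonneg hc' hp)
            (by rw [← smul_sub, ← neg_sub, e, smul_neg, neg_smul, neg_neg]; rfl), hsm _ hp _ hc',
            hsm _ hn _ hc']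
          simp only [RingHom.id_apply, smul_eq_mul]
          ring }
  let Φ : A →ₗ[ℂ] ℂ :=
    { toFun := fun z => φ (ℜ z) + Complex.I * φ (ℑ z)
      map_add' := fun z w => by simp only [map_add, Complex.ofReal_add]; ring
      map_smul' := fun c z => by
        rw [realPart_smul, imaginaryPart_smul]
        simp only [map_add, map_sub, map_smul, smul_eq_mul, RingHom.id_apply]
        apply Complex.ext <;> simp }
  have hΦ : ∀ a, 0 ≤ a → Φ a = t a := fun a ha => by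
    have hs := ha.isSelfAdjoint
    have h1 : t 0 = 0 := by simpa using hsm 0 le_rfl 0 le_rfl
    show (φ (ℜ a) : ℂ) + Complex.I * φ (ℑ a) = t a
    rw [hs.imaginaryPart, map_zero]
    show ((t (ℜ a : A)⁺ - t (ℜ a : A)⁻ : ℝ) : ℂ) + _ = _
    rw [key _ a 0 ha le_rfl (by rw [hs.coe_realPart, sub_zero]), h1]
    simp
  exact ⟨.mk₀ Φ fun a ha => by rw [hΦ a ha]; exact_mod_cast h0 a ha, hΦ⟩

variable {H : Type*} [NormedAddCommGroup H] [InnerProductSpace ℂ H] [CompleteSpace H]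

lemma hom_mono (π : A →⋆ₐ[ℂ] (H →L[ℂ] H)) {a b : A} (h : a ≤ b) : π a ≤ π b :=
  OrderHomClass.mono π h

/-- Dominated positive functionals are vector functionals. -/
lemma exists_rn (π : A →⋆ₐ[ℂ] (H →L[ℂ] H)) (f : A →ₚ[ℂ] ℂ) (ζ : H)
    (h : ∀ x, (f (star x * x)).re ≤ ‖π x ζ‖ ^ 2) :
    ∃ b : H →L[ℂ] H, (∀ x, b * π x = π x * b) ∧ ∀ x, ‖π x (b ζ)‖ ^ 2 = (f (star x * x)).re := by
  let ev : A →ₗ[ℂ] H := (ContinuousLinearMap.apply ℂ H ζ).toLinearMap ∘ₗ π.toAlgHom.toLinearMap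
  have hev : ∀ x, ev x = π x ζ := fun _ => rfl
  let V := LinearMap.range ev
  let e : (A × Vᗮ) →ₗ[ℂ] H := ev.coprod Vᗮ.subtype
  let g0 : A →ₗ[ℂ] f.GNS :=
    (UniformSpace.Completion.toComplL (𝕜 := ℂ) (E := f.PreGNS)).toLinearMap ∘ₗ
      f.toPreGNS.toLinearMap
  have hg0 : ∀ x, g0 x = (f.toPreGNS x : f.GNS) := fun _ => rfl
  let g : (A × Vᗮ) →ₗ[ℂ] f.GNS := g0 ∘ₗ LinearMap.fst ℂ _ _
  have hn : ∀ x, ‖g0 x‖ ^ 2 = (f (star x * x)).re := fun x => by
    rw [hg0, UniformSpace.Completion.norm_coe, f.preGNS_norm_def, Real.sq_sqrt]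
    · rfl
    · exact (f.map_nonneg (star_mul_self_nonneg _)).1
  have hd : DenseRange e := by
    have : (LinearMap.range e).topologicalClosure = ⊤ := by
      rw [Submodule.topologicalClosure_eq_top_iff, LinearMap.range_coprod, Submodule.range_subtype,
        ← Submodule.inf_orthogonal]
      exact (Submodule.orthogonal_disjoint _).eq_bot
    exact Submodule.dense_iff_topologicalClosure_eq_top.2 this
  have hb : ∀ p, ‖g p‖ ≤ 1 * ‖e p‖ := fun ⟨x, w⟩ => by
    rw [one_mul, ← sq_le_sq₀ (norm_nonneg _) (norm_nonneg _)]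
    have h1 : ⟪ev x, (w : H)⟫_ℂ = 0 := w.2 _ ⟨x, rfl⟩
    have h2 := norm_add_sq_eq_norm_sq_add_norm_sq_of_inner_eq_zero _ _ h1
    have h3 : ‖e (x, w)‖ = ‖ev x + w‖ := rfl
    have h4 : ‖g (x, w)‖ = ‖g0 x‖ := rfl
    rw [h3, h4, hn, sq, h2]
    have := h x
    rw [hev]
    nlinarith [mul_self_nonneg ‖(w : H)‖]
  let T := g.extendOfNorm e
  have hT : ∀ p, T (e p) = g p := LinearMap.extendOfNorm_eq hd ⟨1, hb⟩
  have hc : ∀ m, T ∘L π m = f.gnsStarAlgHom m ∘L T := fun m => by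
    refine ContinuousLinearMap.ext fun v => hd.induction_on v
      (isClosed_eq (by fun_prop) (by fun_prop)) fun ⟨x, w⟩ => ?_
    have hw : π m w ∈ Vᗮ := by
      rintro _ ⟨y, rfl⟩
      rw [← ContinuousLinearMap.adjoint_inner_left, ← ContinuousLinearMap.star_eq_adjoint,
        ← map_star, hev, ← ContinuousLinearMap.mul_apply, ← map_mul]
      exact w.2 _ ⟨_, rfl⟩
    have e1 : π m (e (x, w)) = e (m * x, ⟨_, hw⟩) := by
      show π m (π x ζ + w) = π (m * x) ζ + π m w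
      rw [map_add, map_mul]; rfl
    rw [ContinuousLinearMap.comp_apply, ContinuousLinearMap.comp_apply, e1, hT, hT]
    show (f.toPreGNS (m * x) : f.GNS) = f.gnsNonUnitalStarAlgHom m (f.toPreGNS x : f.GNS)
    rw [PositiveLinearMap.gnsNonUnitalStarAlgHom_apply_coe]
    rfl
  let a : H →L[ℂ] H := ContinuousLinearMap.adjoint T ∘L T
  have ha : 0 ≤ a := (ContinuousLinearMap.nonneg_iff_isPositive _).2
    (ContinuousLinearMap.isPositive_adjoint_comp_self T)
  have hac : ∀ m, Commute a (π m) := fun m => by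
    have h1 := congrArg ContinuousLinearMap.adjoint (hc (star m))
    rw [ContinuousLinearMap.adjoint_comp, ContinuousLinearMap.adjoint_comp, map_star π,
      map_star f.gnsStarAlgHom,
      ContinuousLinearMap.star_eq_adjoint, ContinuousLinearMap.star_eq_adjoint,
      ContinuousLinearMap.adjoint_adjoint, ContinuousLinearMap.adjoint_adjoint] at h1
    show (ContinuousLinearMap.adjoint T ∘L T) ∘L π m = π m ∘L (ContinuousLinearMap.adjoint T ∘L T)
    rw [ContinuousLinearMap.comp_assoc, hc, ← ContinuousLinearMap.comp_assoc, ← h1,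
      ContinuousLinearMap.comp_assoc]
  have hbc : ∀ m, CFC.sqrt a * π m = π m * CFC.sqrt a := fun m => by
    rw [CFC.sqrt_eq_cfc]
    exact (hac m).cfc_nnreal _
  refine ⟨CFC.sqrt a, hbc, fun x => ?_⟩
  have hs : IsSelfAdjoint (CFC.sqrt a) := (CFC.sqrt_nonneg a).isSelfAdjoint
  have e2 : π x ζ = e (x, 0) := by
    show π x ζ = π x ζ + 0
    rw [add_zero]
  rw [← ContinuousLinearMap.mul_apply, ← hbc, ContinuousLinearMap.mul_apply, ← hn,
    ← inner_self_eq_norm_sq (𝕜 := ℂ), ← ContinuousLinearMap.adjoint_inner_left, hs.adjoint_eq,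
    ← ContinuousLinearMap.mul_apply, CFC.sqrt_mul_sqrt_self a ha]
  show RCLike.re ⟪ContinuousLinearMap.adjoint T (T (π x ζ)), π x ζ⟫_ℂ = _
  rw [ContinuousLinearMap.adjoint_inner_left, inner_self_eq_norm_sq, e2, hT]
  rfl

end abs

variable {H : Type*} [NormedAddCommGroup H] [InnerProductSpace ℂ H] [CompleteSpace H]
  {M : VonNeumannAlgebra H} {τ : (H →L[ℂ] H) → ENNReal}

lemma vn_smul (c : ℂ) {x : H →L[ℂ] H} (hx : x ∈ M) : c • x ∈ M :=
  M.toStarSubalgebra.smul_mem hx c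

lemma vn_rsmul (c : ℝ) {x : H →L[ℂ] H} (hx : x ∈ M) : c • x ∈ M := vn_smul (c : ℂ) hx

lemma vn_mem {T : H →L[ℂ] H} (h : ∀ S ∈ M.commutant, T * S = S * T) : T ∈ M := by
  rw [← M.commutant_commutant, VonNeumannAlgebra.mem_commutant_iff]
  exact fun S hS => (h S hS).symm

lemma vn_comm {x S : H →L[ℂ] H} (hx : x ∈ M) (hS : S ∈ M.commutant) : x * S = S * x :=
  VonNeumannAlgebra.mem_commutant_iff.1 hS x hx

lemma IsTrace.mono (h : IsTrace M τ) {x y : H →L[ℂ] H} (hx : x ∈ M) (hy : y ∈ M) (h0 : 0 ≤ x)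
    (hxy : x ≤ y) : τ x ≤ τ y := by
  have := h.add x hx (y - x) (sub_mem hy hx) h0 (sub_nonneg.2 hxy)
  rw [add_sub_cancel] at this
  rw [this]
  exact le_self_add

lemma IsTrace.rsmul (h : IsTrace M τ) {x : H →L[ℂ] H} (hx : x ∈ M) (h0 : 0 ≤ x) {c : ℝ}
    (hc : 0 ≤ c) : τ (c • x) = ENNReal.ofReal c * τ x := by
  have := h.smul x hx h0 ⟨c, hc⟩
  rw [ENNReal.ofReal, Real.toNNReal_of_nonneg hc]
  exact this

lemma IsTrace.zero (h : IsTrace M τ) : τ 0 = 0 := by
  simpa using h.rsmul (zero_mem M) le_rfl le_rfl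

lemma IsTrace.sum (h : IsTrace M τ) {ι : Type*} (s : Finset ι) {y : ι → H →L[ℂ] H}
    (hy : ∀ i, y i ∈ M ∧ 0 ≤ y i) : τ (∑ i ∈ s, y i) = ∑ i ∈ s, τ (y i) := by
  classical
  induction s using Finset.induction_on with
  | empty => simpa using h.zero
  | insert i s hi ih =>
    rw [Finset.sum_insert hi, Finset.sum_insert hi, h.add _ (hy i).1 _
      (sum_mem fun j _ => (hy j).1) (hy i).2 (Finset.sum_nonneg fun j _ => (hy j).2), ih]

lemma WT.nonneg {ι : Type*} {l : Filter ι} [l.NeBot] {x : ι → H →L[ℂ] H} {y : H →L[ℂ] H}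
    (h : WT l x y) (hx : ∀ᶠ i in l, 0 ≤ x i) : 0 ≤ y := by
  rw [ContinuousLinearMap.nonneg_iff_isPositive, ContinuousLinearMap.isPositive_iff_complex]
  intro ξ
  have h1 : 0 ≤ ⟪ξ, y ξ⟫_ℂ := ge_of_tendsto (WT_iff.1 h ξ ξ) (hx.mono fun i hi =>
    ((ContinuousLinearMap.nonneg_iff_isPositive _).1 hi).inner_nonneg_right ξ)
  have h2 : 0 ≤ ⟪y ξ, ξ⟫_ℂ := by
    rw [← inner_conj_symm]
    exact star_nonneg_iff.2 h1
  exact ⟨Complex.ext rfl (by simpa using h2.2), h2.1⟩

/-- Spectral cuts inside `M`. -/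
lemma vn_cut {x : H →L[ℂ] H} (hx : x ∈ M) (h0 : 0 ≤ x) (h1 : x ≠ 0) :
    ∃ (δ : ℝ) (e : H →L[ℂ] H), 0 < δ ∧ e ∈ M ∧ IsStarProjection e ∧ e ≠ 0 ∧ δ • e ≤ x := by
  have := P082.vn_closed M
  let := CStarAlgebra.spectralOrder M.toStarSubalgebra
  have := CStarAlgebra.spectralOrderedRing M.toStarSubalgebra
  have hs : CFC.sqrt x ∈ M := vn_mem fun S hS => by
    rw [CFC.sqrt_eq_cfc]
    exact Commute.cfc_nnreal (vn_comm hx hS) _
  have e1 := CFC.sqrt_mul_sqrt_self x h0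
  obtain ⟨δ, e, hδ, he, h2, h3⟩ := P082.exists_cut' (P082.vnRep M)
    (x := (⟨_, hs⟩ : M.toStarSubalgebra)) fun h => h1 (by
      rw [← e1, show CFC.sqrt x = 0 from congrArg Subtype.val h, mul_zero])
  refine ⟨δ, e, hδ, e.2, ⟨congrArg Subtype.val he.1, congrArg Subtype.val he.2⟩,
    fun h => h2 (Subtype.ext h), ?_⟩
  have h4 := hom_mono M.toStarSubalgebra.subtype h3
  refine le_of_le_of_eq h4 ?_
  show star (CFC.sqrt x) * CFC.sqrt x = x
  rw [(CFC.sqrt_nonneg x).isSelfAdjoint.star_eq, e1]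

end Vale.Agent.P096
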