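import Vale.Agent.P096.Tr
import Vale.Agent.P096.Op
import Vale.Agent.P096.NrmH

/-! A Radon-Nikodym theorem for dominated traces. -/

namespace Vale.Agent.P096

open scoped InnerProductSpace Topology
open Filter

universe u

variable {H : Type*} [NormedAddCommGroup H] [InnerProductSpace ℂ H] [CompleteSpace H]
  {M : VonNeumannAlgebra H} {τ : (H →L[ℂ] H) → ENNReal}

lemma IsTrace.vec_aux (h : IsTrace M τ) {q : H →L[ℂ] H} (hq : IsStarProjection q) (hM : q ∈ M)
    {η : H} (hη : ∀ x ∈ M, τ (star (x * q) * (x * q)) ≤ ENNReal.ofReal (‖(x * q) η‖ ^ 2))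
    {A : Type*} [CStarAlgebra A] [PartialOrder A] [StarOrderedRing A]
    (π : A →⋆ₐ[ℂ] (H →L[ℂ] H)) (hπ : ∀ a, π a ∈ M) :
    ∃ b : H →L[ℂ] H, (∀ x, b * π x = π x * b) ∧
      ∀ x, ‖π x (b (q η))‖ ^ 2 = (τ (star (π x * q) * (π x * q))).toReal := by
  have hqs := hq.isSelfAdjoint.star_eq
  have hqq := hq.isIdempotentElem.eq
  have hpos : ∀ a : A, 0 ≤ a → 0 ≤ π a := fun a ha => by simpa using hom_mono π ha
  have hm : ∀ a : A, q * π a * q ∈ M := fun a => mul_mem (mul_mem hM (hπ a)) hM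
  have hp : ∀ a : A, 0 ≤ a → 0 ≤ q * π a * q := fun a ha =>
    hq.isSelfAdjoint.conjugate_nonneg (hpos a ha)
  have hq1 : τ q ≠ ⊤ := by
    have := hη 1 (one_mem M)
    rw [one_mul, hqs, hqq] at this
    exact ne_top_of_le_ne_top ENNReal.ofReal_ne_top this
  have hfin : ∀ a : A, 0 ≤ a → τ (q * π a * q) ≠ ⊤ := fun a ha => by
    have h1 : q * π a * q ≤ ‖π a‖ • q := by
      have := CStarAlgebra.star_left_conjugate_le_norm_smul (a := q) (b := π a)
        (hpos a ha).isSelfAdjoint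
      rwa [hqs, hqq] at this
    have h2 := h.mono (hm a) (vn_rsmul _ hM) (hp a ha) h1
    rw [h.rsmul hM hq.nonneg (norm_nonneg _)] at h2
    exact ne_top_of_le_ne_top (ENNReal.mul_ne_top ENNReal.ofReal_ne_top hq1) h2
  obtain ⟨f, hf⟩ := exists_plm (fun a : A => (τ (q * π a * q)).toReal)
    (fun a b ha hb => by
      rw [← ENNReal.toReal_add (hfin a ha) (hfin b hb), ← h.add _ (hm a) _ (hm b) (hp a ha)
        (hp b hb), ← add_mul, ← mul_add, map_add])
    (fun a ha c hc => by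
      have e : q * π (c • a) * q = c • (q * π a * q) := by
        rw [← smul_mul_assoc, ← mul_smul_comm, ← Complex.coe_smul, map_smul, Complex.coe_smul]
      simp only [e]
      rw [h.rsmul (hm a) (hp a ha) hc, ENNReal.toReal_mul, ENNReal.toReal_ofReal hc])
    fun _ _ => ENNReal.toReal_nonneg
  have e2 : ∀ x : A, (f (star x * x)).re = (τ (star (π x * q) * (π x * q))).toReal := fun x => by
    rw [hf _ (star_mul_self_nonneg x), Complex.ofReal_re, star_mul, hqs, map_mul, map_star]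
    simp only [mul_assoc]
  obtain ⟨b, hb1, hb2⟩ := exists_rn π f (q η) fun x => by
    rw [e2]
    exact ENNReal.toReal_le_of_le_ofReal (sq_nonneg _) (hη _ (hπ x))
  exact ⟨b, hb1, fun x => (hb2 x).trans (e2 x)⟩

theorem IsTrace.vec (h : IsTrace M τ) {q : H →L[ℂ] H} (hq : IsStarProjection q) (hM : q ∈ M)
    {η : H} (hη : ∀ x ∈ M, τ (star (x * q) * (x * q)) ≤ ENNReal.ofReal (‖(x * q) η‖ ^ 2)) :
    ∃ ξ : H, q ξ = ξ ∧ ∀ x ∈ M, τ (star (x * q) * (x * q)) = ENNReal.ofReal (‖x ξ‖ ^ 2) := by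
  have := P082.vn_closed M
  let := CStarAlgebra.spectralOrder M.toStarSubalgebra
  have := CStarAlgebra.spectralOrderedRing M.toStarSubalgebra
  obtain ⟨b, hb1, hb2⟩ := h.vec_aux hq hM hη M.toStarSubalgebra.subtype fun a => a.2
  refine ⟨b (q η), ?_, fun x hx => ?_⟩
  · have := congr($(hb1 ⟨q, hM⟩) (q η))
    change b (q (q η)) = q (b (q η)) at this
    rw [← this, ← ContinuousLinearMap.mul_apply q q, hq.isIdempotentElem.eq]
  · have := hb2 ⟨x, hx⟩
    change ‖x (b (q η))‖ ^ 2 = (τ (star (x * q) * (x * q))).toReal at this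
    rw [this, ENNReal.ofReal_toReal]
    exact ne_top_of_le_ne_top ENNReal.ofReal_ne_top (hη x hx)

end Vale.Agent.P096
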