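import Vale.Agent.P096.NrmA
import Vale.Agent.P096.NrmB

/-! Corners with a faithful vector trace exhaust a semifinite algebra. -/

namespace Vale.Agent.P096

open scoped InnerProductSpace Topology
open Filter

universe u

variable {H : Type*} [NormedAddCommGroup H] [InnerProductSpace ℂ H] [CompleteSpace H]
  {M : VonNeumannAlgebra H} {τ : (H →L[ℂ] H) → ENNReal}

lemma vn_proj (K : Submodule ℂ H) (hK : IsClosed (K : Set H))
    (h : ∀ S ∈ M.commutant, ∀ ξ ∈ K, S ξ ∈ K) :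
    ∃ e ∈ M, IsStarProjection e ∧ ∀ ξ, e ξ = ξ ↔ ξ ∈ K := by
  have := P082.vn_closed M
  obtain ⟨e, he, h1⟩ := P082.exists_proj (P082.vnRep M) K hK fun S hS =>
    h S (VonNeumannAlgebra.mem_commutant_iff.2 fun a ha => (hS ⟨a, ha⟩).symm)
  exact ⟨e, e.2, ⟨congrArg Subtype.val he.1, congrArg Subtype.val he.2⟩, h1⟩

lemma sum_mul_orth {S : Set (H →L[ℂ] H)} (hS : ∀ q ∈ S, IsStarProjection q)
    (ho : S.Pairwise fun a b => a * b = 0) {T : Finset (H →L[ℂ] H)} (hT : ↑T ⊆ S)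
    {q : H →L[ℂ] H} (hq : q ∈ T) : (∑ r ∈ T, r) * q = q := by
  rw [Finset.sum_mul, Finset.sum_eq_single_of_mem q hq fun r hr hne => ho (hT hr) (hT hq) hne]
  exact (hS q (hT hq)).isIdempotentElem.eq

/-- A maximal orthogonal family of projections on which the trace is a vector functional. -/
lemma IsTrace.exists_family (h : IsTrace M τ) : ∃ S : Set (H →L[ℂ] H),
    (∀ q ∈ S, q ∈ M ∧ IsStarProjection q ∧ ∃ ξ : H, q ξ = ξ ∧
      ∀ x ∈ M, τ (star (x * q) * (x * q)) = ENNReal.ofReal (‖x ξ‖ ^ 2)) ∧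
    (S.Pairwise fun a b => a * b = 0) ∧ ∀ v, (∀ q ∈ S, q v = 0) → v = 0 := by
  obtain ⟨S, hS⟩ := zorn_subset {S : Set (H →L[ℂ] H) | (∀ q ∈ S, q ∈ M ∧ IsStarProjection q ∧
      ∃ ξ : H, q ξ = ξ ∧ ∀ x ∈ M, τ (star (x * q) * (x * q)) = ENNReal.ofReal (‖x ξ‖ ^ 2)) ∧
      S.Pairwise fun a b => a * b = 0} fun c hc hch =>
    ⟨⋃₀ c, ⟨fun q ⟨s, hs, hq⟩ => (hc hs).1 q hq,
      (Set.pairwise_sUnion hch.directedOn).2 fun s hs => (hc hs).2⟩,
      fun s hs => Set.subset_sUnion_of_mem hs⟩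
  refine ⟨S, hS.1.1, hS.1.2, fun v hv => ?_⟩
  let L : Submodule ℂ H := ⨅ q ∈ S, (q : H →L[ℂ] H).ker
  have hL : ∀ w, w ∈ L ↔ ∀ q ∈ S, q w = 0 := fun w => by simp [L]
  obtain ⟨f, hfM, hf, hf1⟩ := vn_proj (M := M) L (by
    have : (L : Set H) = ⋂ q ∈ S, {w | q w = 0} := by ext w; simp [hL]
    rw [this]
    exact isClosed_biInter fun q _ => isClosed_eq q.continuous continuous_const)
    fun T hT w hw => (hL _).2 fun q hq => by
      rw [← ContinuousLinearMap.mul_apply, vn_comm (hS.1.1 q hq).1 hT,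
        ContinuousLinearMap.mul_apply, (hL w).1 hw q hq, map_zero]
  by_contra hv0
  have hf0 : f ≠ 0 := fun h0 => hv0 (by rw [← (hf1 v).2 ((hL v).2 hv), h0]; rfl)
  obtain ⟨q', hqM, hq, hq0, hfq, η, hη⟩ := h.dom hf hfM hf0
  have h1 : ∀ q ∈ S, q * q' = 0 := fun q hqS => ContinuousLinearMap.ext fun w =>
    (hL (q' w)).1 ((hf1 _).1 congr($hfq w)) q hqS
  have h2 : ∀ q ∈ S, q' * q = 0 := fun q hqS => by
    simpa [hq.isSelfAdjoint.star_eq, (hS.1.1 q hqS).2.1.isSelfAdjoint.star_eq] using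
      congrArg star (h1 q hqS)
  have h3 : insert q' S ⊆ S := hS.2 (y := insert q' S) ⟨fun q hq' => by
    rcases hq' with rfl | hq'
    · exact ⟨hqM, hq, h.vec hq hqM hη⟩
    · exact hS.1.1 q hq', Set.pairwise_insert.2 ⟨hS.1.2, fun q hqS _ => ⟨h2 q hqS, h1 q hqS⟩⟩⟩
    (Set.subset_insert _ _)
  exact hq0 (by rw [← hq.isIdempotentElem.eq, h1 q' (h3 (Set.mem_insert _ _))])

theorem IsTrace.loc (h : IsTrace M τ) (F : Finset H) {η : ℝ} (hη : 0 < η) :
    ∃ p ∈ M, IsStarProjection p ∧ (∀ v ∈ F, ‖p v - v‖ ≤ η) ∧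
      ∃ (ι : Type) (_ : Fintype ι) (ξ : ι → H), (∀ i, p (ξ i) = ξ i) ∧
        (∀ x ∈ M, p * x * p = x → ∑ i, ‖star x (ξ i)‖ ^ 2 = ∑ i, ‖x (ξ i)‖ ^ 2) ∧
        ∀ x ∈ M, p * x * p = x → (∀ i, x (ξ i) = 0) → x = 0 := by
  classical
  obtain ⟨S, hS, ho, hs⟩ := h.exists_family
  have hP : ∀ q ∈ S, IsStarProjection q := fun q hq => (hS q hq).2.1
  let W := Submodule.span ℂ {v : H | ∃ q ∈ S, q v = v}
  have hW : Dense (W : Set H) := by
    rw [Submodule.dense_iff_topologicalClosure_eq_top, Submodule.topologicalClosure_eq_top_iff,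
      Submodule.eq_bot_iff]
    refine fun v hv => hs v fun q hq => ?_
    have e1 := (hP q hq).isIdempotentElem.eq
    have h1 : ⟪q (q v), v⟫_ℂ = 0 := hv _ (Submodule.subset_span ⟨q, hq, congr($e1 (q v))⟩)
    rwa [← ContinuousLinearMap.adjoint_inner_right, (hP q hq).isSelfAdjoint.adjoint_eq,
      inner_self_eq_zero] at h1
  have hT : ∀ w ∈ W, ∃ T : Finset (H →L[ℂ] H), ↑T ⊆ S ∧
      ∀ T' : Finset (H →L[ℂ] H), T ⊆ T' → ↑T' ⊆ S → (∑ r ∈ T', r) w = w := fun w hw => by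
    induction hw using Submodule.span_induction with
    | mem v hv =>
      obtain ⟨q, hq, e⟩ := hv
      refine ⟨{q}, by simpa using hq, fun T' h1 h2 => ?_⟩
      rw [← e, ← ContinuousLinearMap.mul_apply,
        sum_mul_orth hP ho h2 (h1 (Finset.mem_singleton_self q))]
    | zero => exact ⟨∅, by simp, fun _ _ _ => map_zero _⟩
    | add v w _ _ hv hw =>
      obtain ⟨T1, a1, b1⟩ := hv
      obtain ⟨T2, a2, b2⟩ := hw
      refine ⟨T1 ∪ T2, by simp [a1, a2], fun T' h1 h2 => ?_⟩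
      rw [map_add, b1 T' (Finset.subset_union_left.trans h1) h2,
        b2 T' (Finset.subset_union_right.trans h1) h2]
    | smul c v _ hv =>
      obtain ⟨T1, a1, b1⟩ := hv
      exact ⟨T1, a1, fun T' h1 h2 => by rw [map_smul, b1 T' h1 h2]⟩
  choose w hw1 hw2 using fun v => hW.exists_dist_lt v hη
  choose T hT1 hT2 using fun v => hT (w v) (hw1 v)
  let T0 := F.biUnion T
  have hT0 : ↑T0 ⊆ S := fun q hq => by
    obtain ⟨v, -, hv⟩ := Finset.mem_biUnion.1 hq
    exact hT1 v hv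
  set p := ∑ r ∈ T0, r with hp
  have hpq : ∀ q ∈ T0, p * q = q := fun q hq => sum_mul_orth hP ho hT0 hq
  have hpP : IsStarProjection p := ⟨by
    show p * p = p
    nth_rewrite 2 [hp]
    rw [Finset.mul_sum]
    exact Finset.sum_congr rfl hpq, by
    show star p = p
    rw [hp, star_sum]
    exact Finset.sum_congr rfl fun q hq => (hP q (hT0 hq)).isSelfAdjoint.star_eq⟩
  let e := T0.equivFin.symm
  choose ξ hξ1 hξ2 using fun i : Fin T0.card => (hS _ (hT0 (e i).2)).2.2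
  have key : ∀ x ∈ M, x * p = x → τ (x * star x) = ENNReal.ofReal (∑ i, ‖x (ξ i)‖ ^ 2) := by
    intro x hx hxp
    have hm : ∀ i, x * (e i : H →L[ℂ] H) ∈ M := fun i => mul_mem hx (hS _ (hT0 (e i).2)).1
    rw [ENNReal.ofReal_sum_of_nonneg fun _ _ => sq_nonneg _]
    simp only [← hξ2 _ x hx, h.tracial _ (hm _)]
    rw [← h.sum Finset.univ fun i => ⟨mul_mem (hm i) (star_mem (hm i)), mul_star_self_nonneg _⟩]
    congr 1
    have e1 : ∀ i, x * (e i : H →L[ℂ] H) * star (x * (e i : H →L[ℂ] H)) =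
        x * (e i : H →L[ℂ] H) * star x := fun i => by
      have := hP _ (hT0 (e i).2)
      rw [star_mul, this.isSelfAdjoint.star_eq, ← mul_assoc, mul_assoc x, this.isIdempotentElem.eq]
    simp only [e1]
    rw [← Finset.sum_mul, ← Finset.mul_sum, e.sum_comp fun r => (r : H →L[ℂ] H),
      Finset.sum_coe_sort T0 fun r => r, ← hp, hxp]
  have hr : ∀ x : H →L[ℂ] H, p * x * p = x → x * p = x := fun x hx => by
    rw [← hx, mul_assoc, hpP.isIdempotentElem.eq]
  refine ⟨p, sum_mem fun q hq => (hS q (hT0 hq)).1, hpP, fun v hv => ?_, Fin T0.card,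
    inferInstance, ξ, fun i => ?_, fun x hx hxp => ?_, fun x hx hxp h0 => ?_⟩
  · have h1 : p (w v) = w v := hT2 v T0 (Finset.subset_biUnion_of_mem T hv) hT0
    have h2 : p v - v = (1 - p) (w v - v) := by simp [h1]
    rw [h2]
    refine ((1 - p).le_of_opNorm_le hpP.one_sub.norm_le _).trans ?_
    rw [one_mul, ← dist_eq_norm, dist_comm]
    exact (hw2 v).le
  · rw [← hξ1 i, ← ContinuousLinearMap.mul_apply, hpq _ (e i).2]
  · have h1 := key x hx (hr x hxp)
    have h2 := key (star x) (star_mem hx) (hr _ (by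
      simpa [hpP.isSelfAdjoint.star_eq, mul_assoc] using congrArg star hxp))
    rw [star_star, h.tracial x hx, h1] at h2
    exact ((ENNReal.ofReal_eq_ofReal_iff (by positivity) (by positivity)).1 h2).symm
  · have h1 := key x hx (hr x hxp)
    simp only [h0, norm_zero] at h1
    exact (CStarRing.mul_star_self_eq_zero_iff x).1 (h.faithful _ (mul_mem hx (star_mem hx))
      (mul_star_self_nonneg x) (by simpa using h1))

end Vale.Agent.P096
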