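import Vale.Agent.P096.Op

/-! Two by two amplification. -/

namespace Vale.Agent.P096

open scoped InnerProductSpace Topology
open Filter

universe u

namespace Am

variable (E : Type*) [Ring E] [StarRing E] [Algebra ℂ E]

/-- a matrix acting on the first index -/
def LM : Matrix (Fin 2) (Fin 2) E →⋆ₐ[ℂ] Matrix (Fin 2 × Fin 2) (Fin 2 × Fin 2) E where
  toFun X := Matrix.of fun p q => if p.2 = q.2 then X p.1 q.1 else 0
  map_one' := by
    ext ⟨i, k⟩ ⟨j, l⟩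
    by_cases h : k = l <;> simp [Matrix.one_apply, h]
  map_mul' X Y := by
    ext ⟨i, k⟩ ⟨j, l⟩
    by_cases h : k = l <;> simp [Matrix.mul_apply, Fintype.sum_prod_type, h]
  map_zero' := by ext p q; simp
  map_add' X Y := by ext p q; by_cases h : p.2 = q.2 <;> simp [h]
  commutes' c := by
    ext ⟨i, k⟩ ⟨j, l⟩
    by_cases h : k = l <;> simp [Matrix.algebraMap_matrix_apply, h]
  map_star' X := by
    ext ⟨i, k⟩ ⟨j, l⟩
    by_cases h : k = l <;> simp [Matrix.star_apply, h, eq_comm]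

/-- a matrix acting on the second index -/
def RM : Matrix (Fin 2) (Fin 2) E →⋆ₐ[ℂ] Matrix (Fin 2 × Fin 2) (Fin 2 × Fin 2) E where
  toFun X := Matrix.of fun p q => if p.1 = q.1 then X p.2 q.2 else 0
  map_one' := by
    ext ⟨i, k⟩ ⟨j, l⟩
    by_cases h : i = j <;> simp [Matrix.one_apply, h]
  map_mul' X Y := by
    ext ⟨i, k⟩ ⟨j, l⟩
    by_cases h : i = j <;> simp [Matrix.mul_apply, Fintype.sum_prod_type, h]
  map_zero' := by ext p q; simp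
  map_add' X Y := by ext p q; by_cases h : p.1 = q.1 <;> simp [h]
  commutes' c := by
    ext ⟨i, k⟩ ⟨j, l⟩
    by_cases h : i = j <;> simp [Matrix.algebraMap_matrix_apply, h]
  map_star' X := by
    ext ⟨i, k⟩ ⟨j, l⟩
    by_cases h : i = j <;> simp [Matrix.star_apply, h, eq_comm]

variable {E}

omit [StarRing E] in
/-- matrices over a subalgebra -/
def mS (B : Subalgebra ℂ E) : Subalgebra ℂ (Matrix (Fin 2) (Fin 2) E) where
  carrier := {X | ∀ i j, X i j ∈ B}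
  mul_mem' hX hY i j := by
    rw [Matrix.mul_apply]; exact sum_mem fun k _ => mul_mem (hX _ _) (hY _ _)
  add_mem' hX hY i j := add_mem (hX i j) (hY i j)
  algebraMap_mem' c i j := by
    rw [Matrix.algebraMap_matrix_apply]
    split_ifs
    exacts [B.algebraMap_mem c, zero_mem _]

/-- matrices over a star subalgebra -/
def mT [StarModule ℂ E] (A : StarSubalgebra ℂ E) : StarSubalgebra ℂ (Matrix (Fin 2) (Fin 2) E) where
  toSubalgebra := mS A.toSubalgebra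
  star_mem' hX i j := star_mem (s := A) (hX j i)

end Am

variable {K : Type*} [NormedAddCommGroup K] [InnerProductSpace ℂ K] [CompleteSpace K]

/-- Matrices of vectors. -/
abbrev K2 (K : Type*) := Pw (Fin 2 × Fin 2) K

variable (K) in
/-- Action on the first index. -/
noncomputable def Lm : Matrix (Fin 2) (Fin 2) (K →L[ℂ] K) →⋆ₐ[ℂ] (K2 K →L[ℂ] K2 K) :=
  (op K (Fin 2 × Fin 2)).comp (Am.LM _)

variable (K) in
/-- Action on the second index. -/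
noncomputable def Rm : Matrix (Fin 2) (Fin 2) (K →L[ℂ] K) →⋆ₐ[ℂ] (K2 K →L[ℂ] K2 K) :=
  (op K (Fin 2 × Fin 2)).comp (Am.RM _)

lemma Lm_apply (X : Matrix (Fin 2) (Fin 2) (K →L[ℂ] K)) (v : K2 K) (i k : Fin 2) :
    Lm K X v (i, k) = ∑ j, X i j (v (j, k)) := by
  change op K _ (Matrix.of fun p q : Fin 2 × Fin 2 => if p.2 = q.2 then X p.1 q.1 else 0) v _ = _
  simp [op_apply, Fintype.sum_prod_type, DFunLike.ite_apply, -Fin.sum_univ_two]

lemma Rm_apply (X : Matrix (Fin 2) (Fin 2) (K →L[ℂ] K)) (v : K2 K) (i k : Fin 2) :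
    Rm K X v (i, k) = ∑ j, X k j (v (i, j)) := by
  change op K _ (Matrix.of fun p q : Fin 2 × Fin 2 => if p.1 = q.1 then X p.2 q.2 else 0) v _ = _
  simp [op_apply, Fintype.sum_prod_type, DFunLike.ite_apply, -Fin.sum_univ_two]

/-- The diagonal vector. -/
noncomputable def dg (Ω : K) : K2 K := WithLp.toLp 2 fun p => if p.1 = p.2 then Ω else 0

lemma norm_Lm_le {X : Matrix (Fin 2) (Fin 2) (K →L[ℂ] K)} {r : ℝ} (h : ∀ i j, ‖X i j‖ ≤ r) :
    ‖Lm K X‖ ≤ 16 * r := by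
  have h0 := (norm_nonneg _).trans (h 0 0)
  refine (norm_op_le (Am.LM _ X)).trans ((Finset.sum_le_sum fun p _ =>
    Finset.sum_le_sum (g := fun _ => r) fun q _ => ?_).trans (le_of_eq (by simp; ring)))
  change ‖if p.2 = q.2 then X p.1 q.1 else 0‖ ≤ r
  split_ifs
  exacts [h _ _, by simpa using h0]

lemma norm_Rm_le {X : Matrix (Fin 2) (Fin 2) (K →L[ℂ] K)} {r : ℝ} (h : ∀ i j, ‖X i j‖ ≤ r) :
    ‖Rm K X‖ ≤ 16 * r := by
  have h0 := (norm_nonneg _).trans (h 0 0)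
  refine (norm_op_le (Am.RM _ X)).trans ((Finset.sum_le_sum fun p _ =>
    Finset.sum_le_sum (g := fun _ => r) fun q _ => ?_).trans (le_of_eq (by simp; ring)))
  change ‖if p.1 = q.1 then X p.2 q.2 else 0‖ ≤ r
  split_ifs
  exacts [h _ _, by simpa using h0]

namespace Am

lemma entry_Lm (X : Matrix (Fin 2) (Fin 2) (K →L[ℂ] K)) (i j : Fin 2) : ‖X i j‖ ≤ ‖Lm K X‖ := by
  have h1 : LM _ X (i, 0) (j, 0) = X i j := by simp [LM]
  have h2 := norm_entry_le (LM _ X) (i, 0) (j, 0)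
  rwa [h1] at h2

lemma entry_Rm (X : Matrix (Fin 2) (Fin 2) (K →L[ℂ] K)) (i j : Fin 2) : ‖X i j‖ ≤ ‖Rm K X‖ := by
  have h1 : RM _ X (0, i) (0, j) = X i j := by simp [RM]
  have h2 := norm_entry_le (RM _ X) (0, i) (0, j)
  rwa [h1] at h2

lemma Lm_dg (X : Matrix (Fin 2) (Fin 2) (K →L[ℂ] K)) (Ω : K) (i k : Fin 2) :
    Lm K X (dg Ω) (i, k) = X i k Ω := by
  rw [Lm_apply]
  simp [dg, apply_ite (X i _), -Fin.sum_univ_two]

lemma Rm_dg (X : Matrix (Fin 2) (Fin 2) (K →L[ℂ] K)) (Ω : K) (i k : Fin 2) :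
    Rm K X (dg Ω) (i, k) = X k i Ω := by
  rw [Rm_apply]
  simp [dg, apply_ite (X k _), -Fin.sum_univ_two]

lemma Lm_Rm {X Y : Matrix (Fin 2) (Fin 2) (K →L[ℂ] K)}
    (h : ∀ i j k l, X i j * Y k l = Y k l * X i j) : Lm K X * Rm K Y = Rm K Y * Lm K X := by
  have h' : ∀ i j k l v, X i j (Y k l v) = Y k l (X i j v) :=
    fun i j k l v => congr($(h i j k l) v)
  refine ContinuousLinearMap.ext fun v => PiLp.ext fun ⟨i, k⟩ => ?_
  simp only [ContinuousLinearMap.mul_apply, Lm_apply, Rm_apply, map_sum, h']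
  exact Finset.sum_comm

omit [InnerProductSpace ℂ K] [CompleteSpace K] in
lemma norm_K2_le {v : K2 K} {r : ℝ} (f : Fin 2 → Fin 2 → Fin 2 → K)
    (e : ∀ i k, v (i, k) = ∑ j, f i k j) (h : ∀ i k j, ‖f i k j‖ ≤ r) : ‖v‖ ≤ 16 * r := by
  have h0 := (norm_nonneg _).trans (h 0 0 0)
  refine (norm_le_sum v).trans ((Finset.sum_le_sum (g := fun _ => r + r) fun ⟨i, k⟩ _ => ?_).trans
    (by simp; linarith))
  rw [e, Fin.sum_univ_two]
  exact (norm_add_le _ _).trans (add_le_add (h _ _ _) (h _ _ _))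

end Am

open Am in
/-- The amplified data. -/
theorem exists_amp (A R : StarSubalgebra ℂ (K →L[ℂ] K)) (B D : Subalgebra ℂ (K →L[ℂ] K)) (Ω : K)
    {δ γ : ℝ} (hδ : 0 ≤ δ) (hγ : 0 ≤ γ) (h1 : Cm (A : Set (K →L[ℂ] K)) R)
    (h2 : Cm (D : Set (K →L[ℂ] K)) B) (h3 : Sel A Ω δ γ R B) (h4 : Sel A Ω δ γ A D)
    (h5 : Gam A Ω γ B) :
    ∃ (A' R' : StarSubalgebra ℂ (K2 K →L[ℂ] K2 K)) (B' D' : Subalgebra ℂ (K2 K →L[ℂ] K2 K)),
      (∀ X, (∀ i j, X i j ∈ A) → Lm K X ∈ A') ∧ (∀ X, (∀ i j, X i j ∈ R) → Rm K X ∈ R') ∧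
      (∀ X, (∀ i j, X i j ∈ B) → Rm K X ∈ B') ∧ Cm (A' : Set (K2 K →L[ℂ] K2 K)) R' ∧
      Cm (D' : Set (K2 K →L[ℂ] K2 K)) B' ∧ Sel A' (dg Ω) (16 * δ) (16 * γ) R' B' ∧
      Sel A' (dg Ω) (16 * δ) (16 * γ) A' D' ∧ Gam A' (dg Ω) (16 * γ) B' := by
  refine ⟨(mT A).map (Lm K), (mT R).map (Rm K), (mS B).map (Rm K : _ →ₐ[ℂ] _),
    (mS D).map (Lm K : _ →ₐ[ℂ] _), fun X hX => ⟨X, hX, rfl⟩, fun X hX => ⟨X, hX, rfl⟩,
    fun X hX => ⟨X, hX, rfl⟩, ?_, ?_, ?_, ?_, ?_⟩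
  · rintro _ ⟨X, hX, rfl⟩ _ ⟨Y, hY, rfl⟩
    exact Lm_Rm fun i j k l => h1 _ (hX i j) _ (hY k l)
  · rintro _ ⟨X, hX, rfl⟩ _ ⟨Y, hY, rfl⟩
    exact Lm_Rm fun i j k l => h2 _ (hX i j) _ (hY k l)
  · rintro _ ⟨Y, hY, rfl⟩
    choose c hc e w using fun i j => h3 _ (hY i j)
    refine ⟨Rm K (Matrix.of c), ⟨_, hc, rfl⟩, ?_, ?_⟩
    · change ‖Rm K Y - Rm K (Matrix.of c)‖ ≤ 16 * δ * ‖Rm K Y‖
      rw [← map_sub, mul_assoc]
      exact norm_Rm_le fun i j => (e i j).trans (by gcongr; exact entry_Rm Y i j)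
    · rintro _ ⟨Z, hZ, rfl⟩
      change ‖(Rm K Y - Rm K (Matrix.of c)) (Lm K Z (dg Ω))‖ ≤ 16 * γ * ‖Rm K Y‖ * ‖Lm K Z‖
      rw [← map_sub, mul_assoc, mul_assoc, ← mul_assoc γ]
      refine norm_K2_le (fun i k j => (Y k j - c k j) (Z i j Ω)) (fun i k => ?_) fun i k j =>
        (w k j _ (hZ i j)).trans (by gcongr; exacts [entry_Rm Y k j, entry_Lm Z i j])
      simp only [Rm_apply, Lm_dg]; rfl
  · rintro _ ⟨Y, hY, rfl⟩
    choose c hc e w using fun i j => h4 _ (hY i j)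
    refine ⟨Lm K (Matrix.of c), ⟨_, hc, rfl⟩, ?_, ?_⟩
    · change ‖Lm K Y - Lm K (Matrix.of c)‖ ≤ 16 * δ * ‖Lm K Y‖
      rw [← map_sub, mul_assoc]
      exact norm_Lm_le fun i j => (e i j).trans (by gcongr; exact entry_Lm Y i j)
    · rintro _ ⟨Z, hZ, rfl⟩
      change ‖(Lm K Y - Lm K (Matrix.of c)) (Lm K Z (dg Ω))‖ ≤ 16 * γ * ‖Lm K Y‖ * ‖Lm K Z‖
      rw [← map_sub, mul_assoc, mul_assoc, ← mul_assoc γ]
      refine norm_K2_le (fun i k j => (Y i j - c i j) (Z j k Ω)) (fun i k => ?_) fun i k j =>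
        (w i j _ (hZ j k)).trans (by gcongr; exacts [entry_Lm Y i j, entry_Lm Z j k])
      rw [Lm_apply]
      simp only [Lm_dg]; rfl
  · rintro _ ⟨X, hX, rfl⟩ _ ⟨c, hc, rfl⟩
    change ‖(Lm K X * Rm K c - Rm K c * Lm K X) (dg Ω)‖ ≤ 16 * γ * ‖Lm K X‖ * ‖Rm K c‖
    rw [mul_assoc, mul_assoc, ← mul_assoc γ]
    refine norm_K2_le (fun i k j => (X i j * c k j - c k j * X i j) Ω) (fun i k => ?_)
      fun i k j => (h5 _ (hX i j) _ (hc k j)).trans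
        (by gcongr; exacts [entry_Lm X i j, entry_Rm c k j])
    simp only [ContinuousLinearMap.sub_apply, ContinuousLinearMap.mul_apply, PiLp.sub_apply,
      Finset.sum_sub_distrib]
    rw [Lm_apply, Rm_apply]
    simp only [Lm_dg, Rm_dg]

end Vale.Agent.P096
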