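import Vale.Agent.P096.Defs
import Vale.Agent.P082.Cut

/-! Perturbation of unitaries and projections. -/

namespace Vale.Agent.P096

open scoped InnerProductSpace Topology
open Filter

universe u

variable {E : Type*} [CStarAlgebra E]

/-- Inverses of operators bounded below. -/
lemma exists_inv [PartialOrder E] [StarOrderedRing E] {b : E} {δ : ℝ} (hδ : 0 < δ)
    (hb : algebraMap ℝ E δ ≤ b) : ∃ r : E, 0 ≤ r ∧ r * b * r = 1 ∧ r * r * b = 1 ∧
      ‖r * r‖ ≤ δ⁻¹ ∧ ∀ y, y * b = b * y → y * r = r * y := by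
  obtain ⟨r, h0, h1, h2⟩ := P082.exists_isqrt hδ hb
  refine ⟨r, h0, h1, by rw [mul_assoc, ← h2 b rfl, ← mul_assoc, h1], ?_, h2⟩
  have h3 := h0.isSelfAdjoint.conjugate_le_conjugate hb
  rw [h1, Algebra.algebraMap_eq_smul_one, mul_smul_comm, mul_one, smul_mul_assoc] at h3
  have h4 : 0 ≤ r * r := h0.isSelfAdjoint.mul_self_nonneg
  have h5 := (CStarAlgebra.norm_le_one_iff_of_nonneg _ (smul_nonneg hδ.le h4)).2 h3
  rw [norm_smul, Real.norm_of_nonneg hδ.le] at h5
  rw [← one_div, le_div_iff₀' hδ]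
  exact h5

lemma isqrt_near {b : E} (hb : IsSelfAdjoint b) {κ : ℝ} (h : ‖b - 1‖ ≤ κ) (hκ : 16 * κ ≤ 9) :
    ∃ r : E, IsSelfAdjoint r ∧ r * b * r = 1 ∧ ‖r - 1‖ ≤ 16 / 7 * κ ∧
      ∀ y, y * b = b * y → y * r = r * y := by
  let := CStarAlgebra.spectralOrder E
  have := CStarAlgebra.spectralOrderedRing E
  have h1 : algebraMap ℝ E (7 / 16) ≤ b := by
    have h2 := (hb.sub (.one E)).neg_algebraMap_norm_le_self
    rw [le_sub_iff_add_le] at h2
    refine le_trans ?_ h2
    rw [← map_one (algebraMap ℝ E), ← map_neg, ← map_add, ← sub_nonneg, ← map_sub,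
      Algebra.algebraMap_eq_smul_one, map_one]
    exact smul_nonneg (by linarith) zero_le_one
  obtain ⟨r, h0, h2, h3, h4, h5⟩ := exists_inv (by norm_num) h1
  obtain ⟨s, -, -, h6, h7, -⟩ := exists_inv (b := r + 1) one_pos (by
    rw [map_one]; exact le_add_of_nonneg_left h0)
  refine ⟨r, h0.isSelfAdjoint, h2, ?_, h5⟩
  have e1 : r - 1 = -(s * s * (r * r * (b - 1))) := by
    rw [mul_sub (r * r), h3, mul_one, ← mul_neg, neg_sub,
      show r * r - 1 = (r + 1) * (r - 1) by noncomm_ring, ← mul_assoc, h6, one_mul]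
  rw [e1, norm_neg]
  refine (norm_mul_le _ _).trans ?_
  have h8 := (norm_mul_le (r * r) (b - 1)).trans
    (mul_le_mul h4 h (norm_nonneg _) (by norm_num))
  refine (mul_le_mul h7 h8 (norm_nonneg _) (by norm_num)).trans_eq ?_
  norm_num

lemma norm_le_of_near {v s : E} {η : ℝ} (h : ‖v - s‖ ≤ η) (hs : ‖s‖ ≤ 1) : ‖v‖ ≤ 1 + η := by
  have := norm_add_le s (v - s)
  rw [add_sub_cancel] at this
  linarith

theorem polar_near {v : E} {η : ℝ} (h : ‖v - 1‖ ≤ η) (hη : 4 * η ≤ 1) :
    ∃ r, v * r ∈ unitary E ∧ ‖v * r - 1‖ ≤ 10 * η ∧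
      ∀ y, y * (star v * v) = star v * v * y → y * r = r * y := by
  have h0 : 0 ≤ η := (norm_nonneg _).trans h
  have hv : ‖v‖ ≤ 1 + η := norm_le_of_near h P082.norm_one_le
  have h1 : ‖star v * v - 1‖ ≤ 9 / 4 * η := by
    have e1 : star v * v - 1 = star v * (v - 1) + star (v - 1) := by
      rw [star_sub, star_one]; noncomm_ring
    rw [e1]
    refine (norm_add_le _ _).trans ?_
    have h2 := (norm_mul_le (star v) (v - 1)).trans
      (mul_le_mul ((norm_star v).trans_le hv) h (norm_nonneg _) (by linarith))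
    rw [norm_star]
    nlinarith
  obtain ⟨r, hr, h2, h3, h4⟩ := isqrt_near (IsSelfAdjoint.star_mul_self v) h1 (by linarith)
  have h5 : star (v * r) * (v * r) = 1 := by
    rw [star_mul, hr.star_eq, ← h2]
    simp only [mul_assoc]
  have h6 : ‖v * r - 1‖ ≤ 15 / 2 * η := by
    have e1 : v * r - 1 = v * (r - 1) + (v - 1) := by noncomm_ring
    rw [e1]
    refine (norm_add_le _ _).trans ?_
    have h2 := (norm_mul_le v (r - 1)).trans (mul_le_mul hv h3 (norm_nonneg _) (by linarith))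
    nlinarith
  have h7 : IsUnit v := by
    have := isUnit_one_sub_of_norm_lt_one (x := 1 - v) (by rw [norm_sub_rev]; linarith)
    rwa [sub_sub_cancel] at this
  have h8 : IsUnit r := ⟨⟨r, star v * v * r, by rw [← mul_assoc, h2], by
    rw [h4 _ rfl, h2]⟩, rfl⟩
  refine ⟨r, ⟨h5, (h7.mul h8).mul_right_cancel ?_⟩, by linarith, h4⟩
  rw [mul_assoc, h5, mul_one, one_mul]

theorem proj_near (Q : StarSubalgebra ℂ E) (hQ : IsClosed (Q : Set E)) {e c : E}
    (he : IsStarProjection e) (hc : c ∈ Q) {ε : ℝ} (h : ‖c - e‖ ≤ ε) (hε : 100 * ε ≤ 1) :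
    ∃ q ∈ Q, IsStarProjection q ∧ ∃ w ∈ unitary E, ‖w - 1‖ ≤ 100 * ε ∧ w * q = e * w := by
  have h0 : 0 ≤ ε := (norm_nonneg _).trans h
  have hes := he.isSelfAdjoint.star_eq
  have hee := he.isIdempotentElem.eq
  have s1 : (e + e - 1) * (e + e - 1) = 1 := by
    simp only [mul_sub, sub_mul, mul_add, add_mul, hee, mul_one, one_mul]; abel
  have s2 : star (e + e - 1) = e + e - 1 := by simp [hes]
  have s3 : ‖e + e - 1‖ ≤ 1 := P082.norm_le_one_of_iso (by rw [s2, s1])
  let u : Q := ⟨c, hc⟩ + star ⟨c, hc⟩ - 1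
  have hu : IsSelfAdjoint u := (IsSelfAdjoint.add_star_self _).sub (.one Q)
  have u1 : ‖(u : E) - (e + e - 1)‖ ≤ 2 * ε := by
    have : (u : E) - (e + e - 1) = (c - e) + star (c - e) := by
      show c + star c - 1 - _ = _
      rw [star_sub, hes]; abel
    rw [this]
    refine (norm_add_le _ _).trans ?_
    rw [norm_star]
    linarith
  have u2 := norm_le_of_near u1 s3
  have u3 : ‖u * u - 1‖ ≤ 5 * ε := by
    show ‖(u : E) * u - 1‖ ≤ _
    have e1 : (u : E) * u - 1 = u * (u - (e + e - 1)) + (u - (e + e - 1)) * (e + e - 1) := by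
      rw [mul_sub (u : E), sub_mul (u : E), s1]; abel
    rw [e1]
    refine (norm_add_le _ _).trans ?_
    have h2 := (norm_mul_le _ _).trans (mul_le_mul u2 u1 (norm_nonneg _) (by linarith))
    have h3 := (norm_mul_le _ _).trans (mul_le_mul u1 s3 (norm_nonneg _) (by linarith))
    nlinarith
  obtain ⟨r, hr, r1, r2, r3⟩ := isqrt_near (b := u * u) (by
    rw [IsSelfAdjoint, star_mul, hu.star_eq]) u3 (by linarith)
  have r4 : u * r = r * u := r3 u (mul_assoc _ _ _).symm
  have t1 : star (u * r) = u * r := by rw [star_mul, hr.star_eq, hu.star_eq, r4]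
  have t2 : u * r * (u * r) = 1 := by
    nth_rewrite 1 [r4]
    rw [← r1]
    simp only [mul_assoc]
  obtain ⟨t, htQ, t1, t2, t3⟩ : ∃ t ∈ Q, star t = t ∧ t * t = 1 ∧ ‖t - (e + e - 1)‖ ≤ 14 * ε := by
    refine ⟨(u * r : Q), (u * r).2, congrArg Subtype.val t1, congrArg Subtype.val t2, ?_⟩
    have e1 : ((u * r : Q) : E) - (e + e - 1) = u * (r - 1 : Q) + (u - (e + e - 1)) := by
      show (u : E) * r - _ = (u : E) * (r - 1) + _
      noncomm_ring
    rw [e1]
    refine (norm_add_le _ _).trans ?_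
    have h2 := (norm_mul_le (u : E) (r - 1 : Q)).trans
      (mul_le_mul u2 r2 (norm_nonneg _) (by linarith))
    nlinarith
  let q : E := (2 : ℂ)⁻¹ • (1 + t)
  have hq : IsStarProjection q := ⟨by
    show q * q = q
    simp only [q, smul_mul_smul_comm, mul_add, add_mul, one_mul, mul_one, t2]
    module, by
    show star q = q
    simp [q, t1]⟩
  have hqq := hq.isIdempotentElem.eq
  have q1 : ‖q - e‖ ≤ 7 * ε := by
    have e1 : q - e = (2 : ℂ)⁻¹ • (t - (e + e - 1)) := by simp only [q]; module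
    rw [e1, norm_smul, norm_inv, Complex.norm_two]
    linarith
  let v := e * q + (1 - e) * (1 - q)
  have v1 : ‖v - 1‖ ≤ 7 * ε := by
    have e1 : v - 1 = (e + e - 1) * (q - e) := by
      simp only [v, mul_sub, sub_mul, add_mul, hee, mul_one, one_mul]; abel
    rw [e1]
    exact (norm_mul_le _ _).trans ((mul_le_mul s3 q1 (norm_nonneg _) zero_le_one).trans_eq
      (one_mul _))
  have v2 : v * q = e * v := by
    simp only [v, mul_sub, sub_mul, mul_add, add_mul, mul_one, one_mul, mul_assoc, hqq]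
    simp only [← mul_assoc, hee]
    abel
  obtain ⟨r', a1, a2, a3⟩ := polar_near v1 (by linarith)
  refine ⟨q, Q.smul_mem (add_mem (one_mem _) htQ) _, hq, v * r', a1, by linarith, ?_⟩
  have v3 := congrArg star v2
  rw [star_mul, star_mul, hq.isSelfAdjoint.star_eq, hes] at v3
  rw [mul_assoc, ← a3 q (by rw [← mul_assoc, v3, mul_assoc, mul_assoc, v2]), ← mul_assoc, v2,
    mul_assoc]

end Vale.Agent.P096
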