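import Vale.Agent.P096.Op
import Vale.Agent.P104.Main
import Vale.Agent.P096.Proj

/-! Distance to the commutant. -/

namespace Vale.Agent.P096

open scoped InnerProductSpace Topology
open Filter

universe u

/-- The universal similarity constant. -/
noncomputable def KD : ℝ := (2 * (3 * (3 * 2 ^ 2) ^ 9)) ^ 2

lemma one_le_KD : 1 ≤ KD := by norm_num [KD]

variable {H : Type*} [NormedAddCommGroup H] [InnerProductSpace ℂ H] [CompleteSpace H]

lemma exists_P {A : Type*} [CStarAlgebra A] (π : A →ₐ[ℂ] H →L[ℂ] H)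
    (hπ : ∀ a, ‖π a‖ ≤ 2 * ‖a‖) :
    ∃ P : H →L[ℂ] H, 1 ≤ P ∧ ‖P‖ ≤ KD ∧ ∀ a, P * π (star a) = star (π a) * P := by
  obtain ⟨φ, h1, h2, h3⟩ := P104.SimA.exists_functional (π := π) (K := 3 * (3 * 2 ^ 2) ^ 9)
    (by norm_num) fun m x hx => P104.bd_unitary one_le_two hπ hx
  obtain ⟨P, hP⟩ := P104.SimA.exists_op φ (sq_nonneg _) (fun ξ => (sq_nonneg _).trans (h1 ξ)) h2
  have h4 : 1 ≤ P := by
    rw [ContinuousLinearMap.le_def, ContinuousLinearMap.isPositive_iff_complex]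
    intro ξ
    have : ⟪(P - 1) ξ, ξ⟫_ℂ = ((φ (P104.SimA.om ξ) - ‖ξ‖ ^ 2 : ℝ) : ℂ) := by
      simp [inner_sub_left, hP]
    rw [this]
    exact ⟨by simp only [RCLike.re_to_complex, Complex.ofReal_re], sub_nonneg.mpr (h1 ξ)⟩
  have h4' : P ≤ algebraMap ℝ _ KD := by
    rw [ContinuousLinearMap.le_def, ContinuousLinearMap.isPositive_iff_complex]
    intro ξ
    have : ⟪(algebraMap ℝ (H →L[ℂ] H) KD - P) ξ, ξ⟫_ℂ =
        ((KD * ‖ξ‖ ^ 2 - φ (P104.SimA.om ξ) : ℝ) : ℂ) := by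
      rw [Algebra.algebraMap_eq_smul_one, ← Complex.coe_smul]
      simp [inner_sub_left, hP, inner_smul_left]
    rw [this]
    exact ⟨by simp only [RCLike.re_to_complex, Complex.ofReal_re], sub_nonneg.mpr (h2 ξ)⟩
  have h5 : ∀ u : unitary A, star (π u) * P * π u = P := fun u => by
    refine ContinuousLinearMap.coe_injective ((ext_inner_map _ _).mp fun ξ => ?_)
    simp [ContinuousLinearMap.star_eq_adjoint, ContinuousLinearMap.adjoint_inner_left, hP, h3]
  refine ⟨P, h4, (CStarAlgebra.norm_le_iff_le_algebraMap _ (zero_le_one.trans one_le_KD)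
    (zero_le_one.trans h4)).2 h4', fun a => ?_⟩
  obtain ⟨u, c, rfl, -⟩ := CStarAlgebra.exists_sum_four_unitary a
  simp only [star_sum, map_sum, star_smul, map_smul, Finset.mul_sum, Finset.sum_mul,
    mul_smul_comm, smul_mul_assoc]
  refine Finset.sum_congr rfl fun i _ => congrArg _ ?_
  conv_lhs => rw [← h5 (u i)]
  rw [mul_assoc, ← map_mul, (u i).2.2, map_one, mul_one]

lemma op_ent {ι : Type*} [Fintype ι] [DecidableEq ι] (T : Pw ι H →L[ℂ] Pw ι H) :
    op H ι (Matrix.of (ent T)) = T := by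
  ext v i
  rw [op_apply, apply_eq_sum_ent]
  rfl

lemma op_inj {ι : Type*} [Fintype ι] [DecidableEq ι] {X Y : Matrix ι ι (H →L[ℂ] H)}
    (h : op H ι X = op H ι Y) : X = Y := by
  ext1 i j
  rw [← ent_op X, h, ent_op]

theorem dk {A : Type*} [CStarAlgebra A] (ρ : A →⋆ₐ[ℂ] (H →L[ℂ] H)) (T : H →L[ℂ] H) {ε : ℝ}
    (hε : 0 ≤ ε) (h : ∀ a, ‖T * ρ a - ρ a * T‖ ≤ ε * ‖a‖) :
    ∃ S, (∀ a, S * ρ a = ρ a * S) ∧ ‖T - S‖ ≤ KD * ε := by
  rcases hε.eq_or_lt with rfl | hε0
  · exact ⟨T, fun a => sub_eq_zero.1 (norm_le_zero_iff.1 (by simpa using h a)), by simp⟩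
  have hc : (ε : ℂ) ≠ 0 := by exact_mod_cast hε0.ne'
  let D : A → H →L[ℂ] H := fun a => (ε : ℂ)⁻¹ • (T * ρ a - ρ a * T)
  let πm : A →ₐ[ℂ] Matrix (Fin 2) (Fin 2) (H →L[ℂ] H) :=
    { toFun := fun a => !![ρ a, D a; 0, ρ a]
      map_one' := by
        ext1 i j
        fin_cases i <;> fin_cases j <;> simp [D]
      map_mul' := fun a b => by
        ext1 i j
        fin_cases i <;> fin_cases j <;>
          simp [D, Matrix.mul_apply, Fin.sum_univ_two, mul_sub, sub_mul, smul_sub, mul_assoc]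
      map_zero' := by
        ext1 i j
        fin_cases i <;> fin_cases j <;> simp [D]
      map_add' := fun a b => by
        ext1 i j
        fin_cases i <;> fin_cases j <;> simp [D, mul_add, add_mul, smul_sub, add_sub_add_comm]
      commutes' := fun c => by
        ext1 i j
        fin_cases i <;> fin_cases j <;> simp [D, Algebra.algebraMap_eq_smul_one] }
  have hπm : ∀ a, πm a = !![ρ a, D a; 0, ρ a] := fun _ => rfl
  obtain ⟨P, h1, h2, h3⟩ := exists_P ((op H (Fin 2)).toAlgHom.comp πm) fun a => by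
    have e1 : ((op H (Fin 2)).toAlgHom.comp πm) a =
        amp H (Fin 2) (ρ a) + op H (Fin 2) !![0, D a; 0, 0] := by
      ext v i
      show op H (Fin 2) (πm a) v i = amp H (Fin 2) (ρ a) v i + op H (Fin 2) !![0, D a; 0, 0] v i
      rw [amp_apply, op_apply, op_apply, hπm]
      fin_cases i <;> simp
    have e2 : ‖D a‖ ≤ ‖a‖ := by
      rw [norm_smul, norm_inv, Complex.norm_real, Real.norm_of_nonneg hε, inv_mul_le_iff₀ hε0]
      exact h a
    have e3 := norm_op_le !![0, D a; 0, 0]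
    have e4 := (NonUnitalStarAlgHom.norm_apply_le (amp H (Fin 2)) (ρ a)).trans
      (NonUnitalStarAlgHom.norm_apply_le ρ a)
    simp [Fin.sum_univ_two] at e3
    rw [e1]
    exact (norm_add_le _ _).trans (by linarith)
  have h4 : ∀ a, Matrix.of (ent P) * πm (star a) = star (πm a) * Matrix.of (ent P) := fun a =>
    op_inj (by rw [map_mul, map_mul, map_star (op H (Fin 2)), op_ent]; exact h3 a)
  have h5 : ∀ b, ent P 0 0 * ρ b = ρ b * ent P 0 0 := fun b => by
    simpa [hπm, Matrix.mul_apply, map_star] using congr($(h4 (star b)) 0 0)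
  have h6 : ∀ b, ent P 0 0 * D b + ent P 0 1 * ρ b = ρ b * ent P 0 1 := fun b => by
    simpa [hπm, Matrix.mul_apply, map_star] using congr($(h4 (star b)) 0 1)
  have h7 : algebraMap ℝ _ 1 ≤ ent P 0 0 := by
    rw [map_one, ContinuousLinearMap.le_def, ContinuousLinearMap.isPositive_iff_complex]
    intro ξ
    have e1 : ⟪(ent P 0 0 - 1) ξ, ξ⟫_ℂ =
        ⟪(P - 1) (PiLp.single 2 0 ξ), PiLp.single 2 (0 : Fin 2) ξ⟫_ℂ := by
      simp [PiLp.inner_apply, ent_apply]
    rw [e1]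
    exact (ContinuousLinearMap.isPositive_iff_complex _).1 h1 _
  obtain ⟨r, -, -, r1, r2, r3⟩ := exists_inv one_pos h7
  have h8 : ∀ b, r * r * ρ b = ρ b * (r * r) := fun b => by
    rw [mul_assoc, ← r3 _ (h5 b).symm, ← mul_assoc, ← r3 _ (h5 b).symm, mul_assoc]
  refine ⟨T + (ε : ℂ) • (r * r * ent P 0 1), fun b => ?_, ?_⟩
  · have e1 : D b + r * r * ent P 0 1 * ρ b = ρ b * (r * r * ent P 0 1) := by
      rw [← mul_assoc (ρ b), ← h8, mul_assoc _ (ρ b), ← h6, mul_add, ← mul_assoc _ _ (D b), r1,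
        one_mul, mul_assoc _ (ent P 0 1)]
    rw [add_mul, mul_add, smul_mul_assoc, mul_smul_comm, ← e1, smul_add, smul_inv_smul₀ hc]
    abel
  · rw [sub_add_cancel_left, norm_neg, norm_smul, Complex.norm_real, Real.norm_of_nonneg hε,
      mul_comm]
    refine mul_le_mul_of_nonneg_right ((norm_mul_le _ _).trans ?_) hε
    simpa using mul_le_mul r2 ((norm_ent_le P 0 1).trans h2) (norm_nonneg _) (by norm_num)

theorem dk' (A : StarSubalgebra ℂ (H →L[ℂ] H)) (T : H →L[ℂ] H) {ε : ℝ} (hε : 0 ≤ ε)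
    (h : ∀ a ∈ A, ‖T * a - a * T‖ ≤ ε * ‖a‖) :
    ∃ S, (∀ a ∈ A, S * a = a * S) ∧ ‖T - S‖ ≤ KD * ε := by
  have hc : IsClosed (A.topologicalClosure : Set (H →L[ℂ] H)) := A.isClosed_topologicalClosure
  obtain ⟨S, h1, h2⟩ := dk A.topologicalClosure.subtype T hε fun a =>
    closure_minimal (t := {a | ‖T * a - a * T‖ ≤ ε * ‖a‖}) h
      (isClosed_le (by fun_prop) (by fun_prop)) a.2
  exact ⟨S, fun a ha => h1 ⟨a, A.le_topologicalClosure ha⟩, h2⟩

/-- Near inclusions pass to commutants. -/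
theorem near_comm (A : StarSubalgebra ℂ (H →L[ℂ] H)) {D : Set (H →L[ℂ] H)} {δ : ℝ} (hδ : 0 ≤ δ)
    (h : Near δ (A : Set (H →L[ℂ] H)) D) :
    Near (2 * KD * δ) (Set.centralizer D) (Set.centralizer (A : Set (H →L[ℂ] H))) := by
  intro c hc
  obtain ⟨S, h1, h2⟩ := dk' A c (ε := 2 * δ * ‖c‖) (by positivity) fun a ha => by
    obtain ⟨y, hy, e⟩ := h a ha
    have e1 : c * a - a * c = c * (a - y) - (a - y) * c := by
      rw [mul_sub, sub_mul, hc y hy]; abel
    rw [e1]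
    refine (norm_sub_le _ _).trans ?_
    have e2 := (norm_mul_le c _).trans (mul_le_mul_of_nonneg_left e (norm_nonneg c))
    have e3 := (norm_mul_le _ c).trans (mul_le_mul_of_nonneg_right e (norm_nonneg c))
    nlinarith
  exact ⟨S, fun a ha => (h1 a ha).symm, h2.trans_eq (by ring)⟩

end Vale.Agent.P096
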