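import Vale.Agent.P082.W
import Mathlib.Analysis.CStarAlgebra.Unitary.Span

/-! Basic notions: near inclusions, weak smallness, standard forms, averages, weak limits. -/

namespace Vale.Agent.P096

open scoped InnerProductSpace Topology
open Filter

/-- One-sided near inclusion. -/
def Near {E : Type*} [SeminormedAddCommGroup E] (δ : ℝ) (X Y : Set E) : Prop :=
  ∀ x ∈ X, ∃ y ∈ Y, ‖x - y‖ ≤ δ * ‖x‖

/-- Two sets commute. -/
def Cm {E : Type*} [Mul E] (X Y : Set E) : Prop := ∀ x ∈ X, ∀ y ∈ Y, x * y = y * x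

lemma Cm.symm {E : Type*} [Mul E] {X Y : Set E} (h : Cm X Y) : Cm Y X :=
  fun y hy x hx => (h x hx y hy).symm

lemma Near.mono {E : Type*} [SeminormedAddCommGroup E] {δ δ' : ℝ} {X Y : Set E} (h : Near δ X Y)
    (h' : δ ≤ δ') : Near δ' X Y := fun x hx => by
  obtain ⟨y, hy, e⟩ := h x hx
  exact ⟨y, hy, e.trans (by gcongr)⟩

/-- Uniform average. -/
noncomputable def av {ι E : Type*} [Fintype ι] [AddCommGroup E] [Module ℂ E] (f : ι → E) : E :=
  (Fintype.card ι : ℂ)⁻¹ • ∑ i, f i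

section av

variable {ι E F : Type*} [Fintype ι] [AddCommGroup E] [Module ℂ E] [AddCommGroup F] [Module ℂ F]

lemma av_add (f g : ι → E) : av (fun i => f i + g i) = av f + av g := by
  simp [av, Finset.sum_add_distrib]

lemma av_sub (f g : ι → E) : av (fun i => f i - g i) = av f - av g := by
  simp [av, Finset.sum_sub_distrib, smul_sub]

lemma av_neg (f : ι → E) : av (fun i => -f i) = -av f := by simp [av]

lemma av_const [Nonempty ι] (x : E) : av (fun _ : ι => x) = x := by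
  rw [av, Finset.sum_const, Finset.card_univ, ← Nat.cast_smul_eq_nsmul ℂ, smul_smul,
    inv_mul_cancel₀ (by simp), one_smul]

lemma map_av {G : Type*} [FunLike G E F] [LinearMapClass G ℂ E F] (g : G) (f : ι → E) :
    g (av f) = av fun i => g (f i) := by simp [av]

lemma av_mem {S : Type*} [SetLike S E] [AddSubmonoidClass S E] [SMulMemClass S ℂ E] {s : S}
    {f : ι → E} (h : ∀ i, f i ∈ s) : av f ∈ s :=
  SMulMemClass.smul_mem _ (sum_mem fun i _ => h i)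

lemma av_prod {κ : Type*} [Fintype κ] (f : ι × κ → E) :
    av f = av fun i => av fun j => f (i, j) := by
  simp [av, Fintype.sum_prod_type, ← Finset.smul_sum, smul_smul, mul_comm]

lemma av_comm {κ : Type*} [Fintype κ] (f : ι → κ → E) :
    (av fun i => av fun j => f i j) = av fun j => av fun i => f i j := by
  simp only [av, ← Finset.smul_sum, smul_smul, mul_comm]
  rw [Finset.sum_comm]

lemma mul_av {E : Type*} [Ring E] [Algebra ℂ E] (a : E) (f : ι → E) :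
    a * av f = av fun i => a * f i := by simp [av, Finset.mul_sum]

lemma av_mul {E : Type*} [Ring E] [Algebra ℂ E] (f : ι → E) (a : E) :
    av f * a = av fun i => f i * a := by simp [av, Finset.sum_mul]

lemma norm_av_le {E : Type*} [SeminormedAddCommGroup E] [NormedSpace ℂ E] [Nonempty ι] {f : ι → E}
    {r : ℝ} (h : ∀ i, ‖f i‖ ≤ r) : ‖av f‖ ≤ r := by
  have h0 : (0 : ℝ) < Fintype.card ι := by simp [Fintype.card_pos]
  rw [av, norm_smul, norm_inv, Complex.norm_natCast, inv_mul_le_iff₀ h0]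
  exact (norm_sum_le _ _).trans ((Finset.sum_le_sum fun i _ => h i).trans (by simp))

end av

lemma norm_unit_le {E : Type*} [CStarAlgebra E] {u : E} (h : u ∈ unitary E) : ‖u‖ ≤ 1 :=
  P082.norm_le_one_of_iso h.1

variable {K : Type*} [NormedAddCommGroup K] [InnerProductSpace ℂ K]

lemma av_apply {ι : Type*} [Fintype ι] (f : ι → K →L[ℂ] K) (v : K) :
    av f v = av fun i => f i v := by simp [av]

/-- Smallness on the vectors `x Ω`. -/
def Wk (A : Set (K →L[ℂ] K)) (Ω : K) (γ : ℝ) (r : K →L[ℂ] K) : Prop :=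
  ∀ x ∈ A, ‖r (x Ω)‖ ≤ γ * ‖x‖

/-- Near inclusion both in norm and on the vectors `x Ω`. -/
def Sel (A : Set (K →L[ℂ] K)) (Ω : K) (δ γ : ℝ) (X Y : Set (K →L[ℂ] K)) : Prop :=
  ∀ x ∈ X, ∃ y ∈ Y, ‖x - y‖ ≤ δ * ‖x‖ ∧ Wk A Ω (γ * ‖x‖) (x - y)

/-- Almost commutation at the vector `Ω`. -/
def Gam (A : Set (K →L[ℂ] K)) (Ω : K) (γ : ℝ) (B : Set (K →L[ℂ] K)) : Prop :=
  ∀ x ∈ A, ∀ c ∈ B, ‖(x * c - c * x) Ω‖ ≤ γ * ‖x‖ * ‖c‖

section

variable {A X Y : Set (K →L[ℂ] K)} {Ω : K} {δ δ' γ γ' : ℝ} {r r' : K →L[ℂ] K}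

lemma Wk.mono (h : Wk A Ω γ r) (h' : γ ≤ γ') : Wk A Ω γ' r :=
  fun x hx => (h x hx).trans (by gcongr)

lemma Wk.add (h : Wk A Ω γ r) (h' : Wk A Ω γ' r') : Wk A Ω (γ + γ') (r + r') := fun x hx => by
  rw [add_mul]
  exact (norm_add_le _ _).trans (add_le_add (h x hx) (h' x hx))

lemma Wk.neg (h : Wk A Ω γ r) : Wk A Ω γ (-r) := fun x hx => by simpa using h x hx

lemma Wk.sub (h : Wk A Ω γ r) (h' : Wk A Ω γ' r') : Wk A Ω (γ + γ') (r - r') := by
  simpa [sub_eq_add_neg] using h.add h'.neg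

lemma Wk.mul_left (h : Wk A Ω γ r) {T : K →L[ℂ] K} {b : ℝ} (hT : ‖T‖ ≤ b) :
    Wk A Ω (b * γ) (T * r) := fun x hx => by
  rw [mul_assoc]
  exact (T.le_opNorm _).trans
    (mul_le_mul hT (h x hx) (norm_nonneg _) ((norm_nonneg _).trans hT))

lemma Wk.av {ι : Type*} [Fintype ι] [Nonempty ι] {f : ι → K →L[ℂ] K} (h : ∀ i, Wk A Ω γ (f i)) :
    Wk A Ω γ (av f) := fun x hx => by
  rw [av_apply]
  exact norm_av_le fun i => h i x hx

lemma Sel.mono (h : Sel A Ω δ γ X Y) (h1 : δ ≤ δ') (h2 : γ ≤ γ') : Sel A Ω δ' γ' X Y :=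
  fun x hx => by
  obtain ⟨y, hy, e, e'⟩ := h x hx
  exact ⟨y, hy, e.trans (by gcongr), e'.mono (by gcongr)⟩

lemma Sel.near (h : Sel A Ω δ γ X Y) : Near δ X Y := fun x hx => by
  obtain ⟨y, hy, e, -⟩ := h x hx
  exact ⟨y, hy, e⟩

lemma Gam.mono (h : Gam A Ω γ X) (h' : γ ≤ γ') : Gam A Ω γ' X :=
  fun x hx c hc => (h x hx c hc).trans (by gcongr)

end

variable [CompleteSpace K]

lemma norm_unit_apply {u : K →L[ℂ] K} (h : u ∈ unitary (K →L[ℂ] K)) (v : K) : ‖u v‖ = ‖v‖ := by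
  refine le_antisymm ((u.le_of_opNorm_le (norm_unit_le h) v).trans (by simp)) ?_
  calc ‖v‖ = ‖star u (u v)‖ := by rw [← ContinuousLinearMap.mul_apply, h.1]; rfl
    _ ≤ ‖u v‖ := ((star u).le_of_opNorm_le (norm_unit_le (Unitary.star_mem h)) _).trans (by simp)

/-- Pairs of unitaries fixing the vector. -/
def St (A R : Set (K →L[ℂ] K)) (Ω : K) (g g' : K →L[ℂ] K) : Prop :=
  g ∈ unitary (K →L[ℂ] K) ∧ g' ∈ unitary (K →L[ℂ] K) ∧ g ∈ A ∧ g' ∈ R ∧ g (g' Ω) = Ω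

/-- Tracial standard form. -/
structure SF (A R : StarSubalgebra ℂ (K →L[ℂ] K)) (Ω : K) : Prop where
  cm : Cm (A : Set (K →L[ℂ] K)) R
  cA : ∀ T, (∀ a ∈ R, T * a = a * T) → T ∈ A
  cR : ∀ T, (∀ x ∈ A, T * x = x * T) → T ∈ R
  dA : ∀ v : K, ∀ η > 0, ∃ x ∈ A, ‖x Ω - v‖ ≤ η
  pA : ∀ x ∈ A, ∃ a ∈ R, a Ω = x Ω ∧ ‖a‖ ≤ ‖x‖
  pR : ∀ a ∈ R, ∃ x ∈ A, x Ω = a Ω ∧ ‖x‖ ≤ ‖a‖

/-- Every element of a closed star subalgebra is a combination of four of its unitaries. -/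
lemma exists_four {E : Type*} [CStarAlgebra E] {A : StarSubalgebra ℂ E}
    (hA : IsClosed (A : Set E)) {x : E} (hx : x ∈ A) : ∃ (u : Fin 4 → E) (c : Fin 4 → ℂ),
      (∀ i, u i ∈ unitary E ∧ u i ∈ A ∧ ‖c i‖ ≤ ‖x‖ / 2) ∧ x = ∑ i, c i • u i := by
  obtain ⟨u, c, h1, h2⟩ := CStarAlgebra.exists_sum_four_unitary (⟨x, hx⟩ : A)
  refine ⟨fun i => ((u i : A) : E), c, fun i => ⟨⟨?_, ?_⟩, (u i : A).2, h2 i⟩, ?_⟩
  · exact congrArg Subtype.val (u i).2.1
  · exact congrArg Subtype.val (u i).2.2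
  · simpa using congrArg Subtype.val h1

namespace SF

variable {A R : StarSubalgebra ℂ (K →L[ℂ] K)} {Ω : K} (h : SF A R Ω)
include h

lemma symm : SF R A Ω where
  cm := h.cm.symm
  cA := h.cR
  cR := h.cA
  dA v η hη := by
    obtain ⟨x, hx, e⟩ := h.dA v η hη
    obtain ⟨a, ha, e', -⟩ := h.pA x hx
    exact ⟨a, ha, e' ▸ e⟩
  pA := h.pR
  pR := h.pA

lemma closed : IsClosed (A : Set (K →L[ℂ] K)) := by
  have : (A : Set (K →L[ℂ] K)) = Set.centralizer (R : Set (K →L[ℂ] K)) :=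
    Set.ext fun T => ⟨fun hT a ha => (h.cm T hT a ha).symm, fun hT => h.cA T fun a ha =>
      (hT a ha).symm⟩
  rw [this]
  exact Set.isClosed_centralizer _

lemma norm_le {T : K →L[ℂ] K} {r : ℝ} (hr : 0 ≤ r) (hT : ∀ x ∈ A, ‖T (x Ω)‖ ≤ r * ‖x Ω‖) :
    ‖T‖ ≤ r := by
  refine T.opNorm_le_bound hr fun v => le_of_forall_pos_le_add fun η hη => ?_
  obtain ⟨x, hx, e⟩ := h.dA v (η / (‖T‖ + r + 1)) (by positivity)
  have h1 : ‖T v‖ ≤ ‖T (x Ω)‖ + ‖T (x Ω - v)‖ := by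
    rw [map_sub]; exact (norm_sub_le _ _).trans' (by simp)
  have h2 : ‖x Ω‖ ≤ ‖v‖ + ‖x Ω - v‖ := (norm_add_le _ _).trans' (by simp)
  have h3 := T.le_opNorm (x Ω - v)
  have h4 : (‖T‖ + r + 1) * ‖x Ω - v‖ ≤ η := by
    rwa [le_div_iff₀' (by positivity)] at e
  nlinarith [hT x hx, norm_nonneg (x Ω - v)]

lemma ext {T T' : K →L[ℂ] K} (hT : ∀ x ∈ A, T (x Ω) = T' (x Ω)) : T = T' :=
  sub_eq_zero.1 (norm_le_zero_iff.1 (h.norm_le le_rfl fun x hx => by simp [hT x hx]))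

lemma sepR {a b : K →L[ℂ] K} (ha : a ∈ R) (hb : b ∈ R) (e : a Ω = b Ω) : a = b :=
  h.ext fun x hx => by
    rw [← ContinuousLinearMap.mul_apply, ← h.cm x hx a ha, ← ContinuousLinearMap.mul_apply b,
      ← h.cm x hx b hb, ContinuousLinearMap.mul_apply, e, ContinuousLinearMap.mul_apply]

lemma comm_apply {x a : K →L[ℂ] K} (hx : x ∈ A) (ha : a ∈ R) (v : K) : x (a v) = a (x v) :=
  congr($(h.cm x hx a ha) v)

/-- The partner of a unitary is unitary. -/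
lemma unit {x : K →L[ℂ] K} (hx : x ∈ A) (hu : x ∈ unitary (K →L[ℂ] K)) :
    ∃ a ∈ R, a ∈ unitary (K →L[ℂ] K) ∧ a Ω = x Ω ∧ star a Ω = star x Ω := by
  obtain ⟨a, ha, e1, n1⟩ := h.pA x hx
  obtain ⟨b, hb, e2, n2⟩ := h.pA _ (star_mem hx)
  have n1 := n1.trans (norm_unit_le hu)
  have n2 := n2.trans (norm_unit_le (Unitary.star_mem hu))
  have f1 : a * b = 1 := h.sepR (mul_mem ha hb) (one_mem _) (by
    rw [ContinuousLinearMap.mul_apply, e2, ← h.comm_apply (star_mem hx) ha, e1,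
      ← ContinuousLinearMap.mul_apply, hu.1])
  have f2 : b * a = 1 := h.sepR (mul_mem hb ha) (one_mem _) (by
    rw [ContinuousLinearMap.mul_apply, e1, ← h.comm_apply hx hb, e2,
      ← ContinuousLinearMap.mul_apply, hu.2])
  have f3 : star a * a = 1 := by
    refine (ContinuousLinearMap.norm_map_iff_adjoint_comp_self a).1 fun v => le_antisymm
      ((a.le_of_opNorm_le n1 v).trans (by simp)) ?_
    calc ‖v‖ = ‖b (a v)‖ := by rw [← ContinuousLinearMap.mul_apply, f2]; rfl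
      _ ≤ ‖a v‖ := (b.le_of_opNorm_le n2 _).trans (by simp)
  have f4 : star a = b := by rw [← mul_one (star a), ← f1, ← mul_assoc, f3, one_mul]
  exact ⟨a, ha, ⟨f3, f4 ▸ f1⟩, e1, f4 ▸ e2⟩

lemma wk_symm {γ : ℝ} (hγ : 0 ≤ γ) {r : K →L[ℂ] K} (hr : Wk R Ω γ r) : Wk A Ω γ r :=
  fun x hx => by
  obtain ⟨a, ha, e, n⟩ := h.pA x hx
  rw [← e]
  exact (hr a ha).trans (by gcongr)

end SF

/-- The identity representation; its field `W` gives the weak operator topology. -/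
noncomputable def idRep (K : Type*) [NormedAddCommGroup K] [InnerProductSpace ℂ K]
    [CompleteSpace K] : P082.Rep (K →L[ℂ] K) K where
  π := StarAlgHom.id ℂ _
  inj := Function.injective_id
  bic T _ := ⟨T, rfl⟩

/-- Weak operator convergence (API: `P082.WL.T.add`, `sub`, `mul_left`, `mul_right`, `smul`,
`unique`, `norm_le`, `const`, `congr`). -/
abbrev WT {ι : Type*} (l : Filter ι) (x : ι → K →L[ℂ] K) (y : K →L[ℂ] K) : Prop :=
  (idRep K).W.T l x y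

section WT

variable {ι : Type*} {l : Filter ι} {x : ι → K →L[ℂ] K} {y : K →L[ℂ] K}

lemma exists_WT (U : Ultrafilter ι) {r : ℝ} (hx : ∀ᶠ i in U, ‖x i‖ ≤ r) : ∃ y, WT U x y :=
  (idRep K).W.exists_T U hx

lemma WT_iff : WT l x y ↔ ∀ ξ η, Tendsto (fun i => ⟪η, x i ξ⟫_ℂ) l (𝓝 ⟪η, y ξ⟫_ℂ) :=
  P082.Rep.W_T

lemma WT.apply_sub_le [l.NeBot] (h : WT l x y) {v w : K} {r : ℝ}
    (hx : ∀ᶠ i in l, ‖x i v - w‖ ≤ r) : ‖y v - w‖ ≤ r := by
  have hr : 0 ≤ r := by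
    obtain ⟨i, hi⟩ := hx.exists
    exact (norm_nonneg _).trans hi
  have h1 := ((WT_iff.1 h v (y v - w)).sub_const ⟪y v - w, w⟫_ℂ).norm
  simp only [← inner_sub_right] at h1
  have h2 := le_of_tendsto h1 (hx.mono fun i hi =>
    (norm_inner_le_norm _ _).trans (mul_le_mul_of_nonneg_left hi (norm_nonneg _)))
  rw [inner_self_eq_norm_sq_to_K, norm_pow, RCLike.norm_ofReal, abs_norm] at h2
  by_contra! h0
  nlinarith

lemma WT.apply_le [l.NeBot] (h : WT l x y) {v : K} {r : ℝ} (hx : ∀ᶠ i in l, ‖x i v‖ ≤ r) :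
    ‖y v‖ ≤ r := by simpa using h.apply_sub_le (w := 0) (by simpa using hx)

lemma WT.apply_eq [l.NeBot] (h : WT l x y) {v w : K} (hx : Tendsto (fun i => x i v) l (𝓝 w)) :
    y v = w := by
  refine sub_eq_zero.1 (norm_le_zero_iff.1 (le_of_forall_pos_le_add fun η hη => ?_))
  rw [zero_add]
  exact h.apply_sub_le ((Metric.tendsto_nhds.1 hx η hη).mono fun i hi => by
    rw [← dist_eq_norm]; exact hi.le)

lemma WT.comm [l.NeBot] (h : WT l x y) {S : K →L[ℂ] K} (hx : ∀ᶠ i in l, x i * S = S * x i) :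
    y * S = S * y := (h.mul_right S).eq_of (h.mul_left S) hx

lemma WT.wk [l.NeBot] (h : WT l x y) {A : Set (K →L[ℂ] K)} {Ω : K} {γ : ℝ}
    (hx : ∀ᶠ i in l, Wk A Ω γ (x i)) : Wk A Ω γ y :=
  fun z hz => h.apply_le (hx.mono fun _ hi => hi z hz)

lemma SF.mem_lim [l.NeBot] {A R : StarSubalgebra ℂ (K →L[ℂ] K)} {Ω : K} (hS : SF A R Ω)
    (h : WT l x y) (hx : ∀ᶠ i in l, x i ∈ A) : y ∈ A :=
  hS.cA y fun a ha => h.comm (hx.mono fun i hi => hS.cm _ hi a ha)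

end WT

end Vale.Agent.P096
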