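import Vale.Agent.P096.NM

/-! A Dixmier type decomposition. -/

namespace Vale.Agent.P096

open scoped InnerProductSpace Topology
open Filter

universe u

section

variable {K : Type*} [NormedAddCommGroup K] [InnerProductSpace ℂ K] [CompleteSpace K]

/-- The group of unitaries lying in `A`. -/
def uGrp (A : StarSubalgebra ℂ (K →L[ℂ] K)) : Subgroup (unitary (K →L[ℂ] K)) where
  carrier := {u | (u : K →L[ℂ] K) ∈ A}
  mul_mem' {x y} ha hb := show (x : K →L[ℂ] K) * y ∈ A from mul_mem ha hb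
  one_mem' := one_mem A
  inv_mem' {x} ha := show star (x : K →L[ℂ] K) ∈ A from star_mem ha

/-- The operator of an element of `uGrp A`. -/
def uv {A : StarSubalgebra ℂ (K →L[ℂ] K)} (s : uGrp A) : K →L[ℂ] K :=
  ((s : unitary (K →L[ℂ] K)) : K →L[ℂ] K)

lemma uv_mul {A : StarSubalgebra ℂ (K →L[ℂ] K)} (s t : uGrp A) : uv (s * t) = uv s * uv t := rfl

lemma uv_unit {A : StarSubalgebra ℂ (K →L[ℂ] K)} (s : uGrp A) : uv s ∈ unitary (K →L[ℂ] K) :=
  (s : unitary (K →L[ℂ] K)).2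

lemma uv_mem {A : StarSubalgebra ℂ (K →L[ℂ] K)} (s : uGrp A) : uv s ∈ A := s.2

lemma exists_uv {A : StarSubalgebra ℂ (K →L[ℂ] K)} {w : K →L[ℂ] K} (hw : w ∈ unitary (K →L[ℂ] K))
    (hA : w ∈ A) : ∃ s : uGrp A, uv s = w :=
  ⟨⟨⟨w, hw⟩, show ((⟨w, hw⟩ : unitary (K →L[ℂ] K)) : K →L[ℂ] K) ∈ A from hA⟩, rfl⟩

lemma norm_mul_unit_le {x u : K →L[ℂ] K} {r : ℝ} (hx : ‖x‖ ≤ r) (hu : u ∈ unitary (K →L[ℂ] K)) :
    ‖x * u‖ ≤ r := by rwa [CStarRing.norm_mul_mem_unitary _ hu]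

lemma norm_unit_mul_le {x u : K →L[ℂ] K} {r : ℝ} (hx : ‖x‖ ≤ r) (hu : u ∈ unitary (K →L[ℂ] K)) :
    ‖u * x‖ ≤ r := by rwa [CStarRing.norm_mem_unitary_mul _ hu]

lemma Wk.mul_unit {A : StarSubalgebra ℂ (K →L[ℂ] K)} {Ω : K} {γ : ℝ} {g u : K →L[ℂ] K}
    (h : Wk A Ω γ g) (hu : u ∈ unitary (K →L[ℂ] K)) (hA : u ∈ A) : Wk A Ω γ (g * u) := by
  intro x hx
  have := h (u * x) (mul_mem hA hx)
  rwa [CStarRing.norm_mem_unitary_mul _ hu] at this

lemma dix_fin {A R : StarSubalgebra ℂ (K →L[ℂ] K)} {Ω : K} (h : SF A R Ω) {T : K →L[ℂ] K}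
    {ε γ κ : ℝ} (hT : ‖T‖ ≤ ε)
    (hA : ∀ u ∈ unitary (K →L[ℂ] K), u ∈ A → ∃ m ∈ A, ∃ g, ‖m‖ ≤ ε ∧ ‖g‖ ≤ ε ∧ Wk A Ω γ g ∧
      ‖T * u - u * T - m - g‖ ≤ κ)
    (hR : ∀ u ∈ unitary (K →L[ℂ] K), u ∈ R → ∃ m ∈ R, ∃ g, ‖m‖ ≤ ε ∧ ‖g‖ ≤ ε ∧ Wk A Ω γ g ∧
      ‖T * u - u * T - m - g‖ ≤ κ) (S : Finset (uGrp A)) {η : ℝ} (hη : 0 < η) :
    ∃ T' m m' G : K →L[ℂ] K, m ∈ A ∧ m' ∈ R ∧ ‖T'‖ ≤ ε ∧ ‖m‖ ≤ ε ∧ ‖m'‖ ≤ ε ∧ ‖G‖ ≤ 2 * ε ∧
      Wk A Ω (2 * γ) G ∧ ‖T - m - (T' + m') - G‖ ≤ 2 * κ ∧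
      ∀ s ∈ S, ‖(uv s * T' * star (uv s) - T') Ω‖ ≤ η := by
  obtain ⟨ι, _, _, w, u, hw⟩ := near_max (G := uGrp A) (fun s => (uv s * T * star (uv s)) Ω)
    (b := ε * ‖Ω‖) (fun s => ContinuousLinearMap.le_of_opNorm_le _
      (norm_mul_unit_le (norm_unit_mul_le hT (uv_unit s)) (Unitary.star_mem (uv_unit s))) _) S hη
  obtain ⟨v, hvR, hv, hvΩ, -⟩ := h.unit (star_mem (uv_mem u)) (Unitary.star_mem (uv_unit u))
  choose m hm g nm ng wg e using fun i => hA _ (uv_unit (w i)) (uv_mem (w i))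
  obtain ⟨m', hm', g', nm', ng', wg', e'⟩ := hR v hv hvR
  have hsw : ∀ i, star (uv (w i)) ∈ unitary (K →L[ℂ] K) := fun i => Unitary.star_mem (uv_unit _)
  have hsv := Unitary.star_mem hv
  obtain ⟨Tμ, hTμ⟩ : ∃ Tμ, Tμ = av fun i => uv (w i) * T * star (uv (w i)) := ⟨_, rfl⟩
  have nT : ‖Tμ‖ ≤ ε := by
    rw [hTμ]
    exact norm_av_le fun i => norm_mul_unit_le (norm_unit_mul_le hT (uv_unit _)) (hsw i)
  refine ⟨star v * Tμ * v, av fun i => m i * star (uv (w i)), -(star v * m'),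
    av fun i => g i * star (uv (w i)) - uv (w i) * star v * (g' * star (uv (w i))),
    av_mem fun i => mul_mem (hm i) (star_mem (uv_mem _)), neg_mem (mul_mem (star_mem hvR) hm'),
    norm_mul_unit_le (norm_unit_mul_le nT hsv) hv,
    norm_av_le fun i => norm_mul_unit_le (nm i) (hsw i),
    by rw [norm_neg]; exact norm_unit_mul_le nm' hsv, norm_av_le fun i => ?_, Wk.av fun i => ?_,
    ?_, fun s hs => ?_⟩
  · refine (norm_sub_le _ _).trans ?_
    have h1 := norm_mul_unit_le (ng i) (hsw i)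
    have h2 := norm_unit_mul_le (norm_mul_unit_le ng' (hsw i)) (mul_mem (uv_unit (w i)) hsv)
    linarith
  · have h1 := (wg i).mul_unit (hsw i) (star_mem (uv_mem _))
    have h2 := (wg'.mul_unit (hsw i) (star_mem (uv_mem _))).mul_left
      (norm_unit_le (mul_mem (uv_unit (w i)) hsv))
    exact (h1.sub h2).mono (by linarith)
  · have key : T - (av fun i => m i * star (uv (w i))) - (star v * Tμ * v + -(star v * m'))
        - (av fun i => g i * star (uv (w i)) - uv (w i) * star v * (g' * star (uv (w i)))) =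
        av fun i => (T * uv (w i) - uv (w i) * T - m i - g i) * star (uv (w i))
          - uv (w i) * star v * ((T * v - v * T - m' - g') * star (uv (w i))) := by
      rw [hTμ, mul_av, av_mul, ← av_const (ι := ι) T, ← av_const (ι := ι) (-(star v * m')),
        ← av_add, ← av_sub, ← av_sub, ← av_sub, av_const (ι := ι) T]
      congr 1
      funext i
      have c1 : uv (w i) * star v = star v * uv (w i) := h.cm _ (uv_mem _) _ (star_mem hvR)
      have c2 : star (uv (w i)) * v = v * star (uv (w i)) := h.cm _ (star_mem (uv_mem _)) _ hvR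
      have c3 : star (uv (w i)) * m' = m' * star (uv (w i)) :=
        h.cm _ (star_mem (uv_mem _)) _ hm'
      have c4 : uv (w i) * star (uv (w i)) = 1 := (uv_unit _).2
      have c5 : star v * v = 1 := hv.1
      generalize uv (w i) = a at *
      generalize star a = a' at *
      generalize star v = v' at *
      have d1 : a * v' * (m' * a') = v' * m' := by
        rw [c1, ← c3, mul_assoc, ← mul_assoc a, c4, one_mul]
      have d2 : a * v' * (T * v * a') = v' * (a * T * a') * v := by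
        rw [c1]; simp only [mul_assoc, c2]
      have d3 : a * v' * (v * T * a') = a * T * a' := by
        rw [mul_assoc a, mul_assoc v, ← mul_assoc v', c5, one_mul, mul_assoc]
      have d4 : T * a * a' = T := by rw [mul_assoc, c4, mul_one]
      simp only [sub_mul, mul_sub, d1, d2, d3, d4]
      abel
    rw [key]
    refine norm_av_le fun i => (norm_sub_le _ _).trans ?_
    have h1 := norm_mul_unit_le (e i) (hsw i)
    have h2 := norm_unit_mul_le (norm_mul_unit_le e' (hsw i)) (mul_mem (uv_unit (w i)) hsv)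
    linarith
  · have h1 := hw s hs
    have e1 : ∀ s : uGrp A, (av fun i => (uv (s * w i) * T * star (uv (s * w i))) Ω) =
        (uv s * Tμ * star (uv s)) Ω := by
      intro s
      rw [hTμ, mul_av, av_mul, av_apply]
      simp only [uv_mul, star_mul, mul_assoc]
    rw [e1, e1] at h1
    have c1 : uv s * star v = star v * uv s := h.cm _ (uv_mem _) _ (star_mem hvR)
    have c2 : star (uv s) * v = v * star (uv s) := h.cm _ (star_mem (uv_mem _)) _ hvR
    have e2 : (uv (u * s) * Tμ * star (uv (u * s))) Ω - (uv u * Tμ * star (uv u)) Ω =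
        (uv u * v) ((uv s * (star v * Tμ * v) * star (uv s) - star v * Tμ * v) Ω) := by
      have e3 : uv u * v * (uv s * (star v * Tμ * v) * star (uv s) - star v * Tμ * v) =
          (uv u * uv s * Tμ * star (uv s) - uv u * Tμ) * v := by
        have c3 : v * star v = 1 := hv.2
        generalize uv s = a at *
        generalize star a = a' at *
        generalize star v = v' at *
        have d1 : v * (a * (v' * Tμ * v) * a') = a * Tμ * a' * v := by
          rw [mul_assoc v', ← mul_assoc a, c1, mul_assoc v', mul_assoc v', ← mul_assoc v, c3,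
            one_mul]
          simp only [mul_assoc, c2]
        have d2 : v * (v' * Tμ * v) = Tμ * v := by
          rw [mul_assoc v', ← mul_assoc v, c3, one_mul]
        rw [mul_assoc, mul_sub, d1, d2]
        noncomm_ring
      rw [← mul_apply_eq_comp, e3, mul_apply_eq_comp _ v, hvΩ]
      simp [uv_mul, star_mul]
    rwa [e2, norm_unit_apply (mul_mem (uv_unit u) hv)] at h1

end

theorem dix {K : Type*} [NormedAddCommGroup K] [InnerProductSpace ℂ K] [CompleteSpace K]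
    {A R : StarSubalgebra ℂ (K →L[ℂ] K)} {Ω : K} (h : SF A R Ω) {T : K →L[ℂ] K} {ε γ κ : ℝ}
    (hγ : 0 ≤ γ) (hT : ‖T‖ ≤ ε)
    (hA : ∀ u ∈ unitary (K →L[ℂ] K), u ∈ A → ∃ m ∈ A, ∃ g, ‖m‖ ≤ ε ∧ ‖g‖ ≤ ε ∧ Wk A Ω γ g ∧
      ‖T * u - u * T - m - g‖ ≤ κ)
    (hR : ∀ u ∈ unitary (K →L[ℂ] K), u ∈ R → ∃ m ∈ R, ∃ g, ‖m‖ ≤ ε ∧ ‖g‖ ≤ ε ∧ Wk A Ω γ g ∧
      ‖T * u - u * T - m - g‖ ≤ κ) :
    ∃ m ∈ A, ∃ m' ∈ R, ∃ G, ‖m‖ ≤ ε ∧ ‖m'‖ ≤ 2 * ε ∧ ‖G‖ ≤ 2 * ε ∧ Wk A Ω (2 * γ) G ∧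
      ‖T - m - m' - G‖ ≤ 2 * κ := by
  classical
  have _ := hγ
  choose T' m m' G h1 h2 h3 h4 h5 h6 h7 h8 h9 using fun p : Finset (uGrp A) × ℕ =>
    dix_fin h hT hA hR p.1 (η := 1 / ((p.2 : ℝ) + 1)) (by positivity)
  obtain ⟨U, hU⟩ := Filter.exists_ultrafilter_le (atTop : Filter (Finset (uGrp A) × ℕ))
  obtain ⟨T₀, l1⟩ := exists_WT U (x := T') (Eventually.of_forall h3)
  obtain ⟨m₀, l2⟩ := exists_WT U (x := m) (Eventually.of_forall h4)
  obtain ⟨m₁, l3⟩ := exists_WT U (x := m') (Eventually.of_forall h5)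
  obtain ⟨G₀, l4⟩ := exists_WT U (x := G) (Eventually.of_forall h6)
  have hfix : ∀ s : uGrp A, (uv s * T₀ * star (uv s) - T₀) Ω = 0 := by
    intro s
    refine norm_le_zero_iff.1 (le_of_forall_pos_le_add fun η hη => ?_)
    rw [zero_add]
    obtain ⟨n, hn⟩ := exists_nat_one_div_lt hη
    refine WT.apply_le (((l1.mul_left (uv s)).mul_right (star (uv s))).sub l1) (hU ?_)
    filter_upwards [eventually_ge_atTop (({s} : Finset (uGrp A)), n)] with p hp
    refine (h9 p s (hp.1 (Finset.mem_singleton_self s))).trans (le_trans ?_ hn.le)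
    have : (n : ℝ) ≤ p.2 := by exact_mod_cast hp.2
    gcongr
  have hun : ∀ w ∈ unitary (K →L[ℂ] K), w ∈ A → T₀ (w Ω) = w (T₀ Ω) := by
    intro w hw hwA
    obtain ⟨s, hs⟩ := exists_uv (Unitary.star_mem hw) (star_mem hwA)
    have h0 := hfix s
    rw [hs, star_star, _root_.sub_apply, sub_eq_zero] at h0
    rw [← h0, ← mul_apply_eq_comp w, ← mul_assoc, ← mul_assoc, hw.2, one_mul]
    rfl
  have hall : ∀ x ∈ A, T₀ (x Ω) = x (T₀ Ω) := by
    intro x hx
    obtain ⟨u, c, hu, rfl⟩ := exists_four h.closed hx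
    simp only [_root_.sum_apply, _root_.smul_apply, map_sum, map_smul]
    exact Finset.sum_congr rfl fun i _ => by rw [hun _ (hu i).1 (hu i).2.1]
  have hT₀ : T₀ ∈ R := h.cR _ fun y hy => h.ext fun x hx => by
    have := hall _ (mul_mem hy hx)
    simp only [mul_apply_eq_comp] at this ⊢
    rw [this, hall x hx]
  refine ⟨m₀, h.mem_lim l2 (Eventually.of_forall h1), T₀ + m₁,
    add_mem hT₀ (h.symm.mem_lim l3 (Eventually.of_forall h2)), G₀,
    l2.norm_le (Eventually.of_forall h4), ?_, l4.norm_le (Eventually.of_forall h6),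
    l4.wk (Eventually.of_forall h7), ?_⟩
  · have n1 := l1.norm_le (Eventually.of_forall h3)
    have n2 := l3.norm_le (Eventually.of_forall h5)
    exact (norm_add_le _ _).trans (by linarith)
  · exact ((((P082.WL.T.const T).sub l2).sub (l1.add l3)).sub l4).norm_le
      (Eventually.of_forall h8)

end Vale.Agent.P096
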