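import Vale.Agent.P096.NM

/-! Expansion along the stabiliser of the vector. -/

namespace Vale.Agent.P096

open scoped InnerProductSpace Topology
open Filter

universe u

namespace Ex

variable {K : Type*} [NormedAddCommGroup K] [InnerProductSpace ℂ K]

lemma exp_id {u u' g g' h h' us u's hs h's r0 r rh p0 ph : K →L[ℂ] K} {Ω : K}
    (cm : ∀ x ∈ [u, g, h, us, hs], ∀ a ∈ [u', g', h', u's, h's], ∀ v, x (a v) = a (x v))
    (k1 : ∀ v, u (us v) = v) (k2 : ∀ v, u' (u's v) = v) (k3 : ∀ v, h (hs v) = v)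
    (k4 : ∀ v, h' (h's v) = v) (l1 : h' Ω = hs Ω) (l2 : h Ω = h's Ω) (l3 : g' (g Ω) = Ω)
    (e1 : ∀ v, h (r v) = r (h v) + ph (g' v) - g' (ph v) + (ph (r v) - r (ph v)))
    (e2 : ∀ v, u (r v) = r (u v) + p0 (g' v) - g' (p0 v) + (p0 (r v) - r (p0 v))) :
    (u * g * h * ((u' + r0) * (g' + r) * (h' + rh)) -
        (u' + r0) * (g' + r) * (h' + rh) * (u * g * h)) Ω -
      (u (u' ((g * r - r * g) Ω + g (g' (h (rh Ω) - ph (h' Ω))) -
        g' ((us * rh * h's * u + us * p0) (g Ω)) + g ((u's * h * r0 * hs + ph * hs) (g' Ω)))) -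
        r0 (u Ω) + u' (p0 Ω)) =
      u (g (h (r0 (r (hs Ω)) + (u' * r + r0 * g' + r0 * r) (rh Ω)))) -
        (r0 (r ((u * g) Ω)) + (u' * r + r0 * g' + r0 * r) (rh ((u * g * h) Ω))) +
        u' (u (g (ph (r (hs Ω)) - r (ph (hs Ω))))) + u' (p0 (r (g Ω)) - r (p0 (g Ω))) := by
  have l4 : g' (u (g Ω)) = u Ω := by rw [← cm u (by simp) g' (by simp), l3]
  simp only [List.mem_cons, List.not_mem_nil, or_false, forall_eq_or_imp, forall_eq] at cm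
  obtain ⟨⟨c1, c2, c3, c4, c5⟩, ⟨c6, c7, c8, c9, c10⟩, ⟨c11, c12, c13, c14, c15⟩,
    ⟨c16, c17, c18, c19, c20⟩, c21, c22, c23, c24, c25⟩ := cm
  simp only [ContinuousLinearMap.mul_apply, ContinuousLinearMap.add_apply,
    ContinuousLinearMap.sub_apply, map_add, map_sub, l1, l2, c1, c2, c3, c4, c5, c6, c7, c8, c9,
    c10, c11, c12, c13, c14, c15, c22, k1, k2, k3, k4, l3, l4, e1, e2]
  abel

lemma ap_le {T : K →L[ℂ] K} {a b : ℝ} {v : K} (hT : ‖T‖ ≤ a) (hv : ‖v‖ ≤ b) : ‖T v‖ ≤ a * b :=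
  (T.le_opNorm v).trans (mul_le_mul hT hv (norm_nonneg _) ((norm_nonneg _).trans hT))

lemma mul_le' {S T : K →L[ℂ] K} {a b : ℝ} (hS : ‖S‖ ≤ a) (hT : ‖T‖ ≤ b) : ‖S * T‖ ≤ a * b :=
  (norm_mul_le _ _).trans (mul_le_mul hS hT (norm_nonneg _) ((norm_nonneg _).trans hS))

variable [CompleteSpace K] {A R : StarSubalgebra ℂ (K →L[ℂ] K)} {Ω : K}

lemma wk_unit {γ : ℝ} (hγ : 0 ≤ γ) {r x : K →L[ℂ] K} (hr : Wk A Ω γ r) (hx : x ∈ A)
    (hu : x ∈ unitary (K →L[ℂ] K)) : ‖r (x Ω)‖ ≤ γ :=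
  (hr x hx).trans (mul_le_of_le_one_right hγ (norm_unit_le hu))

lemma St.left {g g' : K →L[ℂ] K} (h : St A R Ω g g') : g' Ω = star g Ω := by
  conv_rhs => rw [← h.2.2.2.2, ← ContinuousLinearMap.mul_apply, h.1.1]
  rfl

lemma St.swap (cm : Cm (A : Set (K →L[ℂ] K)) R) {g g' : K →L[ℂ] K} (h : St A R Ω g g') :
    g' (g Ω) = Ω := by
  rw [← ContinuousLinearMap.mul_apply, ← cm g h.2.2.1 g' h.2.2.2.1]
  exact h.2.2.2.2

lemma St.right (cm : Cm (A : Set (K →L[ℂ] K)) R) {g g' : K →L[ℂ] K} (h : St A R Ω g g') :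
    g Ω = star g' Ω := by
  conv_rhs => rw [← St.swap cm h, ← ContinuousLinearMap.mul_apply, h.2.1.1]
  rfl

lemma exp_pt (cm : Cm (A : Set (K →L[ℂ] K)) R) {u u' g g' h h' r0 r rh p0 ph : K →L[ℂ] K}
    {δ γ : ℝ} (hδ : 0 ≤ δ) (hδ1 : δ ≤ 1) (hγ : 0 ≤ γ) (hu : St A R Ω u u') (hg : St A R Ω g g')
    (hh : St A R Ω h h') (n0 : ‖r0‖ ≤ δ) (n1 : ‖r‖ ≤ δ) (n3 : ‖p0‖ ≤ δ)
    (n4 : ‖ph‖ ≤ δ) (w1 : Wk A Ω γ r) (w2 : Wk A Ω γ rh) (w3 : Wk A Ω γ p0) (w4 : Wk A Ω γ ph)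
    (e1 : (h - ph) * (g' + r) = (g' + r) * (h - ph))
    (e2 : (u - p0) * (g' + r) = (g' + r) * (u - p0)) :
    ‖(u * g * h * ((u' + r0) * (g' + r) * (h' + rh)) -
        (u' + r0) * (g' + r) * (h' + rh) * (u * g * h)) Ω -
      (u (u' ((g * r - r * g) Ω + g (g' (h (rh Ω) - ph (h' Ω))) -
        g' ((star u * rh * star h' * u + star u * p0) (g Ω)) +
        g ((star u' * h * r0 * star h + ph * star h) (g' Ω)))) -
        r0 (u Ω) + u' (p0 Ω))‖ ≤ 12 * (δ * γ) := by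
  have key : ∀ {w p : K →L[ℂ] K}, w ∈ A → (w - p) * (g' + r) = (g' + r) * (w - p) → ∀ v,
      w (r v) = r (w v) + p (g' v) - g' (p v) + (p (r v) - r (p v)) := by
    intro w p hw e v
    have e3 : w * r = r * w + p * g' - g' * p + (p * r - r * p) := by
      have := cm w hw g' hg.2.2.2.1
      simp only [mul_add, add_mul, mul_sub, sub_mul, this] at e
      rw [← sub_eq_zero] at e ⊢
      rw [← e]
      abel
    exact congr($e3 v)
  rw [exp_id (us := star u) (u's := star u') (hs := star h) (h's := star h') ?_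
    (fun v => congr($(hu.1.2) v)) (fun v => congr($(hu.2.1.2) v)) (fun v => congr($(hh.1.2) v))
    (fun v => congr($(hh.2.1.2) v)) (St.left hh) (St.right cm hh) (St.swap cm hg)
    (key hh.2.2.1 e1) (key hu.2.2.1 e2)]
  · have m1 : ‖u' * r + r0 * g' + r0 * r‖ ≤ 3 * δ := by
      have a1 := mul_le' (norm_unit_le hu.2.1) n1
      have a2 := mul_le' n0 (norm_unit_le hg.2.1)
      have a3 := mul_le' n0 (n1.trans hδ1)
      exact norm_add₃_le.trans (by linarith)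
    have hs := Unitary.star_mem hh.1
    have hsA := star_mem hh.2.2.1
    have b1 := ap_le n0 (wk_unit hγ w1 hsA hs)
    have b2 := ap_le m1 (wk_unit hγ w2 (one_mem A) (one_mem _))
    have b3 := ap_le n0 (wk_unit hγ w1 (mul_mem hu.2.2.1 hg.2.2.1) (mul_mem hu.1 hg.1))
    have b4 := ap_le m1 (wk_unit hγ w2 (mul_mem (mul_mem hu.2.2.1 hg.2.2.1) hh.2.2.1)
      (mul_mem (mul_mem hu.1 hg.1) hh.1))
    have b5 := ap_le n4 (wk_unit hγ w1 hsA hs)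
    have b6 := ap_le n1 (wk_unit hγ w4 hsA hs)
    have b7 := ap_le n3 (wk_unit hγ w1 hg.2.2.1 hg.1)
    have b8 := ap_le n1 (wk_unit hγ w3 hg.2.2.1 hg.1)
    rw [ContinuousLinearMap.one_apply] at b2
    refine norm_add₃_le.trans ((add_le_add_three (norm_sub_le _ _) le_rfl le_rfl).trans ?_)
    simp only [norm_unit_apply hu.1, norm_unit_apply hu.2.1, norm_unit_apply hg.1,
      norm_unit_apply hh.1]
    refine (add_le_add_three (add_le_add (norm_add_le _ _) (norm_add_le _ _)) (norm_sub_le _ _)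
      (norm_sub_le _ _)).trans ?_
    linarith
  · intro x hx a ha v
    have h1 : x ∈ A := by
      simp only [List.mem_cons, List.not_mem_nil, or_false] at hx
      rcases hx with rfl | rfl | rfl | rfl | rfl
      exacts [hu.2.2.1, hg.2.2.1, hh.2.2.1, star_mem hu.2.2.1, star_mem hh.2.2.1]
    have h2 : a ∈ R := by
      simp only [List.mem_cons, List.not_mem_nil, or_false] at ha
      rcases ha with rfl | rfl | rfl | rfl | rfl
      exacts [hu.2.2.2.1, hg.2.2.2.1, hh.2.2.2.1, star_mem hu.2.2.2.1, star_mem hh.2.2.2.1]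
    exact congr($(cm x h1 a h2) v)

/-- the stabiliser -/
def Gp (cm : Cm (A : Set (K →L[ℂ] K)) R) (Ω : K) :
    Subgroup (unitary (K →L[ℂ] K) × unitary (K →L[ℂ] K)) where
  carrier := {p | St A R Ω p.1 p.2}
  one_mem' := ⟨one_mem _, one_mem _, one_mem _, one_mem _, rfl⟩
  mul_mem' {p q} hp hq := by
    refine ⟨(p * q).1.2, (p * q).2.2, mul_mem hp.2.2.1 hq.2.2.1, mul_mem hp.2.2.2.1 hq.2.2.2.1, ?_⟩
    have h1 : (q.1 : K →L[ℂ] K) ((p.2 : K →L[ℂ] K) ((q.2 : K →L[ℂ] K) Ω)) =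
        (p.2 : K →L[ℂ] K) ((q.1 : K →L[ℂ] K) ((q.2 : K →L[ℂ] K) Ω)) :=
      congr($(cm _ hq.2.2.1 _ hp.2.2.2.1) _)
    change (p.1 : K →L[ℂ] K) ((q.1 : K →L[ℂ] K) ((p.2 : K →L[ℂ] K) ((q.2 : K →L[ℂ] K) Ω))) = Ω
    rw [h1, hq.2.2.2.2, hp.2.2.2.2]
  inv_mem' {p} hp := by
    refine ⟨(p⁻¹).1.2, (p⁻¹).2.2, star_mem hp.2.2.1, star_mem hp.2.2.2.1, ?_⟩
    change star (p.1 : K →L[ℂ] K) (star (p.2 : K →L[ℂ] K) Ω) = Ω
    rw [← St.right cm hp]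
    exact congr($(hp.1.1) Ω)

lemma exists_gp (cm : Cm (A : Set (K →L[ℂ] K)) R) (Ω : K) : ∃ a b : Gp cm Ω → K →L[ℂ] K,
    (∀ W, St A R Ω (a W) (b W)) ∧ (∀ W W', a (W * W') = a W * a W') ∧
    (∀ W W', b (W * W') = b W * b W') ∧ ∀ g g', St A R Ω g g' → ∃ W, a W = g ∧ b W = g' :=
  ⟨fun W => W.1.1, fun W => W.1.2, fun W => W.2, fun _ _ => rfl, fun _ _ => rfl,
    fun g g' h => ⟨⟨(⟨g, h.1⟩, ⟨g', h.2.1⟩), h⟩, rfl, rfl⟩⟩

lemma gam_sub {B : Subalgebra ℂ (K →L[ℂ] K)} {γ ε : ℝ} (hγ : 0 ≤ γ) (hG : Gam A Ω γ B)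
    {x c c' : K →L[ℂ] K} (hx : x ∈ A) (hu : x ∈ unitary (K →L[ℂ] K)) (hc : c ∈ B) (hc' : c' ∈ B)
    (e : ‖c - c'‖ ≤ ε) : ‖(x * c - c * x) Ω - (x * c' - c' * x) Ω‖ ≤ γ * ε := by
  have h1 := hG x hx (c - c') (sub_mem hc hc')
  have h2 : (x * c - c * x) Ω - (x * c' - c' * x) Ω = (x * (c - c') - (c - c') * x) Ω := by
    rw [← ContinuousLinearMap.sub_apply]; congr 1; noncomm_ring
  rw [h2]
  refine h1.trans ?_
  have := norm_unit_le hu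
  calc γ * ‖x‖ * ‖c - c'‖ ≤ γ * 1 * ε := by gcongr
    _ = γ * ε := by ring

lemma exp_pt' {B D : Subalgebra ℂ (K →L[ℂ] K)} (cm : Cm (A : Set (K →L[ℂ] K)) R)
    (cm' : Cm (D : Set (K →L[ℂ] K)) B) {u u' g g' h h' r0 r rh p0 ph rX : K →L[ℂ] K}
    {δ γ : ℝ} (hδ : 0 ≤ δ) (hδ1 : δ ≤ 1) (hγ : 0 ≤ γ) (hG : Gam A Ω γ B) (hu : St A R Ω u u')
    (hg : St A R Ω g g') (hh : St A R Ω h h') (n0 : ‖r0‖ ≤ δ) (n1 : ‖r‖ ≤ δ) (n2 : ‖rh‖ ≤ δ)
    (n3 : ‖p0‖ ≤ δ) (n4 : ‖ph‖ ≤ δ) (n5 : ‖rX‖ ≤ δ) (w1 : Wk A Ω γ r) (w2 : Wk A Ω γ rh)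
    (w3 : Wk A Ω γ p0) (w4 : Wk A Ω γ ph) (b0 : u' + r0 ∈ B) (b1 : g' + r ∈ B) (b2 : h' + rh ∈ B)
    (b3 : u' * g' * h' + rX ∈ B) (d0 : u - p0 ∈ D) (d1 : h - ph ∈ D) :
    ‖(u * g * h * (u' * g' * h' + rX) - (u' * g' * h' + rX) * (u * g * h)) Ω -
      (u (u' ((g * r - r * g) Ω + g (g' (h (rh Ω) - ph (h' Ω))) -
        g' ((star u * rh * star h' * u + star u * p0) (g Ω)) +
        g ((star u' * h * r0 * star h + ph * star h) (g' Ω)))) -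
        r0 (u Ω) + u' (p0 Ω))‖ ≤ γ * (8 * δ) + 12 * (δ * γ) := by
  refine (norm_sub_le_norm_sub_add_norm_sub _ _ _).trans (add_le_add ?_
    (exp_pt cm hδ hδ1 hγ hu hg hh n0 n1 n3 n4 w1 w2 w3 w4 (cm' _ d1 _ b1) (cm' _ d0 _ b1)))
  refine gam_sub hγ hG (mul_mem (mul_mem hu.2.2.1 hg.2.2.1) hh.2.2.1)
    (mul_mem (mul_mem hu.1 hg.1) hh.1) b3 (mul_mem (mul_mem b0 b1) b2) ?_
  have e : u' * g' * h' + rX - (u' + r0) * (g' + r) * (h' + rh) =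
      rX - (r0 * (g' + r) * (h' + rh) + u' * r * (h' + rh) + u' * g' * rh) := by
    noncomm_ring
  have c1 : ‖g' + r‖ ≤ 2 := (norm_add_le _ _).trans (by linarith [norm_unit_le hg.2.1])
  have c2 : ‖h' + rh‖ ≤ 2 := (norm_add_le _ _).trans (by linarith [norm_unit_le hh.2.1])
  have a1 := mul_le' (mul_le' n0 c1) c2
  have a2 := mul_le' (mul_le' (norm_unit_le hu.2.1) n1) c2
  have a3 := mul_le' (mul_le' (norm_unit_le hu.2.1) (norm_unit_le hg.2.1)) n2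
  rw [e]
  exact (norm_sub_le _ _).trans ((add_le_add le_rfl norm_add₃_le).trans (by linarith))

lemma exp_av {ι : Type} [Fintype ι] [Nonempty ι] {u u' g g' : K →L[ℂ] K}
    (hu : u ∈ unitary (K →L[ℂ] K)) (hu' : u' ∈ unitary (K →L[ℂ] K)) (F F' z : ι → K)
    (U V : ι → K →L[ℂ] K) (w x y m m' : K) {ε ε' : ℝ} (h0 : ‖av F - av F'‖ ≤ ε)
    (h1 : ∀ i, ‖F i - (u (u' (w + g (g' (z i)) - g' (V i x) + g (U i y))) - m + m')‖ ≤ ε') :
    ‖w - (star u' (star u (av F' + m - m')) + g ((-av U) y) + g' (av V x) + g (g' (-av z)))‖ ≤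
      ε + ε' := by
  have h2 := norm_av_le h1
  rw [← norm_unit_apply hu', ← norm_unit_apply hu]
  refine le_trans (le_of_eq ?_) ((norm_sub_le _ _).trans (add_le_add h0 h2))
  congr 1
  have k1 : ∀ v, u (star u v) = v := fun v => congr($(hu.2) v)
  have k2 : ∀ v, u' (star u' v) = v := fun v => congr($(hu'.2) v)
  have k3 : ∀ (T : K →L[ℂ] K) (f : ι → K), (av fun i => T (f i)) = T (av f) :=
    fun T f => (map_av T f).symm
  simp only [av_sub, av_add, av_const, k3, ← av_apply, map_add, map_sub, map_neg, k1, k2,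
    ContinuousLinearMap.neg_apply]
  abel

lemma wk_V (cm : Cm (A : Set (K →L[ℂ] K)) R) {u u' h h' r p : K →L[ℂ] K} {γ : ℝ} (hγ : 0 ≤ γ)
    (hu : St A R Ω u u') (hh : St A R Ω h h') (w1 : Wk A Ω γ r) (w2 : Wk A Ω γ p) :
    Wk A Ω (γ + 1 * γ) (star u * r * star h' * u + star u * p) := by
  have us := Unitary.star_mem hu.1
  refine Wk.add (fun x hx => ?_) (w2.mul_left (norm_unit_le us))
  have h1 : star h' (u (x Ω)) = (u * x * h) Ω := by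
    have h2 := cm _ (mul_mem hu.2.2.1 hx) _ (star_mem hh.2.2.2.1)
    rw [ContinuousLinearMap.mul_apply, St.right cm hh]
    exact congr($(h2.symm) Ω)
  simp only [ContinuousLinearMap.mul_apply (f := star u * r * star h'),
    ContinuousLinearMap.mul_apply (f := star u * r), ContinuousLinearMap.mul_apply (f := star u),
    norm_unit_apply us, h1]
  refine (w1 _ (mul_mem (mul_mem hu.2.2.1 hx) hh.2.2.1)).trans ?_
  have h3 := mul_le' (mul_le' (norm_unit_le hu.1) (le_refl ‖x‖)) (norm_unit_le hh.1)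
  gcongr
  linarith

lemma expand_gp {G : Type*} [Group G] {B D : Subalgebra ℂ (K →L[ℂ] K)} {δ γ : ℝ} (hδ : 0 < δ)
    (hδ1 : δ ≤ 1) (hγ : 0 < γ) (cm : Cm (A : Set (K →L[ℂ] K)) R)
    (cm' : Cm (D : Set (K →L[ℂ] K)) B) (sR : Sel A Ω δ γ R B) (sA : Sel A Ω δ γ A D)
    (hG : Gam A Ω γ B) (a b : G → K →L[ℂ] K) (st : ∀ W, St A R Ω (a W) (b W))
    (amul : ∀ W W', a (W * W') = a W * a W') (bmul : ∀ W W', b (W * W') = b W * b W')
    (S : Finset G) : ∃ (U V : K →L[ℂ] K) (ζ ζ₀ : K), ‖V‖ ≤ 23 * δ ∧ Wk A Ω (23 * γ) V ∧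
        ∀ g ∈ S, ∀ c ∈ B, ‖c - b g‖ ≤ δ → ‖(a g * c - c * a g) Ω -
          (ζ₀ + a g (U (b g Ω)) + b g (V (a g Ω)) + a g (b g ζ))‖ ≤ 23 * δ * γ := by
  have hr : ∀ W, ∃ r, b W + r ∈ B ∧ ‖r‖ ≤ δ ∧ Wk A Ω γ r := fun W => by
    obtain ⟨c, hc, e, e'⟩ := sR _ (st W).2.2.2.1
    have := norm_unit_le (st W).2.1
    refine ⟨-(b W - c), by simpa using hc, ?_, (e'.mono ?_).neg⟩
    · rw [norm_neg]; exact e.trans (mul_le_of_le_one_right hδ.le this)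
    · exact mul_le_of_le_one_right hγ.le this
  have hp : ∀ W, ∃ p, a W - p ∈ D ∧ ‖p‖ ≤ δ ∧ Wk A Ω γ p := fun W => by
    obtain ⟨c, hc, e, e'⟩ := sA _ (st W).2.2.1
    have := norm_unit_le (st W).1
    exact ⟨a W - c, by simpa using hc, e.trans (mul_le_of_le_one_right hδ.le this),
      e'.mono (mul_le_of_le_one_right hγ.le this)⟩
  choose r rB rn rw using hr
  choose p pD pn pw using hp
  obtain ⟨f, hf⟩ : ∃ f : G → K, ∀ W, f W = (a W * (b W + r W) - (b W + r W) * a W) Ω :=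
    ⟨_, fun _ => rfl⟩
  have fb : ∀ W, ‖f W‖ ≤ γ * 1 * 2 := fun W => by
    rw [hf]
    have h1 := norm_unit_le (st W).1
    have h2 : ‖b W + r W‖ ≤ 2 :=
      (norm_add_le _ _).trans (by linarith [norm_unit_le (st W).2.1, rn W])
    exact (hG _ (st W).2.2.1 _ (rB W)).trans (by gcongr)
  obtain ⟨ι, _, _, h, u, hu⟩ := near_max f fb S (mul_pos hδ hγ)
  have us := Unitary.star_mem (st u).1
  refine ⟨-av fun i => star (b u) * a (h i) * r u * star (a (h i)) + p (h i) * star (a (h i)),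
    av fun i => star (a u) * r (h i) * star (b (h i)) * a u + star (a u) * p u,
    -av fun i => a (h i) (r (h i) Ω) - p (h i) (b (h i) Ω),
    star (b u) (star (a u) ((av fun i => f (u * h i)) + r u (a u Ω) - b u (p u Ω))),
    norm_av_le fun i => ?_,
    Wk.av fun i => (wk_V cm hγ.le (st u) (st (h i)) (rw _) (pw _)).mono (by linarith),
    fun g hg c hc hcq => ?_⟩
  · have h1 := mul_le' (mul_le' (mul_le' (norm_unit_le us) (rn (h i)))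
      (norm_unit_le (Unitary.star_mem (st (h i)).2.1))) (norm_unit_le (st u).1)
    have h2 := mul_le' (norm_unit_le us) (pn u)
    exact (norm_add_le _ _).trans (by linarith)
  have h3 : ‖(a g * c - c * a g) Ω - (a g * r g - r g * a g) Ω‖ ≤ γ * (2 * δ) := by
    have e : a g * r g - r g * a g = a g * (b g + r g) - (b g + r g) * a g := by
      rw [mul_add, add_mul, cm _ (st g).2.2.1 _ (st g).2.2.2.1]; abel
    rw [e]
    refine gam_sub hγ.le hG (st _).2.2.1 (st _).1 hc (rB _) ?_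
    have := rn g
    rw [← sub_sub]
    exact (norm_sub_le _ _).trans (by linarith)
  refine (norm_sub_le_norm_sub_add_norm_sub _ _ _).trans ((add_le_add h3
    (exp_av (ε' := γ * (8 * δ) + 12 * (δ * γ)) (st u).1 (st u).2.1 _ _ _ _ _ _ _ _ _ _ (hu g hg)
      fun i => ?_)).trans (by linarith))
  have h4 := rB (u * g * h i)
  rw [hf, amul, amul, bmul, bmul]
  rw [bmul, bmul] at h4
  exact exp_pt' cm cm' hδ.le hδ1 hγ.le hG (st u) (st g) (st (h i)) (rn _) (rn _) (rn _) (pn _)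
    (pn _) (rn _) (rw _) (rw _) (pw _) (pw _) (rB _) (rB _) (rB _) h4 (pD _) (pD _)

end Ex

open Ex in
theorem expand : ∃ C : ℝ, 1 ≤ C ∧ ∀ {K : Type u} [NormedAddCommGroup K] [InnerProductSpace ℂ K]
    [CompleteSpace K] (A R : StarSubalgebra ℂ (K →L[ℂ] K)) (B D : Subalgebra ℂ (K →L[ℂ] K))
    (Ω : K) (δ γ : ℝ), 0 < δ → δ ≤ 1 → 0 < γ → Cm (A : Set (K →L[ℂ] K)) R →
    Cm (D : Set (K →L[ℂ] K)) B → Sel A Ω δ γ R B → Sel A Ω δ γ A D → Gam A Ω γ B →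
    ∀ S : Finset ((K →L[ℂ] K) × (K →L[ℂ] K)), (∀ p ∈ S, St A R Ω p.1 p.2) →
      ∃ (U V : K →L[ℂ] K) (ζ ζ₀ : K), ‖V‖ ≤ C * δ ∧ Wk A Ω (C * γ) V ∧
        ∀ p ∈ S, ∀ c ∈ B, ‖c - p.2‖ ≤ δ → ‖(p.1 * c - c * p.1) Ω -
          (ζ₀ + p.1 (U (p.2 Ω)) + p.2 (V (p.1 Ω)) + p.1 (p.2 ζ))‖ ≤ C * δ * γ := by
  refine ⟨23, by norm_num, fun {K} _ _ _ A R B D Ω δ γ hδ hδ1 hγ cm cm' sR sA hG S hS => ?_⟩
  classical
  obtain ⟨a, b, st, amul, bmul, hs⟩ := exists_gp cm Ω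
  choose φ h1 h2 using fun q : S => hs _ _ (hS _ q.2)
  obtain ⟨U, V, ζ, ζ₀, h3, h4, h5⟩ := expand_gp hδ hδ1 hγ cm cm' sR sA hG a b st amul bmul
    (Finset.univ.image φ)
  refine ⟨U, V, ζ, ζ₀, h3, h4, fun q hq => ?_⟩
  have h6 := h5 _ (Finset.mem_image_of_mem φ (Finset.mem_univ ⟨q, hq⟩))
  rwa [h1, h2] at h6

end Vale.Agent.P096
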