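import Vale.Agent.P096.Exp
import Vale.Agent.P096.Amp

/-! Extraction of the bilinear identity. -/

namespace Vale.Agent.P096

open scoped InnerProductSpace Topology
open Filter

universe u

namespace Ex

section alg

variable {E : Type*} [Ring E] [StarRing E] [Algebra ℂ E] [StarModule ℂ E]

/-- the two by two matrices with signs -/
noncomputable def mat (p q w : E) (s t : ℂ) : Matrix (Fin 2) (Fin 2) E :=
  !![(3 / 5 : ℂ) • p, (t * (4 / 5)) • 1; (s * (4 / 5)) • q, (-(s * t * (3 / 5))) • w]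

lemma mat_unit {p q : E} (hp : p ∈ unitary E) (hq : q ∈ unitary E) {s t : ℂ}
    (hs : s = 1 ∨ s = -1) (ht : t = 1 ∨ t = -1) :
    mat p q (q * star p) s t ∈ unitary (Matrix (Fin 2) (Fin 2) E) := by
  have k1 : ∀ v, star q * (q * v) = v := fun v => by rw [← mul_assoc, hq.1, one_mul]
  have k2 : ∀ v, star p * (p * v) = v := fun v => by rw [← mul_assoc, hp.1, one_mul]
  have c1 : (starRingEnd ℂ) 3 = 3 := map_ofNat _ 3
  have c2 : (starRingEnd ℂ) 4 = 4 := map_ofNat _ 4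
  have c3 : (starRingEnd ℂ) 5 = 5 := map_ofNat _ 5
  constructor <;> refine Matrix.ext fun i j => ?_ <;> fin_cases i <;> fin_cases j <;>
    rcases hs with rfl | rfl <;> rcases ht with rfl | rfl <;>
    simp [mat, Matrix.mul_apply, Fin.sum_univ_two, Matrix.star_apply, mul_assoc, k1, k2, hp.1,
      hp.2, hq.1, hq.2, c1, c2, c3] <;> module

lemma unit_map {F : Type*} [Ring F] [StarRing F] [Algebra ℂ F] (φ : E →⋆ₐ[ℂ] F) {x : E}
    (hx : x ∈ unitary E) : φ x ∈ unitary F :=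
  ⟨by rw [← map_star, ← map_mul, hx.1, map_one], by rw [← map_star, ← map_mul, hx.2, map_one]⟩

omit [StarRing E] [StarModule ℂ E] in
lemma mat_mem {B : Subalgebra ℂ E} {p q w : E} (hp : p ∈ B) (hq : q ∈ B) (hw : w ∈ B) (s t : ℂ)
    (i j : Fin 2) : mat p q w s t i j ∈ B := by
  fin_cases i <;> fin_cases j
  exacts [B.smul_mem hp _, B.smul_mem B.one_mem _, B.smul_mem hq _, B.smul_mem hw _]

end alg

variable {K : Type*} [NormedAddCommGroup K] [InnerProductSpace ℂ K] [CompleteSpace K]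

omit [CompleteSpace K] in
lemma mat_sub_le {p q w p' q' w' : K →L[ℂ] K} {δ : ℝ} (hp : ‖p - p'‖ ≤ δ) (hq : ‖q - q'‖ ≤ δ)
    (hw : ‖w - w'‖ ≤ δ) {s t : ℂ} (hs : s = 1 ∨ s = -1) (ht : t = 1 ∨ t = -1) (i j : Fin 2) :
    ‖(mat p q w s t - mat p' q' w' s t) i j‖ ≤ δ := by
  have h0 := (norm_nonneg _).trans hp
  fin_cases i <;> fin_cases j <;> rcases hs with rfl | rfl <;> rcases ht with rfl | rfl <;>
    simp [mat, ← smul_sub, norm_smul, -neg_smul] <;> linarith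

/-- the data attached to a pair of unitaries -/
def Qd (A R : StarSubalgebra ℂ (K →L[ℂ] K)) (Ω : K) (x y a b : K →L[ℂ] K) : Prop :=
  x ∈ unitary (K →L[ℂ] K) ∧ y ∈ unitary (K →L[ℂ] K) ∧ a ∈ unitary (K →L[ℂ] K) ∧
    b ∈ unitary (K →L[ℂ] K) ∧ x ∈ A ∧ y ∈ A ∧ a ∈ R ∧ b ∈ R ∧ y Ω = a Ω ∧ b Ω = x Ω

lemma dg_apply (Ω : K) (i j : Fin 2) : dg Ω (i, j) = if i = j then Ω else 0 := rfl

variable {A R : StarSubalgebra ℂ (K →L[ℂ] K)} {Ω : K}

lemma fix_dg (cm : Cm (A : Set (K →L[ℂ] K)) R) {x y a b : K →L[ℂ] K} (h : Qd A R Ω x y a b)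
    {s t : ℂ} (hs : s = 1 ∨ s = -1) (ht : t = 1 ∨ t = -1) :
    Lm K (mat x (star y) (star y * star x) s t) (Rm K (mat (star b) a (a * b) s t) (dg Ω)) =
      dg Ω := by
  obtain ⟨ux, uy, ua, ub, hx, hy, ha, hb, e1, e2⟩ := h
  have k1 : ∀ v, star x (x v) = v := fun v => congr($(ux.1) v)
  have k2 : ∀ v, x (star x v) = v := fun v => congr($(ux.2) v)
  have k3 : ∀ v, star y (y v) = v := fun v => congr($(uy.1) v)
  have l1 : star b Ω = star x Ω := by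
    have h1 : star x (star b (b Ω)) = star b (star x (b Ω)) :=
      congr($(cm _ (star_mem hx) _ (star_mem hb)) (b Ω))
    have h2 : star b (b Ω) = Ω := congr($(ub.1) Ω)
    rw [h2, e2, k1] at h1
    exact h1.symm
  have l2 : a (x Ω) = x (y Ω) := by
    rw [e1]; exact (congr($(cm _ hx _ ha) Ω) : x (a Ω) = a (x Ω)).symm
  refine PiLp.ext fun ⟨i, k⟩ => ?_
  simp only [Lm_apply, Rm_apply, dg_apply, Fin.sum_univ_two]
  fin_cases i <;> fin_cases k <;> rcases hs with rfl | rfl <;> rcases ht with rfl | rfl <;>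
    simp [mat, ← e1, e2, k1, k2, k3, l1, l2] <;> module

lemma entry_left (x y w c1 c c2 : K →L[ℂ] K) (s t : ℂ) (Ω : K) :
    (Lm K (mat x y w s t) * Rm K (mat c1 c c2 s t) -
      Rm K (mat c1 c c2 s t) * Lm K (mat x y w s t)) (dg Ω) (0, 1) =
      (s * (12 / 25)) • (x * c - c * x) Ω := by
  simp only [ContinuousLinearMap.sub_apply, ContinuousLinearMap.mul_apply, PiLp.sub_apply,
    Lm_apply, Rm_apply, dg_apply, Fin.sum_univ_two]
  simp [mat]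
  module

/-- the entry of the right hand side -/
noncomputable def FF (U V : K2 K →L[ℂ] K2 K) (ζ ζ₀ : K2 K) (Ω : K) (x y w p a w' : K →L[ℂ] K)
    (s t : ℂ) : K :=
  (ζ₀ + Lm K (mat x y w s t) (U (Rm K (mat p a w' s t) (dg Ω))) +
    Rm K (mat p a w' s t) (V (Lm K (mat x y w s t) (dg Ω))) +
    Lm K (mat x y w s t) (Rm K (mat p a w' s t) ζ)) (0, 1)

lemma entry_right (U V : K2 K →L[ℂ] K2 K) (ζ ζ₀ : K2 K) (Ω : K) (x y w p a w' : K →L[ℂ] K) :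
    FF U V ζ ζ₀ Ω x y w p a w' 1 1 + FF U V ζ ζ₀ Ω x y w p a w' 1 (-1) -
      FF U V ζ ζ₀ Ω x y w p a w' (-1) 1 - FF U V ζ ζ₀ Ω x y w p a w' (-1) (-1) =
      (48 / 25 : ℂ) • (-(ent U (1, 1) (1, 1) (w' Ω) + w' (ent V (0, 1) (0, 1) Ω + ζ (1, 1))) +
        x (ent U (0, 1) (0, 1) (a Ω) + a (ζ (0, 0))) + a (ent V (0, 0) (0, 0) (x Ω))) := by
  simp only [FF, PiLp.add_apply, Lm_apply, Rm_apply, dg_apply, Fin.sum_univ_two,
    apply_eq_sum_ent U, apply_eq_sum_ent V, Fintype.sum_prod_type]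
  simp [mat]
  module

omit [CompleteSpace K] in
lemma comb {L M : K} {F : ℂ → ℂ → K} {ε : ℝ}
    (h : ∀ s t, (s = 1 ∨ s = -1) → (t = 1 ∨ t = -1) → ‖(s * (12 / 25) : ℂ) • L - F s t‖ ≤ ε)
    (e : F 1 1 + F 1 (-1) - F (-1) 1 - F (-1) (-1) = (48 / 25 : ℂ) • M) : ‖L - M‖ ≤ 3 * ε := by
  have h1 := h 1 1 (.inl rfl) (.inl rfl)
  have h2 := h 1 (-1) (.inl rfl) (.inr rfl)
  have h3 := h (-1) 1 (.inr rfl) (.inl rfl)
  have h4 := h (-1) (-1) (.inr rfl) (.inr rfl)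
  have h5 : (48 / 25 : ℂ) • (L - M) = ((1 * (12 / 25) : ℂ) • L - F 1 1) +
      ((1 * (12 / 25) : ℂ) • L - F 1 (-1)) - ((-1 * (12 / 25) : ℂ) • L - F (-1) 1) -
      ((-1 * (12 / 25) : ℂ) • L - F (-1) (-1)) := by
    rw [smul_sub, ← e]; module
  have h6 : ‖(48 / 25 : ℂ) • (L - M)‖ ≤ ε + ε + ε + ε := by
    rw [h5]
    exact (norm_sub_le _ _).trans (add_le_add ((norm_sub_le _ _).trans
      (add_le_add ((norm_add_le _ _).trans (add_le_add h1 h2)) h3)) h4)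
  have h7 : ‖(48 / 25 : ℂ)‖ = 48 / 25 := by simp
  rw [norm_smul, h7] at h6
  linarith [norm_nonneg (L - M)]

lemma single_eq (x : K →L[ℂ] K) (Ω : K) :
    (PiLp.single 2 (0, 0) (x Ω) : K2 K) = Lm K !![x, 0; 0, 0] (dg Ω) := by
  refine PiLp.ext fun ⟨i, k⟩ => ?_
  simp only [Lm_apply, dg_apply, Fin.sum_univ_two]
  fin_cases i <;> fin_cases k <;> simp

lemma wk_ent {A' : Set (K2 K →L[ℂ] K2 K)} (hA : ∀ X, (∀ i j, X i j ∈ A) → Lm K X ∈ A')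
    {V : K2 K →L[ℂ] K2 K} {γ : ℝ} (hγ : 0 ≤ γ) (h : Wk A' (dg Ω) γ V) :
    Wk A Ω (γ * 16) (ent V (0, 0) (0, 0)) := fun x hx => by
  rw [ent_apply, single_eq]
  refine (PiLp.norm_apply_le _ _).trans ((h _ (hA _ fun i j => ?_)).trans ?_)
  · fin_cases i <;> fin_cases j
    exacts [hx, zero_mem A, zero_mem A, zero_mem A]
  · rw [mul_assoc]
    gcongr
    refine norm_Lm_le fun i j => ?_
    fin_cases i <;> fin_cases j <;> simp

theorem extract0 : ∃ C : ℝ, 1 ≤ C ∧ ∀ {K : Type u} [NormedAddCommGroup K] [InnerProductSpace ℂ K]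
    [CompleteSpace K] (A R : StarSubalgebra ℂ (K →L[ℂ] K)) (B D : Subalgebra ℂ (K →L[ℂ] K))
    (Ω : K) (δ γ : ℝ), 0 < δ → 16 * δ ≤ 1 → 0 < γ → Cm (A : Set (K →L[ℂ] K)) R →
    Cm (D : Set (K →L[ℂ] K)) B → Sel A Ω δ γ R B → Sel A Ω δ γ A D → Gam A Ω γ B →
    ∀ {T : Type u} [Fintype T] (x y a b : T → K →L[ℂ] K),
      (∀ i, Qd A R Ω (x i) (y i) (a i) (b i)) →
      ∃ (V : K →L[ℂ] K) (P Q : (K →L[ℂ] K) → K), ‖V‖ ≤ C * δ ∧ Wk A Ω (C * γ) V ∧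
        ∀ i, ∀ c ∈ B, ‖c - a i‖ ≤ δ → ‖(x i * c - c * x i) Ω -
          (P (a i * b i) + x i (Q (a i)) + a i (V (x i Ω)))‖ ≤ C * δ * γ := by
  obtain ⟨C, hC, H⟩ := expand.{u}
  refine ⟨768 * C, by linarith,
    fun {K} _ _ _ A R B D Ω δ γ hδ hδ1 hγ cm cm' sR sA hG T _ x y a b hq => ?_⟩
  classical
  obtain ⟨A', R', B', D', mA, mR, mB, cm1, cm2, sR', sA', hG'⟩ :=
    exists_amp A R B D Ω hδ.le hγ.le cm cm' sR sA hG
  obtain ⟨g, hg⟩ : ∃ g : T → ℂ → ℂ → (K2 K →L[ℂ] K2 K) × (K2 K →L[ℂ] K2 K), ∀ i s t, g i s t =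
      (Lm K (mat (x i) (star (y i)) (star (y i) * star (x i)) s t),
        Rm K (mat (star (b i)) (a i) (a i * b i) s t)) := ⟨_, fun _ _ _ => rfl⟩
  obtain ⟨U, V, ζ, ζ₀, n1, w1, h1⟩ := H A' R' B' D' (dg Ω) (16 * δ) (16 * γ) (by positivity) hδ1
    (by positivity) cm1 cm2 sR' sA' hG'
    ((Finset.univ ×ˢ ({1, -1} : Finset ℂ) ×ˢ ({1, -1} : Finset ℂ)).image
      fun z => g z.1 z.2.1 z.2.2) (by
      intro p hp
      obtain ⟨⟨i, s, t⟩, hz, rfl⟩ := Finset.mem_image.1 hp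
      simp only [Finset.mem_product, Finset.mem_univ, true_and, Finset.mem_insert,
        Finset.mem_singleton] at hz
      obtain ⟨ux, uy, ua, ub, hx, hy, ha, hb, -⟩ := hq i
      have hx' : star (x i) ∈ A := star_mem hx
      have hy' : star (y i) ∈ A := star_mem hy
      have hb' : star (b i) ∈ R := star_mem hb
      rw [hg]
      refine ⟨unit_map _ (mat_unit ux (Unitary.star_mem uy) hz.1 hz.2), unit_map _ ?_,
        mA _ (mat_mem (B := A.toSubalgebra) hx hy' (mul_mem hy' hx') s t),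
        mR _ (mat_mem (B := R.toSubalgebra) hb' ha (mul_mem ha hb) s t),
        fix_dg cm (hq i) hz.1 hz.2⟩
      simpa using mat_unit (Unitary.star_mem ub) ua hz.1 hz.2)
  have hC0 : 0 < C := by linarith
  refine ⟨ent V (0, 0) (0, 0),
    fun w => -(ent U (1, 1) (1, 1) (w Ω) + w (ent V (0, 1) (0, 1) Ω + ζ (1, 1))),
    fun w => ent U (0, 1) (0, 1) (w Ω) + w (ζ (0, 0)),
    ((norm_ent_le _ _ _).trans n1).trans (by nlinarith [mul_pos hC0 hδ]),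
    (wk_ent mA (by positivity) w1).mono (by nlinarith [mul_pos hC0 hγ]), fun i c hc hca => ?_⟩
  obtain ⟨ux, uy, ua, ub, hx, hy, ha, hb, -⟩ := hq i
  obtain ⟨c1, hc1, e1, -⟩ := sR _ (star_mem hb)
  obtain ⟨c2, hc2, e2, -⟩ := sR _ (mul_mem ha hb)
  rw [norm_sub_rev] at e1 e2
  have e1' := e1.trans (mul_le_of_le_one_right hδ.le (norm_unit_le (Unitary.star_mem ub)))
  have e2' := e2.trans (mul_le_of_le_one_right hδ.le (norm_unit_le (mul_mem ua ub)))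
  refine (comb (ε := C * (16 * δ) * (16 * γ)) (fun s t hs ht => ?_)
    (entry_right U V ζ ζ₀ Ω (x i) (star (y i)) (star (y i) * star (x i)) (star (b i)) (a i)
      (a i * b i))).trans (le_of_eq (by ring))
  have h2 := h1 (g i s t) (Finset.mem_image.2 ⟨(i, s, t), by simpa using ⟨hs, ht⟩, rfl⟩)
    (Rm K (mat c1 c c2 s t)) (mB _ (mat_mem hc1 hc hc2 s t)) (by
      rw [hg, ← map_sub]
      exact norm_Rm_le (mat_sub_le e1' hca e2' hs ht))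
  rw [hg] at h2
  refine le_trans (le_of_eq ?_) ((PiLp.norm_apply_le _ (0, 1)).trans h2)
  rw [PiLp.sub_apply, entry_left]
  rfl

omit [CompleteSpace K] in
lemma fin_comb {L P1 P2 Q1 Q2 : K} {x y a V : K →L[ℂ] K} {ε : ℝ} (hx : ∀ v, ‖x v‖ = ‖v‖)
    (e : y Ω = a Ω) (e' : ∀ v, x (a v) = a (x v))
    (h1 : ‖L - (P1 + x Q1 + a (V (x Ω)))‖ ≤ ε) (h2 : ‖P2 + Q1 + a (V Ω)‖ ≤ ε)
    (h3 : ‖P1 + x (y Q2) + V (x (y Ω))‖ ≤ ε) (h4 : ‖P2 + y Q2 + V (y Ω)‖ ≤ ε) :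
    ‖L - ((-V * x - x * -V) * a - a * (-V * x - x * -V)) Ω‖ ≤ 4 * ε := by
  have h5 : L - ((-V * x - x * -V) * a - a * (-V * x - x * -V)) Ω =
      (L - (P1 + x Q1 + a (V (x Ω)))) + (P1 + x (y Q2) + V (x (y Ω))) +
        x (P2 + Q1 + a (V Ω)) - x (P2 + y Q2 + V (y Ω)) := by
    simp only [ContinuousLinearMap.sub_apply, ContinuousLinearMap.mul_apply,
      ContinuousLinearMap.neg_apply, map_add, map_sub, map_neg, e, ← e']
    abel
  rw [h5]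
  refine (norm_sub_le _ _).trans ((add_le_add norm_add₃_le le_rfl).trans ?_)
  rw [hx, hx]
  linarith

end Ex

open Ex in
theorem extract : ∃ C : ℝ, 1 ≤ C ∧ ∀ {K : Type u} [NormedAddCommGroup K] [InnerProductSpace ℂ K]
    [CompleteSpace K] (A R : StarSubalgebra ℂ (K →L[ℂ] K)) (B D : Subalgebra ℂ (K →L[ℂ] K))
    (Ω : K) (δ γ : ℝ), 0 < δ → C * δ ≤ 1 → 0 < γ → SF A R Ω →
    Cm (D : Set (K →L[ℂ] K)) B → Sel A Ω δ γ R B → Sel A Ω δ γ A D → Gam A Ω γ B →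
    ∀ S : Finset ((K →L[ℂ] K) × (K →L[ℂ] K)), (∀ p ∈ S, p.1 ∈ unitary (K →L[ℂ] K) ∧ p.1 ∈ A ∧
      p.2 ∈ unitary (K →L[ℂ] K) ∧ p.2 ∈ R) →
      ∃ V : K →L[ℂ] K, ‖V‖ ≤ C * δ ∧ Wk A Ω (C * γ) V ∧
        ∀ p ∈ S, ∀ c ∈ B, ‖c - p.2‖ ≤ δ → ‖(p.1 * c - c * p.1) Ω -
          ((V * p.1 - p.1 * V) * p.2 - p.2 * (V * p.1 - p.1 * V)) Ω‖ ≤ C * δ * γ := by
  obtain ⟨C, hC, H⟩ := extract0.{u}
  refine ⟨16 * C, by linarith, fun {K} _ _ _ A R B D Ω δ γ hδ hδ1 hγ sf cm' sR sA hG S hS => ?_⟩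
  have hC0 : 0 < C := by linarith
  choose y hy uy ey _ using fun q : S => sf.symm.unit (hS _ q.2).2.2.2 (hS _ q.2).2.2.1
  choose b hb ub eb _ using fun q : S => sf.unit (hS _ q.2).2.1 (hS _ q.2).1
  obtain ⟨V, P, Q, n1, w1, h1⟩ := H A R B D Ω δ γ hδ (by nlinarith) hγ sf.cm cm' sR sA hG
    (T := S × Fin 4) (fun z => ![z.1.1.1, 1, z.1.1.1 * y z.1, y z.1] z.2)
    (fun z => ![y z.1, y z.1, 1, 1] z.2) (fun z => ![z.1.1.2, z.1.1.2, 1, 1] z.2)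
    (fun z => ![b z.1, 1, z.1.1.2 * b z.1, z.1.1.2] z.2) (by
      rintro ⟨q, j⟩
      obtain ⟨ux, hx, ua, ha⟩ := hS _ q.2
      fin_cases j
      · exact ⟨ux, uy q, ua, ub q, hx, hy q, ha, hb q, ey q, eb q⟩
      · exact ⟨one_mem _, uy q, ua, one_mem _, one_mem _, hy q, ha, one_mem _, ey q, rfl⟩
      · refine ⟨mul_mem ux (uy q), one_mem _, one_mem _, mul_mem ua (ub q), mul_mem hx (hy q),
          one_mem _, one_mem _, mul_mem ha (hb q), rfl, ?_⟩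
        change q.1.2 (b q Ω) = q.1.1 (y q Ω)
        rw [eb, ey, sf.comm_apply hx ha]
      · exact ⟨uy q, one_mem _, one_mem _, ua, hy q, one_mem _, one_mem _, ha, rfl, (ey q).symm⟩)
  refine ⟨-V, by rw [norm_neg]; nlinarith [mul_pos hC0 hδ],
    w1.neg.mono (by nlinarith [mul_pos hC0 hγ]), fun p hp c hc hcp => ?_⟩
  obtain ⟨ux, hx, ua, ha⟩ := hS _ hp
  have a1 := h1 (⟨p, hp⟩, 0) c hc hcp
  have a2 := h1 (⟨p, hp⟩, 1) c hc hcp
  have a3 := h1 (⟨p, hp⟩, 2) 1 B.one_mem (by simpa using hδ.le)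
  have a4 := h1 (⟨p, hp⟩, 3) 1 B.one_mem (by simpa using hδ.le)
  refine (fin_comb (ε := C * δ * γ) (P1 := P (p.2 * b ⟨p, hp⟩)) (P2 := P p.2) (Q1 := Q p.2)
    (Q2 := Q 1) (norm_unit_apply ux) (ey ⟨p, hp⟩) (sf.comm_apply hx ha) a1 ?_ ?_ ?_).trans
    (by nlinarith [mul_pos (mul_pos hC0 hδ) hγ])
  · rw [← norm_neg]; simpa using a2
  · rw [← norm_neg]; simpa using a3
  · rw [← norm_neg]; simpa using a4

end Vale.Agent.P096
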