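import Vale.Agent.P096.Sel
import Mathlib.Analysis.Normed.Operator.Extend

/-! The standard form of a cyclic trace vector. -/

namespace Vale.Agent.P096

open scoped InnerProductSpace Topology
open Filter

universe u

section

variable {K : Type*} [NormedAddCommGroup K] [InnerProductSpace ℂ K]

lemma std_dense {S : Set (K →L[ℂ] K)} {Ω : K} (hd : ∀ v : K, ∀ η > 0, ∃ x ∈ S, ‖x Ω - v‖ ≤ η) :
    Dense ((fun x : K →L[ℂ] K => x Ω) '' S) := fun v => by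
  rw [Metric.mem_closure_iff]
  intro η hη
  obtain ⟨x, hx, e⟩ := hd v (η / 2) (half_pos hη)
  exact ⟨x Ω, ⟨x, hx, rfl⟩, by rw [dist_comm, dist_eq_norm]; linarith⟩

lemma std_ind {S : Set (K →L[ℂ] K)} {Ω : K} (hd : ∀ v : K, ∀ η > 0, ∃ x ∈ S, ‖x Ω - v‖ ≤ η)
    {p : K → Prop} (hp : IsClosed {v | p v}) (h : ∀ x ∈ S, p (x Ω)) (v : K) : p v :=
  (std_dense hd).induction (by rintro _ ⟨x, hx, rfl⟩; exact h x hx) hp v

variable [CompleteSpace K] {A : StarSubalgebra ℂ (K →L[ℂ] K)} {Ω : K}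

lemma std_mem {T : K →L[ℂ] K} : T ∈ StarSubalgebra.centralizer ℂ (A : Set (K →L[ℂ] K)) ↔
    ∀ x ∈ A, T * x = x * T := by
  rw [StarSubalgebra.mem_centralizer_iff]
  exact ⟨fun h x hx => (h x hx).1.symm,
    fun h x hx => ⟨(h x hx).symm, (h _ (star_mem hx)).symm⟩⟩

lemma std_pA (hd : ∀ v : K, ∀ η > 0, ∃ x ∈ A, ‖x Ω - v‖ ≤ η)
    (ht : ∀ x ∈ A, ‖star x Ω‖ = ‖x Ω‖) {y : K →L[ℂ] K} (hy : y ∈ A) :
    ∃ a ∈ StarSubalgebra.centralizer ℂ (A : Set (K →L[ℂ] K)), a Ω = y Ω ∧ ‖a‖ ≤ ‖y‖ := by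
  let ev : K → (A →ₗ[ℂ] K) := fun v =>
    { toFun := fun x => (x : K →L[ℂ] K) v
      map_add' := fun _ _ => rfl
      map_smul' := fun _ _ => rfl }
  have hde : DenseRange (ev Ω) := (std_dense hd).mono (by
    rintro _ ⟨x, hx, rfl⟩
    exact ⟨⟨x, hx⟩, rfl⟩)
  have hn : ∀ x : A, ‖ev (y Ω) x‖ ≤ ‖y‖ * ‖ev Ω x‖ := fun x => by
    have h1 := ht _ (mul_mem x.2 hy)
    have h2 := (star y).le_opNorm (star (x : K →L[ℂ] K) Ω)
    rw [star_mul] at h1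
    rw [norm_star, ht _ x.2] at h2
    exact h1.ge.trans h2
  have he : ∀ x ∈ A, (ev (y Ω)).extendOfNorm (ev Ω) (x Ω) = x (y Ω) := fun x hx =>
    LinearMap.extendOfNorm_eq hde ⟨_, hn⟩ ⟨x, hx⟩
  refine ⟨(ev (y Ω)).extendOfNorm (ev Ω), std_mem.2 fun x hx => ?_, he 1 (one_mem _),
    LinearMap.opNorm_extendOfNorm_le hde (norm_nonneg _) hn⟩
  ext v
  refine std_ind hd (p := fun v => ((ev (y Ω)).extendOfNorm (ev Ω) * x) v =
    (x * (ev (y Ω)).extendOfNorm (ev Ω)) v) (isClosed_eq (by fun_prop) (by fun_prop))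
    (fun z hz => ?_) v
  exact (he _ (mul_mem hx hz)).trans (congrArg x (he z hz).symm)

lemma std_star_le (hd : ∀ v : K, ∀ η > 0, ∃ x ∈ A, ‖x Ω - v‖ ≤ η)
    (ht : ∀ x ∈ A, ‖star x Ω‖ = ‖x Ω‖) {c : K →L[ℂ] K}
    (hc : c ∈ StarSubalgebra.centralizer ℂ (A : Set (K →L[ℂ] K))) : ‖star c Ω‖ ≤ ‖c Ω‖ := by
  have h1 := std_ind hd (p := fun v => ‖⟪star c Ω, v⟫_ℂ‖ ≤ ‖v‖ * ‖c Ω‖)
    (isClosed_le (by fun_prop) (by fun_prop)) (fun x hx => by
      have e : c (x Ω) = x (c Ω) := congr($(std_mem.1 hc x hx) Ω)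
      rw [ContinuousLinearMap.star_eq_adjoint, ContinuousLinearMap.adjoint_inner_left, e,
        ← ContinuousLinearMap.adjoint_inner_left, ← ContinuousLinearMap.star_eq_adjoint,
        ← ht x hx]
      exact norm_inner_le_norm _ _) (star c Ω)
  rw [inner_self_eq_norm_sq_to_K, norm_pow, RCLike.norm_ofReal, abs_norm] at h1
  by_contra! h0
  nlinarith [norm_nonneg (c Ω)]

end

theorem mkSF {K : Type*} [NormedAddCommGroup K] [InnerProductSpace ℂ K] [CompleteSpace K]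
    {A : StarSubalgebra ℂ (K →L[ℂ] K)} (hA : IsClosed (A : Set (K →L[ℂ] K))) {Ω : K}
    (hd : ∀ v : K, ∀ η > 0, ∃ x ∈ A, ‖x Ω - v‖ ≤ η) (ht : ∀ x ∈ A, ‖star x Ω‖ = ‖x Ω‖)
    (hc : ∀ (ζ : K) (r : ℝ), (∀ η > 0, ∃ x ∈ A, ‖x‖ ≤ r ∧ ‖x Ω - ζ‖ ≤ η) → ∃ x ∈ A, x Ω = ζ) :
    SF A (StarSubalgebra.centralizer ℂ (A : Set (K →L[ℂ] K))) Ω := by
  have hcm : Cm (A : Set (K →L[ℂ] K)) (StarSubalgebra.centralizer ℂ (A : Set (K →L[ℂ] K))) :=
    fun x hx a ha => (std_mem.1 ha x hx).symm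
  have hR : ∀ v : K, ∀ η > 0, ∃ b ∈ StarSubalgebra.centralizer ℂ (A : Set (K →L[ℂ] K)),
      ‖b Ω - v‖ ≤ η := fun v η hη => by
    obtain ⟨x, hx, e⟩ := hd v η hη
    obtain ⟨a, ha, e', -⟩ := std_pA hd ht hx
    exact ⟨a, ha, e' ▸ e⟩
  have key : ∀ (ζ : K) (L : ℝ), 0 ≤ L →
      (∀ b ∈ StarSubalgebra.centralizer ℂ (A : Set (K →L[ℂ] K)), ‖b ζ‖ ≤ L * ‖b Ω‖) →
      ∃ y ∈ A, y Ω = ζ := fun ζ L hL h => hc ζ (3 * (L + 1)) fun η hη => by
    obtain ⟨q, hq, q1, q2⟩ := cut hA hcm.symm hd (fun q hq => std_pA hd ht hq) (ζ := ζ)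
      (δ := L + 1) (γ := η / 5) (by positivity) (by positivity) fun p hp => by
        have h1 := h p hp
        have h2 : 0 ≤ η / 5 * ‖p‖ := by positivity
        nlinarith [norm_nonneg (p Ω)]
    exact ⟨q, hq, q1, by linarith⟩
  refine ⟨hcm, fun T hT => ?_, fun T hT => std_mem.2 hT, hd, fun x hx => std_pA hd ht hx,
    fun a ha => ?_⟩
  · obtain ⟨y, hy, e⟩ := key (T Ω) ‖T‖ (norm_nonneg _) fun b hb => by
      have e : T (b Ω) = b (T Ω) := congr($(hT b hb) Ω)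
      rw [← e]
      exact T.le_opNorm _
    have : T = y := by
      ext v
      refine std_ind hR (p := fun v => T v = y v) (isClosed_eq (by fun_prop) (by fun_prop))
        (fun b hb => ?_) v
      have e1 : T (b Ω) = b (T Ω) := congr($(hT b hb) Ω)
      have e2 : y (b Ω) = b (y Ω) := congr($(hcm y hy b hb) Ω)
      rw [e1, e2, e]
    exact this ▸ hy
  · have h1 : ∀ b ∈ StarSubalgebra.centralizer ℂ (A : Set (K →L[ℂ] K)),
        ‖b (a Ω)‖ ≤ ‖a‖ * ‖b Ω‖ := fun b hb => by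
      have h2 := std_star_le hd ht (star_mem (mul_mem hb ha))
      have h3 := (star a).le_opNorm (star b Ω)
      have h4 := std_star_le hd ht hb
      rw [star_star, star_mul] at h2
      rw [norm_star] at h3
      exact h2.trans (h3.trans (by gcongr))
    obtain ⟨y, hy, e⟩ := key (a Ω) ‖a‖ (norm_nonneg _) h1
    refine ⟨y, hy, e, y.opNorm_le_bound (norm_nonneg _) fun v => ?_⟩
    refine std_ind hR (p := fun v => ‖y v‖ ≤ ‖a‖ * ‖v‖) (isClosed_le (by fun_prop) (by fun_prop))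
      (fun b hb => ?_) v
    have e2 : y (b Ω) = b (y Ω) := congr($(hcm y hy b hb) Ω)
    rw [e2, e]
    exact h1 b hb

end Vale.Agent.P096
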