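import Vale.Agent.P096.Iter
import Vale.Agent.P096.Std
import Vale.Agent.P096.DK
import Vale.Agent.P096.Proj
import Mathlib.Algebra.Star.UnitaryStarAlgAut

/-! The linear lift for algebras with a faithful vector trace. -/

namespace Vale.Agent.P096

open scoped InnerProductSpace Topology
open Filter

universe u

theorem cycLift : ∃ C : ℝ, 1 ≤ C ∧ ∀ {K : Type u} [NormedAddCommGroup K] [InnerProductSpace ℂ K]
    [CompleteSpace K] (A R D : StarSubalgebra ℂ (K →L[ℂ] K)) (Ω : K) (δ : ℝ), 0 < δ →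
    C * δ ≤ 1 → SF A R Ω → Near δ (A : Set (K →L[ℂ] K)) D → Near δ (D : Set (K →L[ℂ] K)) A →
      ∃ φ : (K →L[ℂ] K) →ₗ[ℂ] (K →L[ℂ] K), (∀ y ∈ D, φ y ∈ A) ∧
        ∀ T, ‖φ T - T‖ ≤ C * δ * ‖T‖ := by
  obtain ⟨C, hC, H⟩ := core.{u}
  have hK := one_le_KD
  refine ⟨C * (2 * KD), by nlinarith, fun {K} _ _ _ A R D Ω δ hδ hδ1 sf h1 h2 => ?_⟩
  have e : Set.centralizer (A : Set (K →L[ℂ] K)) = R :=
    Set.ext fun T => ⟨fun hT => sf.cR T fun a ha => (hT a ha).symm, fun hT a ha => sf.cm a ha T hT⟩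
  have h3 := near_comm A hδ.le h1
  have h4 := near_comm D hδ.le h2
  rw [e] at h3 h4
  have h5 : δ ≤ 2 * KD * δ := by nlinarith
  obtain ⟨φ, p1, p2⟩ := H R A D.toSubalgebra (Subalgebra.centralizer ℂ (D : Set (K →L[ℂ] K))) Ω
    (2 * KD * δ) (by positivity) (by linarith) sf.symm (fun x hx y hy => (hx y hy).symm)
    (h1.mono h5) (h2.mono h5) h4 h3
  exact ⟨φ, p1, fun T => (p2 T).trans (le_of_eq (by ring))⟩

namespace Fn

theorem pull : ∃ C : ℝ, 1 ≤ C ∧ ∀ {E : Type u} [CStarAlgebra E] {K : Type u} [NormedAddCommGroup K]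
    [InnerProductSpace ℂ K] [CompleteSpace K] (M N : StarSubalgebra ℂ E)
    (α : M →⋆ₐ[ℂ] (K →L[ℂ] K)) (β : N →⋆ₐ[ℂ] (K →L[ℂ] K)) (R : StarSubalgebra ℂ (K →L[ℂ] K))
    (Ω : K) (δ : ℝ), 0 < δ → C * δ ≤ 1 → SF α.range R Ω → (∀ m, ‖α m‖ = ‖m‖) →
    (∀ m n, ‖β n - α m‖ ≤ δ * ‖n‖ + ‖(n : E) - m‖) → Near δ (M : Set E) N → Near δ (N : Set E) M →
      ∃ ψ : N →ₗ[ℂ] E, ∀ n, ψ n ∈ M ∧ ‖ψ n - n‖ ≤ C * δ * ‖n‖ := by
  obtain ⟨C, hC, H⟩ := cycLift.{u}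
  refine ⟨20 * C, by linarith, fun {E} _ {K} _ _ _ M N α β R Ω δ hδ hδ1 sf hα hβ h1 h2 => ?_⟩
  have hδ2 : δ ≤ 1 / 20 := by nlinarith
  have k1 : ∀ n : N, ∃ m : M, ‖(n : E) - m‖ ≤ δ * ‖n‖ ∧ ‖β n - α m‖ ≤ 2 * δ * ‖n‖ ∧
      ‖n‖ ≤ 2 * ‖β n‖ ∧ ‖β n‖ ≤ 2 * ‖n‖ := fun n => by
    obtain ⟨m, hm, e⟩ := h2 n n.2
    have e1 := hβ ⟨m, hm⟩ n
    have e2 : ‖α ⟨m, hm⟩‖ = ‖m‖ := hα ⟨m, hm⟩
    have e3 := abs_le.1 (abs_norm_sub_norm_le (β n) (α ⟨m, hm⟩))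
    have e4 := abs_le.1 (abs_norm_sub_norm_le (n : E) m)
    have e5 : ‖(n : E)‖ = ‖n‖ := rfl
    have e6 : δ * ‖n‖ ≤ 1 / 20 * ‖n‖ := by gcongr
    rw [e5] at e e4
    exact ⟨⟨m, hm⟩, e, by linarith, by linarith [norm_nonneg n], by linarith [norm_nonneg n]⟩
  obtain ⟨φ, p1, p2⟩ := H α.range R β.range Ω (4 * δ) (by positivity) (by linarith) sf
    (by
      rintro _ ⟨m, rfl⟩
      obtain ⟨n, hn, e⟩ := h1 m m.2
      refine ⟨β ⟨n, hn⟩, ⟨_, rfl⟩, ?_⟩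
      have e1 := hβ m ⟨n, hn⟩
      have e3 := It.le_two e (by linarith)
      have e4 : ‖(⟨n, hn⟩ : N)‖ = ‖n‖ := rfl
      have e5 : ‖(m : E)‖ = ‖m‖ := rfl
      change ‖α m - β ⟨n, hn⟩‖ ≤ 4 * δ * ‖α m‖
      rw [norm_sub_rev, hα]
      rw [norm_sub_rev, e5] at e
      rw [e4] at e1
      rw [e5] at e3
      nlinarith [norm_nonneg m])
    (by
      rintro _ ⟨n, rfl⟩
      obtain ⟨m, -, e1, e2, -⟩ := k1 n
      refine ⟨α m, ⟨_, rfl⟩, e1.trans ?_⟩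
      change _ ≤ 4 * δ * ‖β n‖
      nlinarith)
  have hinj : Function.Injective α := fun a b h => by
    rw [← sub_eq_zero, ← norm_eq_zero, ← hα, map_sub, h, sub_self, norm_zero]
  choose g hg using fun n : N => p1 (β n) ⟨n, rfl⟩
  have hg' : ∀ n, α (g n) = φ (β n) := hg
  let ψ : N →ₗ[ℂ] M :=
    { toFun := g
      map_add' a b := hinj (by simp only [map_add, hg'])
      map_smul' c a := hinj (by simp only [map_smul, hg', RingHom.id_apply]) }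
  refine ⟨M.subtype.toLinearMap ∘ₗ ψ, fun n => ⟨(g n).2, ?_⟩⟩
  obtain ⟨m, e0, e1, -, e2⟩ := k1 n
  have e3 : ‖(g n : E) - m‖ = ‖φ (β n) - α m‖ := by rw [← hg', ← map_sub, hα]; rfl
  have e4 := norm_sub_le_norm_sub_add_norm_sub (φ (β n)) (β n) (α m)
  have e5 := norm_sub_le_norm_sub_add_norm_sub (g n : E) m n
  have e6 := p2 (β n)
  have e7 : C * (4 * δ) * ‖β n‖ ≤ C * (4 * δ) * (2 * ‖n‖) := by gcongr
  have e8 : 0 ≤ (C - 1) * (δ * ‖n‖) := mul_nonneg (by linarith) (by positivity)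
  have e9 : 0 ≤ δ * ‖n‖ := by positivity
  rw [norm_sub_rev] at e0
  change ‖(g n : E) - n‖ ≤ _
  linarith

variable {E : Type*} [CStarAlgebra E] {K : Type*} [NormedAddCommGroup K] [InnerProductSpace ℂ K]
  [CompleteSpace K]

lemma proj_comm {S : Submodule ℂ K} [CompleteSpace S] {T : K →L[ℂ] K} (h : ∀ v ∈ S, T v ∈ S)
    (h' : ∀ v ∈ S, star T v ∈ S) : S.starProjection * T = T * S.starProjection := by
  have k : ∀ {T : K →L[ℂ] K}, (∀ v ∈ S, T v ∈ S) →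
      S.starProjection * T * S.starProjection = T * S.starProjection := fun h =>
    ContinuousLinearMap.ext fun v =>
      Submodule.starProjection_eq_self_iff.2 (h _ (S.starProjection_apply_mem v))
  have h1 := congrArg star (k h')
  simp only [star_mul, star_star, (isStarProjection_starProjection (U := S)).2.star_eq] at h1
  rw [← h1, ← mul_assoc, k h]

/-- the cyclic subspace -/
def cyc (π : E →⋆ₐ[ℂ] (K →L[ℂ] K)) (M : StarSubalgebra ℂ E) (Ω : K) : Submodule ℂ K :=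
  Submodule.topologicalClosure
    { carrier := {v | ∃ x ∈ M, π x Ω = v}
      add_mem' := by
        rintro _ _ ⟨x, hx, rfl⟩ ⟨y, hy, rfl⟩
        exact ⟨x + y, add_mem hx hy, by simp⟩
      zero_mem' := ⟨0, zero_mem _, by simp⟩
      smul_mem' := by
        rintro c _ ⟨x, hx, rfl⟩
        exact ⟨c • x, M.smul_mem hx c, by simp⟩ }

lemma exists_cyc (π : E →⋆ₐ[ℂ] (K →L[ℂ] K)) (M : StarSubalgebra ℂ E) (Ω : K) :
    ∃ (S : Submodule ℂ K) (_ : CompleteSpace S), Ω ∈ S ∧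
      (∀ x : M, S.starProjection * π x = π x * S.starProjection) ∧
      ∀ v ∈ S, ∀ η > 0, ∃ x ∈ M, ‖π x Ω - v‖ ≤ η := by
  have inv : ∀ x ∈ M, ∀ v ∈ cyc π M Ω, π x v ∈ cyc π M Ω := fun x hx v hv =>
    map_mem_closure (π x).continuous hv (by
      rintro _ ⟨y, hy, rfl⟩
      exact ⟨x * y, mul_mem hx hy, by simp⟩)
  have : CompleteSpace (cyc π M Ω) := (Submodule.isClosed_topologicalClosure _).completeSpace_coe
  refine ⟨cyc π M Ω, this,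
    subset_closure ⟨1, one_mem _, by simp⟩, fun x => proj_comm (inv x x.2) ?_, fun v hv η hη => ?_⟩
  · rw [← map_star]; exact inv _ (star_mem x.2)
  · obtain ⟨_, ⟨x, hx, rfl⟩, e⟩ := Metric.mem_closure_iff.1 hv η hη
    exact ⟨x, hx, by rw [← dist_eq_norm, dist_comm]; exact e.le⟩

lemma exists_rho (π : E →⋆ₐ[ℂ] (K →L[ℂ] K)) (hπ : ∀ x, ‖π x‖ = ‖x‖) {M N : StarSubalgebra ℂ E}
    {δ : ℝ} (hδ : 0 ≤ δ) (hδ1 : 100 * (2 * KD * δ) ≤ 1) (h : Near δ (N : Set E) M)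
    {e : K →L[ℂ] K} (he : IsStarProjection e) (hc : ∀ x : M, e * π x = π x * e) :
    ∃ ρ : N →⋆ₐ[ℂ] (K →L[ℂ] K), (∀ n, e * ρ n = ρ n * e) ∧
      ∀ n, ‖ρ n - π n‖ ≤ 2 * (100 * (2 * KD * δ)) * ‖n‖ := by
  have h1 : Near δ (N.map π : Set (K →L[ℂ] K)) (M.map π) := by
    rintro _ ⟨n, hn, rfl⟩
    obtain ⟨m, hm, e⟩ := h n hn
    refine ⟨π m, ⟨m, hm, rfl⟩, ?_⟩
    change ‖π n - π m‖ ≤ δ * ‖π n‖
    rwa [← map_sub, hπ, hπ]
  obtain ⟨c, hc1, hc2⟩ := near_comm _ hδ h1 e (by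
    rintro _ ⟨m, hm, rfl⟩
    exact (hc ⟨m, hm⟩).symm)
  have hK := one_le_KD
  have hc3 : ‖c - e‖ ≤ 2 * KD * δ := by
    rw [norm_sub_rev]
    exact hc2.trans (mul_le_of_le_one_right (by positivity) he.norm_le)
  obtain ⟨q, hq, hq', w, hw, e1, e2⟩ := proj_near
    (StarSubalgebra.centralizer ℂ (N.map π : Set (K →L[ℂ] K)))
    (by rw [StarSubalgebra.coe_centralizer]; exact Set.isClosed_centralizer _) he
    (std_mem.2 fun x hx => (hc1 x hx).symm) hc3 hδ1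
  have e3 : q * star w = star w * e := by
    simpa only [star_mul, hq'.2.star_eq, he.2.star_eq] using congrArg star e2
  refine ⟨(Unitary.conjStarAlgAut ℂ _ ⟨w, hw⟩ : _ →⋆ₐ[ℂ] _).comp (π.comp N.subtype), fun n => ?_,
    fun n => ?_⟩
  · change e * (w * π n * star w) = w * π n * star w * e
    rw [mul_assoc _ (star w), ← e3, ← mul_assoc, ← mul_assoc, ← e2, mul_assoc w q,
      std_mem.1 hq (π n) ⟨n, n.2, rfl⟩]
    simp only [mul_assoc]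
  · change ‖w * π n * star w - π n‖ ≤ _
    have e4 : w * π n * star w - π n = (w * π n - π n * w) * star w := by
      rw [sub_mul, mul_assoc (π n) w, hw.2, mul_one]
    rw [e4]
    refine (norm_mul_le_of_le (It.comm_le e1 _) (norm_unit_le (Unitary.star_mem hw))).trans ?_
    rw [hπ, mul_one]
    rfl

theorem absLift : ∃ C : ℝ, 1 ≤ C ∧ ∀ {E : Type u} [CStarAlgebra E] {K : Type u}
    [NormedAddCommGroup K] [InnerProductSpace ℂ K] [CompleteSpace K] (M N : StarSubalgebra ℂ E)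
    (π : E →⋆ₐ[ℂ] (K →L[ℂ] K)) (Ω : K) (δ : ℝ), 0 < δ → C * δ ≤ 1 → IsClosed (M : Set E) →
    (∀ x, ‖π x‖ = ‖x‖) → (∀ x ∈ M, ‖π (star x) Ω‖ = ‖π x Ω‖) → (∀ x ∈ M, π x Ω = 0 → x = 0) →
    (∀ (ζ : K) (r : ℝ), (∀ η > 0, ∃ x ∈ M, ‖x‖ ≤ r ∧ ‖π x Ω - ζ‖ ≤ η) → ∃ x ∈ M, π x Ω = ζ) →
    Near δ (M : Set E) N → Near δ (N : Set E) M →
      ∃ ψ : N →ₗ[ℂ] E, ∀ n, ψ n ∈ M ∧ ‖ψ n - n‖ ≤ C * δ * ‖n‖ := by
  obtain ⟨C, hC, H⟩ := pull.{u}
  have hK := one_le_KD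
  refine ⟨C * (400 * KD), by nlinarith,
    fun {E} _ {K} _ _ _ M N π Ω δ hδ hδ1 hM hπ ht hs hw h1 h2 => ?_⟩
  have hδ2 : KD * δ ≤ 1 / 400 := by nlinarith [mul_pos (one_pos.trans_le hK) hδ]
  have hδ3 : δ ≤ 400 * KD * δ := by nlinarith
  obtain ⟨S, _, hΩ, he, hd⟩ := exists_cyc π M Ω
  obtain ⟨ρ, r1, r2⟩ := exists_rho π hπ hδ.le (by linarith) h2 isStarProjection_starProjection he
  obtain ⟨α, hα⟩ : ∃ α : M →⋆ₐ[ℂ] (S →L[ℂ] S), ∀ m, α m = cmp S (π m) :=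
    ⟨cmpHom (π.comp M.subtype) he, fun _ => rfl⟩
  obtain ⟨β, hβ⟩ : ∃ β : N →⋆ₐ[ℂ] (S →L[ℂ] S), ∀ n, β n = cmp S (ρ n) :=
    ⟨cmpHom ρ r1, fun _ => rfl⟩
  have a1 : ∀ m : M, (α m ⟨Ω, hΩ⟩ : K) = π m Ω := fun m => by rw [hα, cmp_apply' (he m)]
  have a2 : Function.Injective α := (injective_iff_map_eq_zero α).2 fun m hm =>
    Subtype.ext (hs m m.2 (by rw [← a1, hm]; rfl))
  have a3 : ∀ m, ‖α m‖ = ‖m‖ := NonUnitalStarAlgHom.norm_map α a2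
  have sf : SF α.range (StarSubalgebra.centralizer ℂ
      ((α.range : StarSubalgebra ℂ (S →L[ℂ] S)) : Set (S →L[ℂ] S))) ⟨Ω, hΩ⟩ := by
    have a4 : IsClosed ((α.range : StarSubalgebra ℂ (S →L[ℂ] S)) : Set (S →L[ℂ] S)) :=
      (NonUnitalStarAlgHom.isometry α a2).isClosedEmbedding.isClosed_range
    refine mkSF a4 (fun v η hη => ?_) ?_ fun ζ r h => ?_
    · obtain ⟨x, hx, e⟩ := hd v v.2 η hη
      refine ⟨α ⟨x, hx⟩, ⟨_, rfl⟩, ?_⟩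
      rwa [← Submodule.norm_coe, Submodule.coe_sub, a1]
    · rintro _ ⟨m, rfl⟩
      change ‖star (α m) ⟨Ω, hΩ⟩‖ = ‖α m ⟨Ω, hΩ⟩‖
      rw [← map_star, ← Submodule.norm_coe, ← Submodule.norm_coe, a1, a1]
      exact ht m m.2
    · obtain ⟨x, hx, e⟩ := hw ζ r fun η hη => by
        obtain ⟨_, ⟨m, rfl⟩, e1, e2⟩ := h η hη
        refine ⟨m, m.2, (a3 m).ge.trans e1, ?_⟩
        rw [← a1]
        exact e2
      exact ⟨α ⟨x, hx⟩, ⟨_, rfl⟩, Subtype.ext ((a1 _).trans e)⟩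
  obtain ⟨ψ, hψ⟩ := H M N α β _ _ (400 * KD * δ) (by positivity) (by linarith) sf a3
    (fun m n => by
      rw [hα, hβ, ← map_sub]
      refine (norm_cmp_le _).trans ((norm_sub_le_norm_sub_add_norm_sub _ (π n) _).trans
        (add_le_add ((r2 n).trans (le_of_eq (by ring))) ?_))
      rw [← map_sub, hπ])
    (h1.mono hδ3) (h2.mono hδ3)
  exact ⟨ψ, fun n => ⟨(hψ n).1, (hψ n).2.trans (le_of_eq (by ring))⟩⟩

variable {H : Type*} [NormedAddCommGroup H] [InnerProductSpace ℂ H] [CompleteSpace H]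

lemma lim_mem {M : StarSubalgebra ℂ (H →L[ℂ] H)} {ι : Type} [Fintype ι] [DecidableEq ι]
    (hM : ∀ T, (∀ S, (∀ x ∈ M, S * x = x * S) → S * T = T * S) → T ∈ M) (Ω ζ : Pw ι H) (r : ℝ)
    (h : ∀ η > 0, ∃ x ∈ M, ‖x‖ ≤ r ∧ ‖amp H ι x Ω - ζ‖ ≤ η) : ∃ x ∈ M, amp H ι x Ω = ζ := by
  choose x hx e1 e2 using fun n : ℕ => h (1 / ((n : ℝ) + 1)) (by positivity)
  obtain ⟨y, hy⟩ := exists_WT (x := x) (hyperfilter ℕ) (.of_forall e1)
  refine ⟨y, hM y fun S hS => (hy.comm (.of_forall fun n => (hS _ (hx n)).symm)).symm,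
    PiLp.ext fun i => ?_⟩
  rw [amp_apply]
  refine hy.apply_eq (tendsto_iff_norm_sub_tendsto_zero.2 (squeeze_zero (fun _ => norm_nonneg _)
    (fun n => le_trans ?_ (e2 n))
    (tendsto_one_div_add_atTop_nhds_zero_nat.mono_left Nat.hyperfilter_le_atTop)))
  rw [← amp_apply]
  exact PiLp.norm_apply_le (amp H ι (x n) Ω - ζ) i

end Fn

theorem finLift : ∃ C : ℝ, 1 ≤ C ∧ ∀ {H : Type u} [NormedAddCommGroup H] [InnerProductSpace ℂ H]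
    [CompleteSpace H] (M N : StarSubalgebra ℂ (H →L[ℂ] H)) {ι : Type} [Fintype ι] (ξ : ι → H)
    (δ : ℝ), (∀ T, (∀ S, (∀ x ∈ M, S * x = x * S) → S * T = T * S) → T ∈ M) →
    (∀ x ∈ M, ∑ i, ‖star x (ξ i)‖ ^ 2 = ∑ i, ‖x (ξ i)‖ ^ 2) →
    (∀ x ∈ M, (∀ i, x (ξ i) = 0) → x = 0) → 0 < δ → C * δ ≤ 1 →
    Near δ (M : Set (H →L[ℂ] H)) N → Near δ (N : Set (H →L[ℂ] H)) M →
      ∃ ψ : N →ₗ[ℂ] (H →L[ℂ] H), ∀ n, ψ n ∈ M ∧ ‖ψ n - n‖ ≤ C * δ * ‖n‖ := by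
  obtain ⟨C, hC, H1⟩ := Fn.absLift.{u}
  refine ⟨C, hC, fun {H} _ _ _ M N ι _ ξ δ hM ht hs hδ hδ1 h1 h2 => ?_⟩
  classical
  rcases isEmpty_or_nonempty ι with _ | ⟨⟨i0⟩⟩
  · have : Subsingleton (H →L[ℂ] H) :=
      subsingleton_of_zero_eq_one (hs 1 (one_mem _) fun i => isEmptyElim i).symm
    refine ⟨0, fun n => ⟨zero_mem _, ?_⟩⟩
    rw [Subsingleton.elim (_ - _) 0, norm_zero]
    have : 0 < C := by linarith
    positivity
  have hinj : Function.Injective (amp H ι) := fun a b h => ContinuousLinearMap.ext fun v => by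
    have := congr($h (WithLp.toLp 2 fun _ => v) i0)
    rwa [amp_apply, amp_apply] at this
  refine H1 M N (amp H ι) (WithLp.toLp 2 ξ) δ hδ hδ1 ?_ (NonUnitalStarAlgHom.norm_map _ hinj)
    (fun x hx => ?_) (fun x hx h => hs x hx fun i => ?_) (Fn.lim_mem hM _) h1 h2
  · have : (M : Set (H →L[ℂ] H)) = Set.centralizer (Set.centralizer (M : Set (H →L[ℂ] H))) :=
      Set.Subset.antisymm Set.subset_centralizer_centralizer fun T hT =>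
        hM T fun S hS => hT S fun x hx => (hS x hx).symm
    rw [this]
    exact Set.isClosed_centralizer _
  · rw [PiLp.norm_eq_of_L2, PiLp.norm_eq_of_L2]
    simp only [amp_apply]
    exact congrArg _ (ht x hx)
  · have := congr($h i)
    rwa [amp_apply] at this

end Vale.Agent.P096
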