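import Vale.Agent.P096.DK
import Vale.Agent.P096.Proj

/-! Close representations are conjugate by a unitary close to one. -/

namespace Vale.Agent.P096

open scoped InnerProductSpace Topology
open Filter

universe u

theorem impl {A H : Type*} [CStarAlgebra A] [NormedAddCommGroup H] [InnerProductSpace ℂ H]
    [CompleteSpace H] (π θ : A →⋆ₐ[ℂ] (H →L[ℂ] H)) {δ : ℝ} (hδ : 0 ≤ δ) (h1 : 4 * KD * δ ≤ 1)
    (h : ∀ a, ‖θ a - π a‖ ≤ δ * ‖a‖) :
    ∃ u ∈ unitary (H →L[ℂ] H), ‖u - 1‖ ≤ 10 * KD * δ ∧ ∀ a, u * θ a = π a * u := by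
  let ρm : A →⋆ₐ[ℂ] Matrix (Fin 2) (Fin 2) (H →L[ℂ] H) :=
    { toFun := fun a => !![π a, 0; 0, θ a]
      map_one' := by
        ext1 i j
        fin_cases i <;> fin_cases j <;> simp
      map_mul' := fun a b => by
        ext1 i j
        fin_cases i <;> fin_cases j <;> simp [Matrix.mul_apply, Fin.sum_univ_two]
      map_zero' := by
        ext1 i j
        fin_cases i <;> fin_cases j <;> simp
      map_add' := fun a b => by
        ext1 i j
        fin_cases i <;> fin_cases j <;> simp
      commutes' := fun c => by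
        ext1 i j
        fin_cases i <;> fin_cases j <;> simp [Algebra.algebraMap_eq_smul_one]
      map_star' := fun a => by
        ext1 i j
        fin_cases i <;> fin_cases j <;> simp [map_star] }
  have hρ : ∀ a, ρm a = !![π a, 0; 0, θ a] := fun _ => rfl
  obtain ⟨S, h2, h3⟩ := dk ((op H (Fin 2)).comp ρm) (op H (Fin 2) !![0, 1; 0, 0]) hδ fun a => by
    have e1 : !![0, 1; 0, 0] * ρm a - ρm a * !![0, 1; 0, 0] = !![0, θ a - π a; 0, 0] := by
      ext1 i j
      fin_cases i <;> fin_cases j <;> simp [hρ, Matrix.mul_apply, Fin.sum_univ_two]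
    rw [StarAlgHom.comp_apply, ← map_mul, ← map_mul, ← map_sub, e1]
    refine (norm_op_le _).trans ?_
    simpa [Fin.sum_univ_two] using h a
  have h4 : ∀ a, Matrix.of (ent S) * ρm a = ρm a * Matrix.of (ent S) := fun a =>
    op_inj (by rw [map_mul, map_mul, op_ent]; exact h2 a)
  have h5 : ∀ a, ent S 0 1 * θ a = π a * ent S 0 1 := fun a => by
    simpa [hρ, Matrix.mul_apply] using congr($(h4 a) 0 1)
  have h6 : ‖ent S 0 1 - 1‖ ≤ KD * δ := by
    have := norm_entry_le (!![0, 1; 0, 0] - Matrix.of (ent S)) 0 1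
    rw [map_sub, op_ent] at this
    rw [norm_sub_rev]
    simpa using this.trans h3
  obtain ⟨r, r1, r2, r3⟩ := polar_near h6 (by linarith)
  refine ⟨_, r1, by linarith, fun a => ?_⟩
  have h7 := congrArg star (h5 (star a))
  rw [star_mul, star_mul, map_star, map_star, star_star, star_star] at h7
  rw [mul_assoc, ← r3 (θ a) (by rw [← mul_assoc, h7, mul_assoc, mul_assoc, h5]), ← mul_assoc, h5,
    mul_assoc]

end Vale.Agent.P096
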