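import Vale.Agent.P096.RTA

/-! From a close linear map to a close isomorphism. -/

namespace Vale.Agent.P096

open scoped InnerProductSpace Topology
open Filter

universe u

lemma onto_of_near {A B : Type*} [CStarAlgebra A] [CStarAlgebra B] (M : StarSubalgebra ℂ B)
    (φ : A →L[ℂ] B) (hM : ∀ a, φ a ∈ M) (hlow : ∀ a, ‖a‖ ≤ 2 * ‖φ a‖)
    (hnear : ∀ x ∈ M, ∃ a, ‖x - φ a‖ ≤ 1 / 2 * ‖x‖) : ∀ x ∈ M, ∃ a, φ a = x := by
  intro x hx
  have hcl : IsClosed (Set.range φ) :=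
    (φ.antilipschitz_of_bound (K := 2) (by simpa using hlow)).isClosed_range φ.uniformContinuous
  have hne : (Set.range φ).Nonempty := Set.range_nonempty _
  refine (hcl.mem_iff_infDist_zero hne).2 (le_antisymm ?_ Metric.infDist_nonneg)
  by_contra! h0
  obtain ⟨_, ⟨a0, rfl⟩, h1⟩ := (Metric.infDist_lt_iff hne).1
    (show Metric.infDist x (Set.range φ) < 2 * Metric.infDist x (Set.range φ) by linarith)
  obtain ⟨a1, h2⟩ := hnear _ (sub_mem hx (hM a0))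
  have h3 := Metric.infDist_le_dist_of_mem (x := x) (Set.mem_range_self (f := φ) (a0 + a1))
  rw [dist_eq_norm] at h1 h3
  rw [map_add, ← sub_sub] at h3
  linarith

lemma exists_prod {A B : Type*} [CStarAlgebra A] [CStarAlgebra B] (φ : A →L[ℂ] B)
    (hlow : ∀ a, ‖a‖ ≤ 2 * ‖φ a‖) (hs : ∀ x y, ∃ a, φ a = φ x * φ y) :
    ∃ m : A →L[ℂ] A →L[ℂ] A, ∀ x y, φ (m x y) = φ x * φ y := by
  have inj : Function.Injective φ :=
    (φ.antilipschitz_of_bound (K := 2) (by simpa using hlow)).injective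
  choose m hm using hs
  refine ⟨LinearMap.mkContinuous₂ (LinearMap.mk₂ ℂ m (fun x x' y => inj ?_) (fun c x y => inj ?_)
    (fun x y y' => inj ?_) fun c x y => inj ?_) (2 * ‖φ‖ * ‖φ‖) fun x y => ?_, hm⟩
  · simp only [hm, map_add, add_mul]
  · simp only [hm, map_smul, smul_mul_assoc]
  · simp only [hm, map_add, mul_add]
  · simp only [hm, map_smul, mul_smul_comm]
  · refine (hlow _).trans ?_
    rw [LinearMap.mk₂_apply, hm]
    calc 2 * ‖φ x * φ y‖ ≤ 2 * (‖φ‖ * ‖x‖ * (‖φ‖ * ‖y‖)) := by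
          gcongr
          exact (norm_mul_le _ _).trans (by gcongr <;> exact φ.le_opNorm _)
      _ = _ := by ring

theorem rt : ∃ C : ℝ, 1 ≤ C ∧ ∀ {A H : Type u} [CStarAlgebra A] [NormedAddCommGroup H]
    [InnerProductSpace ℂ H] [CompleteSpace H] (R : P082.Rep A H)
    (M : StarSubalgebra ℂ (H →L[ℂ] H)) (φ : A →ₗ[ℂ] (H →L[ℂ] H)) (δ : ℝ),
    IsClosed (M : Set (H →L[ℂ] H)) → 0 ≤ δ → C * δ ≤ 1 → (∀ a, φ a ∈ M) →
    (∀ a, ‖φ a - R.π a‖ ≤ δ * ‖a‖) → (∀ x ∈ M, ∃ a, ‖x - R.π a‖ ≤ δ * ‖x‖) →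
      ∃ θ : A →⋆ₐ[ℂ] (H →L[ℂ] H), (∀ a, θ a ∈ M) ∧ (∀ x ∈ M, ∃ a, θ a = x) ∧
        ∀ a, ‖θ a - R.π a‖ ≤ C * δ * ‖a‖ := by
  obtain ⟨C, hC, hr⟩ := rigid.{u}
  refine ⟨17 * C, by linarith, fun {A H} _ _ _ _ R M φ δ _ h0 h1 hM hφ hn => ?_⟩
  have hδ : δ ≤ C * δ := le_mul_of_one_le_left h0 hC
  have hup : ∀ (a : A) (y : H →L[ℂ] H), ‖y - R.π a‖ ≤ δ * ‖a‖ → ‖y‖ ≤ 2 * ‖a‖ ∧ ‖a‖ ≤ 2 * ‖y‖ := by
    intro a y hy
    have a1 := abs_le.1 (abs_norm_sub_norm_le y (R.π a))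
    rw [R.norm_π] at a1
    have a2 : δ * ‖a‖ ≤ 1 / 2 * ‖a‖ := by gcongr; linarith
    constructor <;> linarith [a1.1, a1.2, norm_nonneg a]
  obtain ⟨ψ, hψ, sψ⟩ := exists_sym (φ.mkContinuous 2 fun a => (hup a _ (hφ a)).1)
  simp only [LinearMap.mkContinuous_apply] at hψ
  have ψM : ∀ a, ψ a ∈ M := fun a => by
    rw [hψ]
    exact SMulMemClass.smul_mem _ (add_mem (hM _) (star_mem (hM _)))
  have ψc : ∀ a, ‖ψ a - R.π a‖ ≤ δ * ‖a‖ := fun a => by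
    have e : ψ a - R.π a = (1 / 2 : ℂ) • ((φ a - R.π a) + star (φ (star a) - R.π (star a))) := by
      rw [hψ, star_sub, map_star R.π, star_star]
      module
    rw [e]
    refine norm_half_le (hφ a) ?_
    rw [norm_star, ← norm_star a]
    exact hφ _
  have ψu := fun a => (hup a _ (ψc a)).1
  have ψl := fun a => (hup a _ (ψc a)).2
  have inj : Function.Injective ψ :=
    (ψ.antilipschitz_of_bound (K := 2) (by simpa using ψl)).injective
  have onto := onto_of_near M ψ ψM ψl fun x hx => by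
    obtain ⟨a, ha⟩ := hn x hx
    refine ⟨a, ?_⟩
    have a1 := abs_le.1 (abs_norm_sub_norm_le x (R.π a))
    rw [R.norm_π] at a1
    have a2 : δ * ‖x‖ ≤ 1 / 17 * ‖x‖ := by gcongr; linarith
    have a3 : δ * ‖a‖ ≤ 1 / 17 * ‖a‖ := by gcongr; linarith
    have a4 := norm_sub_le_norm_sub_add_norm_sub x (R.π a) (ψ a)
    have a5 := ψc a
    rw [norm_sub_rev] at a5
    linarith [a1.1, norm_nonneg x]
  obtain ⟨m, hm⟩ := exists_prod ψ ψl fun x y => onto _ (mul_mem (ψM x) (ψM y))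
  obtain ⟨h, nh, sh, mh⟩ := hr R m (8 * δ) (by positivity) (by linarith)
    (fun x y z => inj (by simp only [hm, mul_assoc]))
    (fun x y => inj (by simp only [hm, sψ, star_mul])) fun x y => by
      refine (ψl _).trans ?_
      have e : ψ (m x y - x * y) = (ψ x - R.π x) * ψ y + R.π x * (ψ y - R.π y)
          - (ψ (x * y) - R.π (x * y)) := by
        rw [map_sub, hm, map_mul R.π]
        noncomm_ring
      have a1 : ‖(ψ x - R.π x) * ψ y‖ ≤ δ * ‖x‖ * (2 * ‖y‖) :=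
        (norm_mul_le _ _).trans (by gcongr; exacts [ψc x, ψu y])
      have a2 : ‖R.π x * (ψ y - R.π y)‖ ≤ ‖x‖ * (δ * ‖y‖) :=
        (norm_mul_le _ _).trans (by rw [R.norm_π]; gcongr; exact ψc y)
      have a3 : ‖ψ (x * y) - R.π (x * y)‖ ≤ δ * (‖x‖ * ‖y‖) :=
        (ψc _).trans (by gcongr; exact norm_mul_le _ _)
      have a4 := norm_add_le ((ψ x - R.π x) * ψ y) (R.π x * (ψ y - R.π y))
      rw [e]
      exact (mul_le_mul_of_nonneg_left (norm_sub_le _ _) zero_le_two).trans (by linarith)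
  obtain ⟨k, k1, -, -⟩ := exists_inv_rta (G := 1 - h) (by rw [norm_sub_rev]; linarith)
  rw [sub_sub_cancel] at k1
  have onto' : ∀ x ∈ M, ∃ a, ψ (h a) = x := fun x hx => by
    obtain ⟨a, ha⟩ := onto x hx
    exact ⟨k a, by rw [k1, ha]⟩
  have hmul : ∀ x y, ψ (h (x * y)) = ψ (h x) * ψ (h y) := fun x y => by rw [mh, hm]
  have hone : ψ (h 1) = 1 := by
    obtain ⟨a, ha⟩ := onto' 1 (one_mem M)
    rw [← mul_one (ψ (h 1)), ← ha, ← hmul, one_mul]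
  refine ⟨⟨AlgHom.ofLinearMap ((ψ.comp h : A →L[ℂ] (H →L[ℂ] H)) : A →ₗ[ℂ] (H →L[ℂ] H)) hone hmul,
    fun a => show ψ (h (star a)) = star (ψ (h a)) by rw [sh, sψ]⟩, fun a => ψM (h a), onto',
    fun a => show ‖ψ (h a) - R.π a‖ ≤ _ from ?_⟩
  have a1 := norm_sub_le_norm_sub_add_norm_sub (ψ (h a)) (ψ a) (R.π a)
  have a2 := ψu (h a - a)
  rw [map_sub] at a2
  have a3 : ‖h a - a‖ ≤ C * (8 * δ) * ‖a‖ := (h - 1).le_of_opNorm_le nh a
  have a4 : δ * ‖a‖ ≤ C * δ * ‖a‖ := by gcongr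
  linarith [ψc a]

end Vale.Agent.P096
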