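import Vale.Agent.P096.Semi
import Vale.Agent.P096.RT
import Vale.Agent.P096.Impl

/-! Assembly. -/

namespace Vale.Agent.P096

open scoped InnerProductSpace Topology
open Filter Metric

universe u

variable {H : Type u} [NormedAddCommGroup H] [InnerProductSpace ℂ H] [CompleteSpace H]

lemma near_of_dist (M N : VonNeumannAlgebra H) {δ : ℝ}
    (h : hausdorffDist ((M : Set (H →L[ℂ] H)) ∩ closedBall 0 1)
      ((N : Set (H →L[ℂ] H)) ∩ closedBall 0 1) < δ) : Near δ (M : Set (H →L[ℂ] H)) N := by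
  intro x hx
  rcases eq_or_ne x 0 with rfl | h0
  · exact ⟨0, zero_mem N, by simp⟩
  have h1 : 0 < ‖x‖ := norm_pos_iff.2 h0
  have h3 : ((‖x‖⁻¹ : ℝ) : ℂ) • x ∈ (M : Set (H →L[ℂ] H)) ∩ closedBall 0 1 :=
    ⟨M.toStarSubalgebra.smul_mem hx _, by simp [norm_smul, h1.ne']⟩
  obtain ⟨y, hy, e⟩ := exists_dist_lt_of_hausdorffDist_lt h3 h
    (hausdorffEDist_ne_top_of_nonempty_of_bounded ⟨0, zero_mem M, by simp⟩ ⟨0, zero_mem N, by simp⟩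
      (isBounded_closedBall.subset Set.inter_subset_right)
      (isBounded_closedBall.subset Set.inter_subset_right))
  refine ⟨(‖x‖ : ℂ) • y, N.toStarSubalgebra.smul_mem hy.1 _, ?_⟩
  have h2 : x - (‖x‖ : ℂ) • y = (‖x‖ : ℂ) • (((‖x‖⁻¹ : ℝ) : ℂ) • x - y) := by
    rw [smul_sub, smul_smul, ← Complex.ofReal_mul, mul_inv_cancel₀ h1.ne']
    simp
  rw [h2, norm_smul, Complex.norm_real, norm_norm, mul_comm, ← dist_eq_norm]
  gcongr

/-- A close linear map gives a conjugating unitary. -/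
theorem conj_of_lift : ∃ C : ℝ, 1 ≤ C ∧ ∀ {H : Type u} [NormedAddCommGroup H]
    [InnerProductSpace ℂ H] [CompleteSpace H] (M N : VonNeumannAlgebra H) (δ : ℝ), 0 ≤ δ →
    C * δ ≤ 1 → Near δ (M : Set (H →L[ℂ] H)) N →
    (∃ ψ : N.toStarSubalgebra →ₗ[ℂ] (H →L[ℂ] H), ∀ n, ψ n ∈ M ∧ ‖ψ n - n‖ ≤ δ * ‖n‖) →
      ∃ u ∈ unitary (H →L[ℂ] H), (∀ T, T ∈ N ↔ ∃ x ∈ M, T = u * x * star u) ∧
        ‖u - 1‖ ≤ C * δ := by
  obtain ⟨c, hc, H1⟩ := rt.{u}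
  have hK := one_le_KD
  refine ⟨10 * KD * c, by nlinarith, fun M N δ hδ hC h ⟨ψ, hψ⟩ => ?_⟩
  have := P082.vn_closed N
  have h1 : 0 ≤ c * δ := by positivity
  obtain ⟨θ, t1, t2, t3⟩ := H1 (P082.vnRep N) M.toStarSubalgebra ψ δ (P082.vn_closed M) hδ
    (by nlinarith) (fun a => (hψ a).1) (fun a => (hψ a).2) fun x hx => by
      obtain ⟨y, hy, e⟩ := h x hx
      exact ⟨⟨y, hy⟩, e⟩
  obtain ⟨u, hu, u1, u2⟩ := impl (P082.vnRep N).π θ h1 (by nlinarith) t3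
  refine ⟨u, hu, fun T => ⟨fun hT => ⟨θ ⟨T, hT⟩, t1 _, ?_⟩, ?_⟩, u1.trans_eq (by ring)⟩
  · rw [u2, mul_assoc, hu.2, mul_one]
    rfl
  · rintro ⟨x, hx, rfl⟩
    obtain ⟨a, rfl⟩ := t2 x hx
    rw [u2, mul_assoc, hu.2, mul_one]
    exact a.2

theorem main {ε : ℝ} (hε : 0 < ε) : ∃ δ > 0, ∀ (H : Type u) [NormedAddCommGroup H]
    [InnerProductSpace ℂ H] [CompleteSpace H] (M N : VonNeumannAlgebra H), (∃ τ, IsTrace M τ) →
    hausdorffDist ((M : Set (H →L[ℂ] H)) ∩ closedBall 0 1)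
      ((N : Set (H →L[ℂ] H)) ∩ closedBall 0 1) < δ →
      ∃ u ∈ unitary (H →L[ℂ] H), (∀ T, T ∈ N ↔ ∃ x ∈ M, T = u * x * star u) ∧ ‖u - 1‖ < ε := by
  obtain ⟨a, ha, H1⟩ := semiLift.{u}
  obtain ⟨b, hb, H2⟩ := conj_of_lift.{u}
  have h0 : 0 < min 1 (ε / 2) / (b * a) := by positivity
  have h1 : b * (a * (min 1 (ε / 2) / (b * a))) = min 1 (ε / 2) := by field_simp
  refine ⟨_, h0, fun H _ _ _ M N ⟨τ, hτ⟩ h => ?_⟩
  have h2 := near_of_dist M N h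
  have h3 := near_of_dist N M (hausdorffDist_comm.trans_lt h)
  have h4 := min_le_left 1 (ε / 2)
  have h5 := min_le_right 1 (ε / 2)
  obtain ⟨u, hu, u1, u2⟩ := H2 M N _ (by positivity) (h1.trans_le h4) (h2.mono (by nlinarith))
    (H1 M N τ _ hτ h0 (by nlinarith [mul_pos (one_pos.trans_le ha) h0]) h2 h3)
  exact ⟨u, hu, u1, by linarith⟩

end Vale.Agent.P096
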