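import Vale.Agent.P096.Defs

/-! Conjugated subalgebras. -/

namespace Vale.Agent.P096.It

section ring

variable {E : Type*} [CStarAlgebra E] {S W : Eˣ} {c : E} {ε δ : ℝ}

/-- The conjugated subalgebra. -/
def cj (S : Eˣ) (X : Subalgebra ℂ E) : Subalgebra ℂ E where
  carrier := {c | S * c * ↑S⁻¹ ∈ X}
  mul_mem' {a b} ha hb := by simpa [mul_assoc] using X.mul_mem ha hb
  add_mem' {a b} ha hb := by simpa [mul_add, add_mul] using X.add_mem ha hb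
  algebraMap_mem' r := by simpa [Algebra.algebraMap_eq_smul_one] using X.algebraMap_mem r

variable {X Y : Subalgebra ℂ E}

lemma mem_cj : c ∈ cj S X ↔ S * c * ↑S⁻¹ ∈ X := Iff.rfl

lemma cj_mem (h : c ∈ X) : ↑S⁻¹ * c * S ∈ cj S X := by simpa [mem_cj, mul_assoc] using h

lemma cj_mul : cj (S * W) X = cj W (cj S X) := by ext c; simp [mem_cj, mul_assoc]

lemma cj_one : cj 1 X = X := by ext c; simp [mem_cj]

lemma cm_cj (h : Cm (X : Set E) Y) : Cm (cj S X : Set E) (cj S Y) := fun x hx y hy => by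
  have := congrArg (fun t => ↑S⁻¹ * t * (S : E)) (h _ hx _ hy)
  simpa [mul_assoc] using this

lemma norm_le_two {T : E} (h : ‖T - 1‖ ≤ ε) (hε : ε ≤ 1) : ‖T‖ ≤ 2 := by
  have := norm_add_le_of_le h (P082.norm_one_le (A := E))
  rw [sub_add_cancel] at this
  linarith

lemma norm_inv_le (h : ‖(S : E) - 1‖ ≤ ε) (hε : ε ≤ 1 / 2) : ‖(↑S⁻¹ : E)‖ ≤ 2 := by
  have := norm_sub_le_of_le (P082.norm_one_le (A := E))
    (norm_mul_le_of_le (le_refl ‖(↑S⁻¹ : E)‖) (h.trans hε))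
  rw [mul_sub, Units.inv_mul, mul_one, sub_sub_cancel] at this
  linarith

lemma comm_le {T : E} (h : ‖T - 1‖ ≤ ε) (c : E) : ‖T * c - c * T‖ ≤ 2 * ε * ‖c‖ := by
  have := norm_sub_le_of_le (norm_mul_le_of_le h (le_refl ‖c‖)) (norm_mul_le_of_le (le_refl ‖c‖) h)
  rw [show (T - 1) * c - c * (T - 1) = T * c - c * T by noncomm_ring] at this
  linarith

lemma conj_le (h : ‖(S : E) - 1‖ ≤ ε) (hε : ε ≤ 1 / 2) (c : E) :
    ‖S * c * ↑S⁻¹ - c‖ ≤ 4 * ε * ‖c‖ := by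
  have := norm_mul_le_of_le (comm_le h c) (norm_inv_le h hε)
  rw [sub_mul, Units.mul_inv_cancel_right] at this
  linarith

lemma conj_le' (h : ‖(S : E) - 1‖ ≤ ε) (hε : ε ≤ 1 / 2) (c : E) :
    ‖↑S⁻¹ * c * S - c‖ ≤ 4 * ε * ‖c‖ := by
  have := norm_mul_le_of_le (norm_inv_le h hε) ((norm_sub_rev _ _).trans_le (comm_le h c))
  rw [mul_sub, Units.inv_mul_cancel_left, ← mul_assoc] at this
  linarith

lemma le_two {x y : E} (h : ‖x - y‖ ≤ δ * ‖x‖) (hδ : δ ≤ 1) : ‖y‖ ≤ 2 * ‖x‖ := by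
  have := norm_sub_le_of_le (le_refl ‖x‖) h
  rw [sub_sub_cancel] at this
  nlinarith [norm_nonneg x]

lemma conj_two (h : ‖(S : E) - 1‖ ≤ ε) (hε : ε ≤ 1 / 4) (c : E) : ‖S * c * ↑S⁻¹‖ ≤ 2 * ‖c‖ :=
  le_two ((norm_sub_rev _ _).trans_le (conj_le h (by linarith) c)) (by linarith)

lemma conj_two' (h : ‖(S : E) - 1‖ ≤ ε) (hε : ε ≤ 1 / 4) (c : E) : ‖↑S⁻¹ * c * S‖ ≤ 2 * ‖c‖ :=
  le_two ((norm_sub_rev _ _).trans_le (conj_le' h (by linarith) c)) (by linarith)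

lemma near_cj {Z : Set E} (h : ‖(S : E) - 1‖ ≤ ε) (hε : ε ≤ 1 / 4) (hδ : δ ≤ ε)
    (hn : Near δ Z Y) : Near (10 * ε) Z (cj S Y) := fun x hx => by
  obtain ⟨y, hy, e⟩ := hn x hx
  refine ⟨_, cj_mem hy, ?_⟩
  have h1 := norm_sub_le_of_le e (conj_le' h (by linarith) y)
  have h2 := le_two e (by linarith)
  have h3 := (norm_nonneg _).trans h
  rw [sub_sub_sub_cancel_right] at h1
  nlinarith [norm_nonneg x]

lemma cj_near {Z : Set E} (h : ‖(S : E) - 1‖ ≤ ε) (hε : ε ≤ 1 / 4) (hδ : δ ≤ ε)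
    (hn : Near δ Y Z) : Near (10 * ε) (cj S Y) Z := fun x hx => by
  obtain ⟨y, hy, e⟩ := hn _ hx
  refine ⟨y, hy, ?_⟩
  have h1 := norm_sub_le_of_le e (conj_le h (by linarith) x)
  have h2 := conj_two h hε x
  have h3 := (norm_nonneg _).trans h
  rw [sub_sub_sub_cancel_left] at h1
  nlinarith [norm_nonneg x, norm_nonneg (S * x * ↑S⁻¹)]

lemma exists_unit {V : E} (h : ‖V‖ ≤ ε) (hε : ε ≤ 1 / 4) :
    ∃ U : Eˣ, (U : E) = 1 - V ∧ ‖(U : E) - 1‖ ≤ ε :=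
  ⟨Units.oneSub V (by linarith), rfl, by simpa using h⟩

end ring

variable {K : Type*} [NormedAddCommGroup K] [InnerProductSpace ℂ K] [CompleteSpace K]
  {A R : StarSubalgebra ℂ (K →L[ℂ] K)} {B : Subalgebra ℂ (K →L[ℂ] K)} {Ω : K} {ν g d ε : ℝ}
  {U : (K →L[ℂ] K)ˣ}

omit [CompleteSpace K] in
lemma ap {T : K →L[ℂ] K} {v : K} {a b : ℝ} (h : ‖T‖ ≤ a) (h' : ‖v‖ ≤ b) : ‖T v‖ ≤ a * b :=
  T.le_of_opNorm_le_of_le h h'

lemma gam_app (h : Gam A Ω ν B) {x y c : K →L[ℂ] K} (hx : x ∈ A) (hy : y ∈ A) (hc : c ∈ B)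
    (hν : 0 ≤ ν) : ‖(x * c - c * x) (y Ω)‖ ≤ 2 * ν * ‖x‖ * ‖y‖ * ‖c‖ := by
  have h1 := norm_sub_le_of_le (h _ (mul_mem hx hy) c hc) (ap (le_refl ‖x‖) (h y hy c hc))
  have h2 : ν * ‖x * y‖ * ‖c‖ ≤ ν * (‖x‖ * ‖y‖) * ‖c‖ := by gcongr; exact norm_mul_le _ _
  rw [show (x * y * c - c * (x * y)) Ω - x ((y * c - c * y) Ω) = (x * c - c * x) (y Ω) by simp]
    at h1
  linarith

lemma gam_cj (h : Gam A Ω ν B) (hν : 0 ≤ ν) (hU : ‖(U : K →L[ℂ] K) - 1‖ ≤ ε) (hε : ε ≤ 1 / 4)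
    (hA : ∀ x ∈ A, U * x * ↑U⁻¹ ∈ A) {z : K →L[ℂ] K} (hz : z ∈ A)
    (e : z Ω = (U : K →L[ℂ] K) Ω) (hn : ‖z‖ ≤ 2) : Gam A Ω (32 * ν) (cj U B) := fun x hx c hc => by
  have h1 := ap (norm_inv_le hU (by linarith)) (gam_app h (hA x hx) hz hc hν)
  have h2 : 2 * ν * ‖U * x * ↑U⁻¹‖ * ‖z‖ * ‖U * c * ↑U⁻¹‖ ≤ 2 * ν * (2 * ‖x‖) * 2 * (2 * ‖c‖) := by
    gcongr
    exacts [conj_two hU hε x, conj_two hU hε c]
  rw [e, ← ContinuousLinearMap.mul_apply, ← ContinuousLinearMap.mul_apply] at h1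
  simp only [mul_sub, sub_mul, mul_assoc, Units.inv_mul_cancel_left, Units.inv_mul, mul_one]
    at h1 h2
  linarith

lemma gam_cjA (h : Gam A Ω ν B) (hν : 0 ≤ ν) (hS : SF A R Ω) (hU : ‖(U : K →L[ℂ] K) - 1‖ ≤ ε)
    (hε : ε ≤ 1 / 4) (hA : (U : K →L[ℂ] K) ∈ A) : Gam A Ω (32 * ν) (cj U B) :=
  gam_cj h hν hU hε (fun x hx => mul_mem (mul_mem hA hx) (hS.cA _ fun a ha =>
    (Commute.units_inv_left (hS.cm _ hA a ha)).eq)) hA rfl (norm_le_two hU (by linarith))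

lemma gam_cjR (h : Gam A Ω ν B) (hν : 0 ≤ ν) (hS : SF A R Ω) (hU : ‖(U : K →L[ℂ] K) - 1‖ ≤ ε)
    (hε : ε ≤ 1 / 4) (hR : (U : K →L[ℂ] K) ∈ R) : Gam A Ω (32 * ν) (cj U B) := by
  obtain ⟨z, hz, e, n⟩ := hS.pR _ hR
  exact gam_cj h hν hU hε (fun x hx => by rwa [← hS.cm x hx _ hR, Units.mul_inv_cancel_right])
    hz e (n.trans (norm_le_two hU (by linarith)))

lemma wk_mulR (hS : SF A R Ω) {V a : K →L[ℂ] K} (hV : Wk A Ω g V) (hg : 0 ≤ g) (ha : a ∈ R) :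
    Wk A Ω (g * ‖a‖) (V * a) := fun y hy => by
  obtain ⟨z, hz, e, n⟩ := hS.pR _ ha
  rw [ContinuousLinearMap.mul_apply, ← hS.comm_apply hy ha, ← e, mul_assoc]
  refine (hV _ (mul_mem hy hz)).trans ?_
  gcongr
  rw [mul_comm]
  exact norm_mul_le_of_le le_rfl n

lemma wk_conj (hS : SF A R Ω) (hU : ‖(U : K →L[ℂ] K) - 1‖ ≤ ε) (hε : ε ≤ 1 / 2) (hd : d ≤ 1)
    (hg : 0 ≤ g) (hV : Wk A Ω g (U - 1)) (hs : Sel A Ω d g B R) {c : K →L[ℂ] K} (hc : c ∈ B) :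
    Wk A Ω (8 * g * ‖c‖) (↑U⁻¹ * c * U - c) := by
  obtain ⟨a, ha, e1, e2⟩ := hs c hc
  have h1 := (((hV.mul_left (le_refl ‖c‖)).sub (wk_mulR hS hV hg ha)).sub
    (e2.mul_left hU)).mul_left (norm_inv_le hU hε)
  have h2 := le_two e1 hd
  rw [show c * (U - 1) - (U - 1) * a - (U - 1) * (c - a) = c * U - U * c by noncomm_ring, mul_sub,
    Units.inv_mul_cancel_left, ← mul_assoc] at h1
  refine h1.mono ?_
  nlinarith [mul_nonneg hg (norm_nonneg c), mul_nonneg hg (norm_nonneg a)]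

lemma wk_one {V : K →L[ℂ] K} (hV : Wk A Ω g V) (hg : 0 ≤ g) : ‖V Ω‖ ≤ g :=
  (hV 1 (one_mem _)).trans (mul_le_of_le_one_right hg P082.norm_one_le)

lemma gam_cjG (h : Gam A Ω g B) (hS : SF A R Ω) (hU : ‖(U : K →L[ℂ] K) - 1‖ ≤ ε) (hε : ε ≤ 1 / 4)
    (hd : d ≤ 1) (hg : 0 ≤ g) (hV : Wk A Ω g (U - 1)) (hs : Sel A Ω d g B R) :
    Gam A Ω (34 * g) (cj U B) := fun x hx c hc => by
  have h1 := wk_conj hS hU (by linarith) hd hg hV hs hc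
  have h2 := norm_add_le_of_le (h x hx _ hc) (norm_sub_le_of_le
    (ap (le_refl ‖x‖) (wk_one h1 (by positivity))) (h1 x hx))
  have h3 := conj_two hU hε c
  simp only [mul_assoc, Units.inv_mul_cancel_left, Units.inv_mul, mul_one] at h2 h3
  simp only [ContinuousLinearMap.sub_apply, ContinuousLinearMap.mul_apply, map_sub] at h2 ⊢
  rw [show ∀ a b c d : K, a - b + (c - a - (d - b)) = c - d by intros; abel] at h2
  nlinarith [mul_nonneg hg (norm_nonneg x)]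

lemma gam_newt (hS : SF A R Ω) {V : K →L[ℂ] K} (hU : (U : K →L[ℂ] K) = 1 - V) (hV : ‖V‖ ≤ ε)
    (hε : ε ≤ 1 / 4) (hd : d ≤ ε) (hg : 0 ≤ g) (hν : 0 ≤ ν) (hW : Wk A Ω g V)
    (hs : Sel A Ω d g B R) (h : ∀ x ∈ A, ∀ c ∈ B,
      ‖(x * c - c * x) Ω - ((V * x - x * V) * c - c * (V * x - x * V)) Ω‖ ≤ ν * ‖x‖ * ‖c‖) :
    Gam A Ω (4 * ν + 72 * ε * g) (cj U B) := fun x hx c' hc => by
  have hU1 : ‖(U : K →L[ℂ] K) - 1‖ ≤ ε := by simpa [hU] using hV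
  have h0 := (norm_nonneg _).trans hV
  have h3 := conj_two hU1 hε c'
  have h1 := wk_one (wk_conj hS hU1 (by linarith) (by linarith) hg (by simpa [hU] using hW.neg) hs
    hc) (by positivity)
  obtain ⟨a, ha, e1, -⟩ := hs _ hc
  have h4 := h x hx _ hc
  obtain ⟨c, e⟩ : ∃ c, c = U * c' * ↑U⁻¹ := ⟨_, rfl⟩
  have e' : c * U = U * c' := by simp [e]
  rw [← e] at h1 h3 e1 h4
  rw [mul_assoc, e', Units.inv_mul_cancel_left] at h1
  have h5 := norm_sub_le_of_le (norm_mul_le_of_le (le_refl ‖x‖) e1)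
    (norm_mul_le_of_le e1 (le_refl ‖x‖))
  have h6 := norm_sub_le_of_le (norm_mul_le_of_le hV (le_refl ‖x‖))
    (norm_mul_le_of_le (le_refl ‖x‖) hV)
  rw [show x * (c - a) - (c - a) * x = x * c - c * x - (x * a - a * x) by noncomm_ring,
    hS.cm x hx a ha, sub_self, sub_zero] at h5
  have h7 := ap (norm_inv_le hU1 (by linarith))
    (norm_sub_le_of_le (norm_sub_le_of_le h4 (ap h5 (wk_one hW hg))) (ap h6 h1))
  have e2 : x * c - c * x - ((V * x - x * V) * c - c * (V * x - x * V)) - (x * c - c * x) * V -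
      (V * x - x * V) * (c' - c) = U * (x * c' - c' * x) := by
    have : x * c - c * x - ((V * x - x * V) * c - c * (V * x - x * V)) - (x * c - c * x) * V -
      (V * x - x * V) * (c' - c) = (1 - V) * (x * c' - c' * x) + x * (c * (1 - V) - (1 - V) * c') -
        (c * (1 - V) - (1 - V) * c') * x := by noncomm_ring
    rw [this, ← hU, e']
    simp
  rw [← ContinuousLinearMap.mul_apply, ← ContinuousLinearMap.mul_apply,
    ← ContinuousLinearMap.sub_apply, ← ContinuousLinearMap.sub_apply,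
    ← ContinuousLinearMap.sub_apply, e2, ← ContinuousLinearMap.mul_apply,
    Units.inv_mul_cancel_left] at h7
  refine h7.trans ?_
  have h8 : 0 ≤ g * ‖x‖ := by positivity
  have h9 : d * ‖c‖ ≤ ε * (2 * ‖c'‖) := mul_le_mul hd h3 (norm_nonneg _) h0
  nlinarith [mul_le_mul_of_nonneg_left h3 (mul_nonneg hν (norm_nonneg x)),
    mul_le_mul_of_nonneg_left h3 (mul_nonneg h0 h8), mul_le_mul_of_nonneg_left h9 h8]

lemma hyp {X : StarSubalgebra ℂ (K →L[ℂ] K)} {δ : ℝ} (h1 : Near δ (X : Set (K →L[ℂ] K)) B)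
    (h2 : Near δ (B : Set (K →L[ℂ] K)) X) (hU : ‖(U : K →L[ℂ] K) - 1‖ ≤ ε) (hε : ε ≤ 1 / 4)
    (hδ : δ ≤ ε) (h0 : 0 ≤ δ) (hd : d ≤ ε) (hq : 20 * ε * ε ≤ δ) (hg : 0 ≤ g)
    (hs : Sel A Ω d g X (cj U B)) (u : K →L[ℂ] K) (hu : u ∈ unitary (K →L[ℂ] K)) (hX : u ∈ X) :
    ∃ m ∈ X, ∃ r, ‖m‖ ≤ 20 * ε ∧ ‖r‖ ≤ 20 * ε ∧ Wk A Ω g r ∧
      ‖(U - 1) * u - u * (U - 1) - m - r‖ ≤ 2 * δ := by
  obtain ⟨y, hy, e1, e2⟩ := hs u hX
  obtain ⟨n, hn, e3⟩ := h1 u hX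
  obtain ⟨m, hm, e4⟩ := h2 _ (B.sub_mem hy hn)
  have hu1 := norm_unit_le hu
  have hε0 := h0.trans hδ
  have f0 := le_two e1 (by linarith)
  have f1 : ‖u - y‖ ≤ ε := e1.trans (by nlinarith [norm_nonneg u])
  have f3 : ‖u - n‖ ≤ δ := e3.trans (by nlinarith)
  have f4 := conj_le hU (by linarith) y
  obtain ⟨c, e⟩ : ∃ c, c = U * y * ↑U⁻¹ := ⟨_, rfl⟩
  have e' : c * U = U * y := by simp [e]
  rw [← e] at e4 f4
  have f5 : ‖c - u‖ ≤ 9 * ε := by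
    have := norm_sub_le_of_le f4 f1
    rw [sub_sub_sub_cancel_right] at this
    nlinarith
  have f6 : ‖c - n‖ ≤ 10 * ε := by
    have := norm_add_le_of_le f5 f3
    rw [sub_add_sub_cancel] at this
    linarith
  have f7 := le_two e4 (by linarith)
  refine ⟨m, hm, u - y, by linarith, by linarith, e2.mono (by nlinarith), ?_⟩
  have f8 := norm_add_le_of_le (norm_add_le_of_le (norm_mul_le_of_le hU f1)
    (norm_mul_le_of_le f5 hU)) (norm_sub_le_of_le e4 f3)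
  have e5 : (U - 1) * u - u * (U - 1) - m - (u - y) = (U - 1) * (u - y) + (c - u) * (U - 1) +
      (c - n - m - (u - n)) - (c * U - U * y) := by noncomm_ring
  rw [e5, e', sub_self, sub_zero]
  nlinarith [norm_nonneg (c - n)]

end Vale.Agent.P096.It
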