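import Vale.Agent.P096.Defs
import Mathlib.Analysis.CStarAlgebra.ContinuousFunctionalCalculus.Range

/-! Selections which are close in both senses. -/

namespace Vale.Agent.P096

open scoped InnerProductSpace Topology
open Filter

universe u

lemma sel_bump {δ : ℝ} (hδ : 0 < δ) : ∃ g : ℝ → ℝ, Continuous g ∧ (∀ s, 0 ≤ g s) ∧
    (∀ s, g s ≤ 1) ∧ (∀ s, s ≤ 4 * δ ^ 2 → g s = 0) ∧ (∀ s, 9 * δ ^ 2 ≤ s → g s = 1) := by
  have hd : 0 < 5 * δ ^ 2 := by positivity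
  refine ⟨fun s => max 0 (min 1 ((s - 4 * δ ^ 2) / (5 * δ ^ 2))), by fun_prop,
    fun s => le_max_left _ _, fun s => max_le zero_le_one (min_le_left _ _), fun s h => ?_,
    fun s h => ?_⟩
  · exact max_eq_left ((min_le_right _ _).trans
      (div_nonpos_of_nonpos_of_nonneg (by linarith) hd.le))
  · have : 1 ≤ (s - 4 * δ ^ 2) / (5 * δ ^ 2) := by rw [one_le_div hd]; linarith
    simp [this]

lemma sel_spec {E : Type*} [CStarAlgebra E] [PartialOrder E] [StarOrderedRing E]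
    {Q : StarSubalgebra ℂ E} (hQ : IsClosed (Q : Set E)) {b : E} (hb : b ∈ Q) {δ : ℝ}
    (hδ : 0 < δ) : ∃ k ∈ Q, ‖k‖ ≤ 1 ∧ ‖b * (1 - k)‖ ≤ 3 * δ ∧
      (4 * δ ^ 2) • (star k * k) ≤ star (b * k) * (b * k) := by
  obtain ⟨g, hg, g0, g1, gz, go⟩ := sel_bump hδ
  obtain ⟨t, htb⟩ : ∃ t, t = star b * b := ⟨_, rfl⟩
  have ht : 0 ≤ t := htb ▸ star_mul_self_nonneg b
  have hs : IsSelfAdjoint t := ht.isSelfAdjoint
  have hk : IsSelfAdjoint (cfc g t) := cfc_predicate _ _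
  have hm : t ∈ Q := htb ▸ mul_mem (star_mem hb) hb
  refine ⟨cfc g t, cfc_mem g hm, ?_, ?_, ?_⟩
  · exact norm_cfc_le zero_le_one fun s _ => by rw [Real.norm_of_nonneg (g0 s)]; exact g1 s
  · have e : star (b * (1 - cfc g t)) * (b * (1 - cfc g t)) =
        cfc (fun s => (1 - g s) * s * (1 - g s)) t := by
      rw [cfc_mul (fun s => (1 - g s) * s) (fun s => 1 - g s) t,
        cfc_mul (fun s => 1 - g s) (fun s => s) t, cfc_sub (fun _ => (1 : ℝ)) g t,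
        cfc_const_one ℝ t, cfc_id' ℝ t, star_mul, star_sub, star_one, hk.star_eq]
      conv_rhs => enter [1, 2]; rw [htb]
      simp only [mul_assoc]
    have h1 : ‖cfc (fun s => (1 - g s) * s * (1 - g s)) t‖ ≤ 3 * δ * (3 * δ) := by
      refine norm_cfc_le (by positivity) fun s hs => ?_
      have s0 : 0 ≤ s := spectrum_nonneg_of_nonneg ht hs
      have h2 := sub_nonneg.2 (g1 s)
      rw [Real.norm_of_nonneg (by positivity)]
      rcases le_total s (9 * δ ^ 2) with h | h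
      · have h3 : 1 - g s ≤ 1 := by linarith [g0 s]
        calc (1 - g s) * s * (1 - g s) ≤ 1 * (9 * δ ^ 2) * 1 := by gcongr
          _ = _ := by ring
      · rw [go s h]
        simp only [sub_self, mul_zero]
        positivity
    rw [← e, CStarRing.norm_star_mul_self] at h1
    exact abs_le_of_sq_le_sq' (by nlinarith) (by positivity) |>.2
  · have e1 : star (b * cfc g t) * (b * cfc g t) = cfc (fun s => g s * s * g s) t := by
      rw [cfc_mul (fun s => g s * s) g t, cfc_mul g (fun s => s) t, cfc_id' ℝ t, star_mul,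
        hk.star_eq]
      conv_rhs => enter [1, 2]; rw [htb]
      simp only [mul_assoc]
    have e2 : (4 * δ ^ 2) • (star (cfc g t) * cfc g t) =
        cfc (fun s => (4 * δ ^ 2) • (g s * g s)) t := by
      rw [cfc_smul (4 * δ ^ 2) (fun s => g s * g s) t, cfc_mul g g t, hk.star_eq]
    rw [e1, e2]
    refine cfc_mono fun s _ => ?_
    rcases le_total s (4 * δ ^ 2) with h | h
    · simp [gz s h]
    · have := mul_self_nonneg (g s)
      rw [smul_eq_mul]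
      nlinarith

lemma sel_norm_le {K : Type*} [NormedAddCommGroup K] [InnerProductSpace ℂ K] [CompleteSpace K]
    {x y : K →L[ℂ] K} {c : ℝ} (hc : 0 ≤ c) (h : (c ^ 2) • (star x * x) ≤ star y * y) (v : K) :
    c * ‖x v‖ ≤ ‖y v‖ := by
  have h1 := ((ContinuousLinearMap.le_def _ _).1 h).re_inner_nonneg_left v
  have h2 : ∀ z : K →L[ℂ] K, RCLike.re ⟪(star z * z) v, v⟫_ℂ = ‖z v‖ ^ 2 := fun z => by
    rw [ContinuousLinearMap.mul_apply, ContinuousLinearMap.star_eq_adjoint,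
      ContinuousLinearMap.adjoint_inner_left, inner_self_eq_norm_sq]
  rw [ContinuousLinearMap.sub_apply, inner_sub_left, map_sub, h2,
    ContinuousLinearMap.smul_apply, RCLike.real_smul_eq_coe_smul (K := ℂ), inner_smul_real_left,
    RCLike.smul_re, h2] at h1
  exact abs_le_of_sq_le_sq' (by nlinarith) (norm_nonneg _) |>.2

theorem cut {K : Type*} [NormedAddCommGroup K] [InnerProductSpace ℂ K] [CompleteSpace K]
    {P : Set (K →L[ℂ] K)} {Q : StarSubalgebra ℂ (K →L[ℂ] K)}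
    (hQ : IsClosed (Q : Set (K →L[ℂ] K))) (hc : Cm P Q) {Ω : K}
    (hd : ∀ v : K, ∀ η > 0, ∃ q ∈ Q, ‖q Ω - v‖ ≤ η)
    (hp : ∀ q ∈ Q, ∃ p ∈ P, p Ω = q Ω ∧ ‖p‖ ≤ ‖q‖) {ζ : K} {δ γ : ℝ} (hδ : 0 < δ) (hγ : 0 < γ)
    (h : ∀ p ∈ P, ‖p ζ‖ ≤ δ * ‖p Ω‖ + γ * ‖p‖) : ∃ q ∈ Q, ‖q‖ ≤ 3 * δ ∧ ‖q Ω - ζ‖ ≤ 5 * γ := by
  obtain ⟨b, hb, e⟩ := hd ζ γ hγ
  obtain ⟨k, hk, k1, k2, k3⟩ := sel_spec hQ hb hδ
  obtain ⟨p, hpP, p1, p2⟩ := hp k hk
  have p3 : ‖p‖ ≤ 1 := p2.trans k1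
  have h1 := sel_norm_le (c := 2 * δ) (by positivity) (by rwa [mul_pow, show (2 : ℝ) ^ 2 = 4 by
    norm_num]) Ω
  have h2 : (b * k) Ω = p ζ + p (b Ω - ζ) := by
    rw [← map_add, add_sub_cancel, ContinuousLinearMap.mul_apply, ← p1]
    exact congr($(hc p hpP b hb) Ω).symm
  have h3 : ‖p (b Ω - ζ)‖ ≤ γ := (p.le_opNorm _).trans (by
    calc ‖p‖ * ‖b Ω - ζ‖ ≤ 1 * γ := by gcongr
      _ = γ := one_mul γ)
  have h4 := h p hpP
  have h5 : ‖(b * k) Ω‖ ≤ ‖p ζ‖ + ‖p (b Ω - ζ)‖ := h2 ▸ norm_add_le _ _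
  have h6 : γ * ‖p‖ ≤ γ := mul_le_of_le_one_right hγ.le p3
  rw [p1] at h4
  refine ⟨b * (1 - k), mul_mem hb (sub_mem (one_mem _) hk), k2, ?_⟩
  have e2 : (b * (1 - k)) Ω - ζ = (b Ω - ζ) - (b * k) Ω := by
    rw [mul_sub, mul_one, ContinuousLinearMap.sub_apply]
    abel
  rw [e2]
  refine (norm_sub_le _ _).trans ?_
  linarith

section

variable {K : Type*} [NormedAddCommGroup K] [InnerProductSpace ℂ K] [CompleteSpace K]

lemma sel_of_gam {A R : StarSubalgebra ℂ (K →L[ℂ] K)} {Ω : K} (h : SF A R Ω)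
    {B : Set (K →L[ℂ] K)} {δ γ : ℝ} (hδ : 0 < δ) (hγ : 0 < γ) (hn : Near δ B R)
    (hg : Gam A Ω γ B) : Sel A Ω (4 * δ) (6 * γ) B R := by
  intro c hc
  rcases eq_or_ne c 0 with rfl | h0
  · exact ⟨0, zero_mem _, by simp, fun x _ => by simp⟩
  have c0 : 0 < ‖c‖ := norm_pos_iff.2 h0
  obtain ⟨a, ha, e⟩ := hn c hc
  have key : ∀ x ∈ A, ∀ r ∈ R, x ((c - r) Ω) = (c - r) (x Ω) + (x * c - c * x) Ω := by
    intro x hx r hr
    simp only [ContinuousLinearMap.sub_apply, ContinuousLinearMap.mul_apply, map_sub,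
      h.comm_apply hx hr]
    abel
  obtain ⟨q, hq, q1, q2⟩ := cut (P := (A : Set (K →L[ℂ] K))) h.symm.closed h.cm h.symm.dA h.pR
    (ζ := (c - a) Ω) (δ := δ * ‖c‖) (γ := γ * ‖c‖) (by positivity) (by positivity) fun p hp => by
      rw [key p hp a ha]
      refine (norm_add_le _ _).trans (add_le_add ?_ ((hg p hp c hc).trans (le_of_eq (by ring))))
      exact ((c - a).le_opNorm _).trans (by gcongr)
  refine ⟨a + q, add_mem ha hq, ?_, fun x hx => ?_⟩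
  · rw [← sub_sub]
    exact (norm_sub_le _ _).trans (by linarith)
  · have e1 : (c - (a + q)) (x Ω) = -x (q Ω - (c - a) Ω) - (x * c - c * x) Ω := by
      rw [eq_sub_iff_add_eq, ← key x hx _ (add_mem ha hq), ← map_neg]
      congr 1
      simp only [ContinuousLinearMap.sub_apply, ContinuousLinearMap.add_apply]
      abel
    rw [e1]
    refine (norm_sub_le _ _).trans ?_
    have h1 := hg x hx c hc
    have h2 : ‖x (q Ω - (c - a) Ω)‖ ≤ ‖x‖ * (5 * (γ * ‖c‖)) := (x.le_opNorm _).trans (by gcongr)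
    rw [norm_neg]
    linarith

omit [CompleteSpace K] in
lemma sel_geo {A : Set (K →L[ℂ] K)} {Ω : K} {X Y : Submodule ℂ (K →L[ℂ] K)} {δ d g δ' γ' : ℝ}
    (hδ : 0 ≤ δ) (hd : 0 ≤ d) (hg : 0 ≤ g) (hs : δ + 2 * d ≤ 1 / 2) (hδ' : 0 < δ') (hγ' : 0 < γ')
    (h1 : Near δ (X : Set (K →L[ℂ] K)) Y) (h2 : Sel A Ω d g Y X) :
    Sel A Ω (4 * d + δ') (4 * g + γ') X Y := by
  have key : ∀ n : ℕ, Sel A Ω (4 * d + (1 / 2) ^ n) (4 * g + (1 / 2) ^ n * ‖Ω‖) X Y := by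
    intro n
    induction n with
    | zero =>
      intro x _
      refine ⟨0, zero_mem _, ?_, fun z _ => ?_⟩
      · rw [sub_zero]
        nlinarith [norm_nonneg x]
      · rw [sub_zero]
        have h3 : ‖x (z Ω)‖ ≤ ‖x‖ * (‖z‖ * ‖Ω‖) :=
          (x.le_opNorm _).trans (by gcongr; exact z.le_opNorm _)
        have h4 : 0 ≤ g * ‖x‖ * ‖z‖ := by positivity
        nlinarith
    | succ n ih =>
      intro x hx
      obtain ⟨y, hy, e1⟩ := h1 x hx
      obtain ⟨x1, hx1, e2, e3⟩ := h2 y hy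
      obtain ⟨y', hy', e4, e5⟩ := ih (x - x1) (sub_mem hx hx1)
      have n0 := norm_nonneg x
      have n1 : ‖y‖ ≤ 2 * ‖x‖ := by
        have : ‖y‖ ≤ ‖x‖ + ‖x - y‖ := by simpa using norm_sub_le x (x - y)
        nlinarith
      have n2 : d * ‖y‖ ≤ 2 * d * ‖x‖ := by nlinarith
      have n3 : ‖x - x1‖ ≤ ‖x‖ / 2 := by
        have : ‖x - x1‖ ≤ ‖x - y‖ + ‖y - x1‖ := by simpa using norm_add_le (x - y) (y - x1)
        nlinarith
      have e : x - (y + y') = (x - x1 - y') - (y - x1) := by abel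
      refine ⟨y + y', add_mem hy hy', ?_, ?_⟩
      · rw [e]
        refine (norm_sub_le _ _).trans ?_
        have : (4 * d + (1 / 2) ^ n) * ‖x - x1‖ ≤ (4 * d + (1 / 2) ^ n) * (‖x‖ / 2) := by gcongr
        rw [pow_succ]
        linarith
      · rw [e]
        refine (e5.sub e3).mono ?_
        have h3 : (4 * g + (1 / 2) ^ n * ‖Ω‖) * ‖x - x1‖ ≤
            (4 * g + (1 / 2) ^ n * ‖Ω‖) * (‖x‖ / 2) := by gcongr
        have h4 : g * ‖y‖ ≤ g * (2 * ‖x‖) := by gcongr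
        rw [pow_succ]
        linarith
  obtain ⟨n, hn⟩ := exists_pow_lt_of_lt_one (x := min δ' (γ' / (‖Ω‖ + 1))) (y := (1 / 2 : ℝ))
    (by positivity) (by norm_num)
  obtain ⟨n1, n2⟩ := lt_min_iff.1 hn
  rw [lt_div_iff₀ (by positivity)] at n2
  have : (0 : ℝ) ≤ (1 / 2) ^ n := by positivity
  exact (key n).mono (by linarith) (by nlinarith)

lemma sel_boot {A R : StarSubalgebra ℂ (K →L[ℂ] K)} {Ω : K} (h : SF A R Ω)
    {B D : Set (K →L[ℂ] K)} {δ γ η : ℝ} (hδ : 0 < δ) (hδ1 : 204 * δ ≤ 1) (hγ : 0 < γ)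
    (hη : 0 < η) (hc : Cm D B) (hn : Near δ D A) (hs : Sel A Ω (17 * δ) (25 * γ) R B)
    (hg : Gam R Ω η D) : Gam R Ω (75 * γ + η / 2) D := by
  intro a ha y hy
  obtain ⟨c, hcB, c1, c2⟩ := hs a ha
  obtain ⟨x, hx, x1, x2⟩ := sel_of_gam h.symm hδ hη hn hg y hy
  have o1 : ‖(1 : K →L[ℂ] K)‖ ≤ 1 := ContinuousLinearMap.norm_id_le
  have na := norm_nonneg a
  have ny := norm_nonneg y
  have e : (a * y - y * a) Ω = (a - c) (x Ω) + (a - c) ((y - x) Ω) - y ((a - c) Ω) := by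
    have := congr($(hc y hy c hcB) Ω)
    simp only [ContinuousLinearMap.sub_apply, ContinuousLinearMap.mul_apply, map_sub] at this ⊢
    rw [this]
    abel
  have b1 : ‖x‖ ≤ 2 * ‖y‖ := by
    have : ‖x‖ ≤ ‖y‖ + ‖y - x‖ := by simpa using norm_sub_le y (y - x)
    nlinarith
  have b2 : ‖(a - c) (x Ω)‖ ≤ 25 * γ * ‖a‖ * (2 * ‖y‖) := (c2 x hx).trans (by gcongr)
  have b3 : ‖(y - x) Ω‖ ≤ 6 * η * ‖y‖ :=
    (x2 1 (one_mem _)).trans (mul_le_of_le_one_right (by positivity) o1)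
  have b4 : ‖(a - c) ((y - x) Ω)‖ ≤ 17 * δ * ‖a‖ * (6 * η * ‖y‖) :=
    ((a - c).le_opNorm _).trans (by gcongr)
  have b5 : ‖(a - c) Ω‖ ≤ 25 * γ * ‖a‖ :=
    (c2 1 (one_mem _)).trans (mul_le_of_le_one_right (by positivity) o1)
  have b6 : ‖y ((a - c) Ω)‖ ≤ ‖y‖ * (25 * γ * ‖a‖) := (y.le_opNorm _).trans (by gcongr)
  have b7 : 204 * δ * (η * ‖a‖ * ‖y‖) ≤ 1 * (η * ‖a‖ * ‖y‖) := by gcongr
  rw [e]
  refine (norm_sub_le _ _).trans ((add_le_add_left (norm_add_le _ _) _).trans ?_)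
  linarith

end

theorem sels : ∃ C : ℝ, 1 ≤ C ∧ ∀ {K : Type u} [NormedAddCommGroup K] [InnerProductSpace ℂ K]
    [CompleteSpace K] (A R : StarSubalgebra ℂ (K →L[ℂ] K)) (B D : Subalgebra ℂ (K →L[ℂ] K))
    (Ω : K) (δ γ : ℝ), 0 < δ → C * δ ≤ 1 → 0 < γ → SF A R Ω → Cm (D : Set (K →L[ℂ] K)) B →
    Near δ (R : Set (K →L[ℂ] K)) B → Near δ (B : Set (K →L[ℂ] K)) R →
    Near δ (A : Set (K →L[ℂ] K)) D → Near δ (D : Set (K →L[ℂ] K)) A → Gam A Ω γ B →
      Sel A Ω (C * δ) (C * γ) R B ∧ Sel A Ω (C * δ) (C * γ) B R ∧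
        Sel A Ω (C * δ) (C * γ) A D := by
  refine ⟨4000, by norm_num, ?_⟩
  intro K _ _ _ A R B D Ω δ γ hδ hδ1 hγ h hc n1 n2 n3 n4 hg
  have s1 := sel_of_gam h hδ hγ n2 hg
  have s2 : Sel A Ω (17 * δ) (25 * γ) R B :=
    (sel_geo (X := R.toSubalgebra.toSubmodule) (Y := B.toSubmodule) hδ.le (by positivity)
      (by positivity) (by linarith) hδ hγ n1 s1).mono (by linarith) (by linarith)
  have key : ∀ n : ℕ, Gam R Ω (150 * γ + (1 / 2) ^ n * (2 * ‖Ω‖)) D := by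
    intro n
    induction n with
    | zero =>
      intro a _ y _
      have b1 : ‖(a * y) Ω‖ ≤ ‖a‖ * ‖y‖ * ‖Ω‖ :=
        ((a * y).le_opNorm _).trans (by gcongr; exact norm_mul_le _ _)
      have b2 : ‖(y * a) Ω‖ ≤ ‖y‖ * ‖a‖ * ‖Ω‖ :=
        ((y * a).le_opNorm _).trans (by gcongr; exact norm_mul_le _ _)
      have b3 : 0 ≤ γ * ‖a‖ * ‖y‖ := by positivity
      rw [ContinuousLinearMap.sub_apply]
      refine (norm_sub_le _ _).trans ?_
      linarith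
    | succ n ih =>
      refine (sel_boot h hδ (by linarith) hγ (by positivity) hc n4 s2 ih).mono (le_of_eq ?_)
      ring
  obtain ⟨n, hn⟩ := exists_pow_lt_of_lt_one (x := γ / (2 * ‖Ω‖ + 1)) (y := (1 / 2 : ℝ))
    (by positivity) (by norm_num)
  rw [lt_div_iff₀ (by positivity)] at hn
  have hn0 : (0 : ℝ) ≤ (1 / 2) ^ n := by positivity
  have g2 : Gam R Ω (151 * γ) D := (key n).mono (by nlinarith)
  have s3 : Sel A Ω (4 * δ) (6 * (151 * γ)) D A := fun y hy => by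
    obtain ⟨x, hx, x1, x2⟩ := sel_of_gam h.symm hδ (by positivity) n4 g2 y hy
    exact ⟨x, hx, x1, h.wk_symm (by positivity) x2⟩
  have s4 := sel_geo (X := A.toSubalgebra.toSubmodule) (Y := D.toSubmodule) hδ.le (by positivity)
      (by positivity) (by linarith) hδ hγ n3 s3
  exact ⟨s2.mono (by linarith) (by linarith), s1.mono (by linarith) (by linarith),
    s4.mono (by linarith) (by linarith)⟩

end Vale.Agent.P096
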