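import Vale.Agent.P096.Newt
import Vale.Agent.P096.Sel
import Vale.Agent.P096.Dix
import Vale.Agent.P096.IterA

/-! The iteration. -/

namespace Vale.Agent.P096

open scoped InnerProductSpace Topology
open Filter

universe u

namespace It

/-- The four near inclusions. -/
structure Dat {K : Type*} [NormedAddCommGroup K] [InnerProductSpace ℂ K] [CompleteSpace K]
    (A R : StarSubalgebra ℂ (K →L[ℂ] K)) (B D : Subalgebra ℂ (K →L[ℂ] K)) (Ω : K) (δ : ℝ) :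
    Prop where
  sf : SF A R Ω
  cm : Cm (D : Set (K →L[ℂ] K)) B
  rb : Near δ (R : Set (K →L[ℂ] K)) B
  br : Near δ (B : Set (K →L[ℂ] K)) R
  ad : Near δ (A : Set (K →L[ℂ] K)) D
  da : Near δ (D : Set (K →L[ℂ] K)) A

lemma Dat.cj {K : Type*} [NormedAddCommGroup K] [InnerProductSpace ℂ K] [CompleteSpace K]
    {A R : StarSubalgebra ℂ (K →L[ℂ] K)} {B D : Subalgebra ℂ (K →L[ℂ] K)} {Ω : K} {δ ε : ℝ}
    (h : Dat A R B D Ω δ) {S : (K →L[ℂ] K)ˣ} (hS : ‖(S : K →L[ℂ] K) - 1‖ ≤ ε) (hε : ε ≤ 1 / 4)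
    (hδ : δ ≤ ε) : Dat A R (cj S B) (cj S D) Ω (10 * ε) :=
  ⟨h.sf, cm_cj h.cm, near_cj hS hε hδ h.rb, cj_near hS hε hδ h.br, near_cj hS hε hδ h.ad,
    cj_near hS hε hδ h.da⟩

theorem stepA : ∃ C : ℝ, 1 ≤ C ∧ ∀ {K : Type u} [NormedAddCommGroup K] [InnerProductSpace ℂ K]
    [CompleteSpace K] (A R : StarSubalgebra ℂ (K →L[ℂ] K)) (B D : Subalgebra ℂ (K →L[ℂ] K))
    (Ω : K) (δ γ : ℝ), 0 < δ → C * δ ≤ 1 → 0 < γ → Dat A R B D Ω δ → Gam A Ω γ B →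
      ∃ U : (K →L[ℂ] K)ˣ, ‖(U : K →L[ℂ] K) - 1‖ ≤ C * δ ∧ Gam A Ω (C * δ * γ) (cj U B) := by
  obtain ⟨s, hs, H1⟩ := sels.{u}
  obtain ⟨n, hn, H2⟩ := newton.{u}
  have hm : 1 ≤ n * s := one_le_mul_of_one_le_of_one_le hn hs
  refine ⟨76 * (n * s) * (n * s), by nlinarith, fun A R B D Ω δ γ hδ hC hγ h hG => ?_⟩
  have h1 : n * s * δ ≤ 1 / 76 := by nlinarith [mul_pos (one_pos.trans_le hm) hδ]
  have h2 : s * δ ≤ n * s * δ := by nlinarith [mul_pos (one_pos.trans_le hs) hδ]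
  have h3 : s * γ ≤ n * (s * γ) := by nlinarith [mul_pos (one_pos.trans_le hs) hγ]
  obtain ⟨s1, s2, s3⟩ := H1 A R B D Ω δ γ hδ (by linarith) hγ h.sf h.cm h.rb h.br h.ad h.da hG
  obtain ⟨V, v1, v2, v3⟩ := H2 A R B D Ω (s * δ) (s * γ) (by positivity) (by linarith)
    (by positivity) h.sf h.cm s1 s2 s3 (hG.mono (by nlinarith))
  obtain ⟨U, e, hU⟩ := exists_unit v1 (by linarith)
  refine ⟨U, hU.trans (by nlinarith [mul_pos (one_pos.trans_le hm) hδ]), (gam_newt h.sf e v1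
    (by linarith) (by linarith) (by positivity) (by positivity) v2 (s2.mono le_rfl h3) v3).mono ?_⟩
  nlinarith [mul_le_mul_of_nonneg_left h3 (show 0 ≤ n * (s * δ) by positivity)]

lemma prod_le {E : Type*} [CStarAlgebra E] {S G m m' : E} {e κ : ℝ} (he : e ≤ 1)
    (hS : ‖S - 1‖ ≤ e) (hG : ‖G‖ ≤ e) (hm : ‖m‖ ≤ e) (hm' : ‖m'‖ ≤ e)
    (h : ‖S - 1 - m - m' - G‖ ≤ κ) : ‖S * (1 - G) * (1 - m) * (1 - m') - 1‖ ≤ κ + 11 * e * e := by
  have h0 := (norm_nonneg _).trans hG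
  have h1 := norm_sub_le_of_le (norm_sub_le_of_le hS hG) (norm_mul_le_of_le hS hG)
  have h2 := norm_sub_le_of_le (norm_sub_le_of_le h1 hm) (norm_mul_le_of_le h1 hm)
  have h3 := norm_sub_le_of_le (norm_sub_le_of_le (norm_sub_le_of_le h (norm_mul_le_of_le hS hG))
    (norm_mul_le_of_le h1 hm)) (norm_mul_le_of_le h2 hm')
  refine (congrArg norm (by noncomm_ring)).trans_le (h3.trans ?_)
  have h4 : e * e * e ≤ e * e := by nlinarith [mul_nonneg h0 h0]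
  have h5 : e * e * e * e ≤ e * e := by nlinarith [mul_nonneg (mul_nonneg h0 h0) h0]
  nlinarith

theorem stepB : ∃ C : ℝ, 1 ≤ C ∧ ∀ {K : Type u} [NormedAddCommGroup K] [InnerProductSpace ℂ K]
    [CompleteSpace K] (A R : StarSubalgebra ℂ (K →L[ℂ] K)) (B D : Subalgebra ℂ (K →L[ℂ] K))
    (Ω : K) (δ ε γ : ℝ) (S : (K →L[ℂ] K)ˣ), 0 < δ → δ ≤ ε → C * ε ≤ 1 → C * ε * ε ≤ δ → 0 < γ →
      Dat A R B D Ω δ → ‖(S : K →L[ℂ] K) - 1‖ ≤ ε → Gam A Ω γ (cj S B) →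
      ∃ S' : (K →L[ℂ] K)ˣ, ‖(S' : K →L[ℂ] K) - 1‖ ≤ 5 * δ ∧ Gam A Ω (C * γ) (cj S' B) := by
  obtain ⟨s, hs, H1⟩ := sels.{u}
  refine ⟨2000000 * s * s, by nlinarith, fun A R B D Ω δ ε γ S hδ hε hC hq hγ h hS hG => ?_⟩
  have h0 : 0 < ε := hδ.trans_le hε
  have h1 : ε ≤ s * ε := by nlinarith
  have h2 : s * ε ≤ 1 / 2000000 := by nlinarith
  have h3 : γ ≤ s * γ := by nlinarith
  have hD := h.cj hS (by linarith) hε
  obtain ⟨s1, s2, s3⟩ := H1 A R _ _ Ω _ γ (by positivity) (by linarith) hγ h.sf hD.cm hD.rb hD.br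
    hD.ad hD.da hG
  have hS' := hS.trans (show ε ≤ s * (10 * ε) by linarith)
  obtain ⟨m, hm, m', hm', G, n1, n2, n3, n4, n5⟩ := dix h.sf (T := S - 1)
    (ε := 20 * (s * (10 * ε))) (γ := s * γ) (κ := 2 * δ) (by positivity) (by linarith)
    (hyp h.ad h.da hS' (by linarith) (by linarith) hδ.le le_rfl (by nlinarith) (by positivity) s3)
    (hyp h.rb h.br hS' (by linarith) (by linarith) hδ.le le_rfl (by nlinarith) (by positivity) s1)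
  obtain ⟨U1, e1, u1⟩ := exists_unit n3 (by linarith)
  obtain ⟨U2, e2, u2⟩ := exists_unit n1 (by linarith)
  obtain ⟨U3, e3, u3⟩ := exists_unit n2 (by linarith)
  refine ⟨S * U1 * U2 * U3, ?_, ?_⟩
  · simp only [Units.val_mul, e1, e2, e3]
    refine (prod_le (by linarith) (by linarith) n3 (by linarith) n2 n5).trans ?_
    nlinarith [mul_pos (mul_pos h0 h0) (show 0 < s * s by positivity)]
  · rw [cj_mul, cj_mul, cj_mul]
    have g1 := gam_cjG (hG.mono (show γ ≤ 2 * (s * γ) by linarith)) h.sf u1 (by linarith)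
      (by linarith) (by positivity) (by simpa [e1] using n4.neg) (s2.mono le_rfl (by linarith))
    have g2 := gam_cjA g1 (by positivity) h.sf u2 (by linarith) (e2 ▸ sub_mem (one_mem _) hm)
    refine (gam_cjR g2 (by positivity) h.sf u3 (by linarith) (e3 ▸ sub_mem (one_mem _) hm')).mono ?_
    nlinarith

theorem iter : ∃ C : ℝ, 20 ≤ C ∧ ∀ {K : Type u} [NormedAddCommGroup K] [InnerProductSpace ℂ K]
    [CompleteSpace K] (A R : StarSubalgebra ℂ (K →L[ℂ] K)) (B D : Subalgebra ℂ (K →L[ℂ] K))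
    (Ω : K) (δ : ℝ), 0 < δ → C * δ ≤ 1 → Dat A R B D Ω δ → ∀ k : ℕ, ∃ S : (K →L[ℂ] K)ˣ,
      ‖(S : K →L[ℂ] K) - 1‖ ≤ 5 * δ ∧ Gam A Ω ((2 * ‖Ω‖ + 1) * (1 / 2) ^ k) (cj S B) := by
  obtain ⟨a, ha, H1⟩ := stepA.{u}
  obtain ⟨b, hb, H2⟩ := stepB.{u}
  have hm : 1 ≤ b * a := one_le_mul_of_one_le_of_one_le hb ha
  refine ⟨20000 * (b * a) * a, by nlinarith, fun A R B D Ω δ hδ hC h k => ?_⟩
  have h1 : b * a * δ ≤ 1 / 20000 := by nlinarith [mul_pos (one_pos.trans_le hm) hδ]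
  have h2 : a * δ ≤ b * a * δ := by nlinarith [mul_pos (one_pos.trans_le ha) hδ]
  have h3 : δ ≤ a * δ := by nlinarith
  induction k with
  | zero =>
    refine ⟨1, by simp; positivity, fun x _ c _ => (ap (norm_sub_le_of_le (norm_mul_le x c)
      (norm_mul_le c x)) le_rfl).trans ?_⟩
    nlinarith [mul_nonneg (norm_nonneg x) (norm_nonneg c)]
  | succ k ih =>
    obtain ⟨S, hS, hG⟩ := ih
    obtain ⟨U, hU, hG'⟩ := H1 A R _ _ Ω _ _ (by positivity) (by linarith) (by positivity)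
      (h.cj hS (by linarith) (by linarith)) hG
    have h4 := norm_add_le_of_le (norm_mul_le_of_le (norm_le_two hS (by linarith)) hU) hS
    rw [← cj_mul] at hG'
    obtain ⟨S', hS', hG''⟩ := H2 A R B D Ω δ (105 * (a * δ)) _ (S * U) hδ (by linarith)
      (by linarith) (by nlinarith) (by positivity) h
      ((congrArg norm (by rw [Units.val_mul]; noncomm_ring)).trans_le (h4.trans (by linarith))) hG'
    refine ⟨S', hS', hG''.mono ?_⟩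
    rw [pow_succ]
    nlinarith [show 0 < (2 * ‖Ω‖ + 1) * (1 / 2) ^ k by positivity]

lemma limit {K : Type*} [NormedAddCommGroup K] [InnerProductSpace ℂ K] [CompleteSpace K]
    {A R : StarSubalgebra ℂ (K →L[ℂ] K)} {B : Subalgebra ℂ (K →L[ℂ] K)} {Ω : K} {ε b : ℝ}
    (hS : SF A R Ω) (S : ℕ → (K →L[ℂ] K)ˣ) (hS1 : ∀ k, ‖(S k : K →L[ℂ] K) - 1‖ ≤ ε)
    (hε : ε ≤ 1 / 4) (hb : 0 ≤ b) (hS2 : ∀ k, Gam A Ω (b * (1 / 2) ^ k) (cj (S k) B)) :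
    ∃ φ : (K →L[ℂ] K) →ₗ[ℂ] (K →L[ℂ] K), (∀ c ∈ B, φ c ∈ R) ∧ ∀ T, ‖φ T - T‖ ≤ 4 * ε * ‖T‖ := by
  have h0 (T : K →L[ℂ] K) : ∀ k, ‖((S k)⁻¹).val * T * (S k).val‖ ≤ 2 * ‖T‖ :=
    fun k => conj_two' (hS1 k) hε T
  choose φ hφ using fun T => exists_WT (Filter.hyperfilter ℕ) (.of_forall (h0 T))
  have a1 (T T') : φ (T + T') = φ T + φ T' :=
    (hφ _).eq_of ((hφ T).add (hφ T')) (.of_forall fun k => by simp only [mul_add, add_mul])
  have a2 (r : ℂ) (T) : φ (r • T) = r • φ T :=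
    (hφ _).eq_of ((hφ T).smul r) (.of_forall fun k => by simp only [mul_smul_comm, smul_mul_assoc])
  refine ⟨⟨⟨φ, a1⟩, a2⟩, fun c hc => hS.cR _ fun x hx => ?_, fun T =>
    ((hφ T).sub (.const T)).norm_le (.of_forall fun k => conj_le' (hS1 k) (by linarith) T)⟩
  have h8 : x * φ c - φ c * x = 0 := hS.ext fun y hy => by
    refine WT.apply_eq (((hφ c).mul_left x).sub ((hφ c).mul_right x)) ?_
    have h7 := (((tendsto_pow_atTop_nhds_zero_of_lt_one (r := (1 / 2 : ℝ)) (by norm_num)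
      (by norm_num)).const_mul b).mul_const (2 * ‖x‖ * ‖y‖ * (2 * ‖c‖))).mono_left
        Nat.hyperfilter_le_atTop
    rw [mul_zero, zero_mul] at h7
    refine squeeze_zero_norm
      (fun k => (gam_app (hS2 k) hx hy (cj_mem hc) (by positivity)).trans ?_) h7
    have := mul_le_mul_of_nonneg_left (conj_two' (hS1 k) hε c)
      (show 0 ≤ 2 * (b * (1 / 2) ^ k) * ‖x‖ * ‖y‖ by positivity)
    linarith
  exact (sub_eq_zero.1 h8).symm

end It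

theorem core : ∃ C : ℝ, 1 ≤ C ∧ ∀ {K : Type u} [NormedAddCommGroup K] [InnerProductSpace ℂ K]
    [CompleteSpace K] (A R : StarSubalgebra ℂ (K →L[ℂ] K)) (B D : Subalgebra ℂ (K →L[ℂ] K))
    (Ω : K) (δ : ℝ), 0 < δ → C * δ ≤ 1 → SF A R Ω → Cm (D : Set (K →L[ℂ] K)) B →
    Near δ (R : Set (K →L[ℂ] K)) B → Near δ (B : Set (K →L[ℂ] K)) R →
    Near δ (A : Set (K →L[ℂ] K)) D → Near δ (D : Set (K →L[ℂ] K)) A →
      ∃ φ : (K →L[ℂ] K) →ₗ[ℂ] (K →L[ℂ] K), (∀ c ∈ B, φ c ∈ R) ∧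
        ∀ T, ‖φ T - T‖ ≤ C * δ * ‖T‖ := by
  obtain ⟨C, hC, H⟩ := It.iter.{u}
  refine ⟨C, by linarith, fun A R B D Ω δ hδ h0 hS h1 h2 h3 h4 h5 => ?_⟩
  choose S hS1 hS2 using H A R B D Ω δ hδ h0 ⟨hS, h1, h2, h3, h4, h5⟩
  obtain ⟨φ, p1, p2⟩ := It.limit hS S hS1 (by nlinarith) (by positivity) hS2
  exact ⟨φ, p1, fun T => (p2 T).trans (mul_le_mul_of_nonneg_right (by nlinarith) (norm_nonneg _))⟩

end Vale.Agent.P096
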