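import Vale.Agent.P096.Defs
import Vale.Agent.P082.Main
import Mathlib.Analysis.CStarAlgebra.lpSpace
import Mathlib.Analysis.Normed.Lp.lpHolder
import Mathlib.Analysis.InnerProductSpace.l2Space

/-! Uniform constants in the vanishing of Hochschild cohomology. -/

namespace Vale.Agent.P096

open scoped InnerProductSpace Topology ENNReal
open Filter

universe u

namespace Kr

open P082

lemma co_pull {A B : Type*} [CStarAlgebra A] [CStarAlgebra B] {k : ℕ} {c : ℝ} {G : Fn B}
    (hG : Co k c G) (s : A → B) (e : B → A) (s1 : ∀ x (t : ℂ) y, s (x + t • y) = s x + t • s y)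
    (s2 : ∀ x y, s (x * y) = s x * s y) (s3 : ∀ x, ‖s x‖ ≤ ‖x‖)
    (e1 : ∀ x (t : ℂ) y, e (x + t • y) = e x + t • e y) (e2 : ∀ b x, e (s b * x) = b * e x)
    (e3 : ∀ b x, e (x * s b) = e x * b) (e4 : ∀ x, ‖e x‖ ≤ ‖x‖) :
    Co k c fun a : ℕ → A => e (G fun i => s (a i)) where
  dep a a' h := congrArg e (hG.dep _ _ fun i hi => by rw [h i hi])
  lin i hi a a' a'' t h1 h2 h3 := by
    rw [← e1]
    exact congrArg e (hG.lin i hi _ _ _ t (fun j hj => by rw [h1 j hj])
      (fun j hj => by rw [h2 j hj]) (by rw [h3, s1]))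
  left a a' b h1 h2 := by
    rw [← e2]
    exact congrArg e (hG.left _ _ (s b) (fun j hj => by rw [h1 j hj]) (by rw [h2, s2]))
  right a a' b h1 h2 := by
    rw [← e3]
    exact congrArg e (hG.right _ _ (s b) (fun j hj => by rw [h1 j hj]) (by rw [h2, s2]))
  bd a ha := (e4 _).trans (hG.bd _ fun i hi => (s3 _).trans (ha i hi))

lemma map_mg {A B : Type*} [Mul A] [Mul B] (s : A → B) (s2 : ∀ x y, s (x * y) = s x * s y) (i : ℕ)
    (a : ℕ → A) : (fun j => s (mg i a j)) = mg i fun j => s (a j) := by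
  ext j
  simp only [mg]
  split_ifs <;> simp [s2]

variable {A H : ℕ → Type*} [∀ n, CStarAlgebra (A n)] [∀ n, Nontrivial (A n)]
  [∀ n, NormedAddCommGroup (H n)] [∀ n, InnerProductSpace ℂ (H n)] [∀ n, CompleteSpace (H n)]

noncomputable instance lpC : CStarAlgebra (lp A ∞) where

/-- the diagonal operator -/
noncomputable def dgo (R : ∀ n, Rep (A n) (H n)) (a : lp A ∞) : lp H 2 →L[ℂ] lp H 2 :=
  lp.mapCLM 2 (fun n => (R n).π (a n)) (norm_nonneg a) fun n =>
    ((R n).norm_π _).trans_le (lp.norm_apply_le_norm ENNReal.top_ne_zero a n)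

omit [∀ n, Nontrivial (A n)] in
lemma dgo_apply (R : ∀ n, Rep (A n) (H n)) (a : lp A ∞) (ξ : lp H 2) (n : ℕ) :
    dgo R a ξ n = (R n).π (a n) (ξ n) := rfl

omit [∀ n, CompleteSpace (H n)] in
lemma ext2 {S T : lp H 2 →L[ℂ] lp H 2} (h : ∀ ξ n, S ξ n = T ξ n) : S = T :=
  ContinuousLinearMap.ext fun ξ => lp.ext (funext (h ξ))

/-- the diagonal representation -/
noncomputable def dgHom (R : ∀ n, Rep (A n) (H n)) : lp A ∞ →⋆ₐ[ℂ] (lp H 2 →L[ℂ] lp H 2) where
  toFun := dgo R
  map_one' := ext2 fun ξ n => by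
    change (R n).π 1 (ξ n) = ξ n
    simp
  map_mul' a b := ext2 fun ξ n => (R n).mul_apply (a n) (b n) (ξ n)
  map_zero' := ext2 fun ξ n => by
    change (R n).π 0 (ξ n) = 0
    simp
  map_add' a b := ext2 fun ξ n => by
    change (R n).π (a n + b n) (ξ n) = (R n).π (a n) (ξ n) + (R n).π (b n) (ξ n)
    simp
  commutes' c := ext2 fun ξ n => by
    change (R n).π (algebraMap ℂ (A n) c) (ξ n) = c • ξ n
    simp [Algebra.algebraMap_eq_smul_one]
  map_star' a := by
    rw [ContinuousLinearMap.star_eq_adjoint, ContinuousLinearMap.eq_adjoint_iff]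
    intro v w
    rw [lp.inner_eq_tsum, lp.inner_eq_tsum]
    exact tsum_congr fun n => (R n).inner_star_left (a n) (v n) (w n)

/-- an operator placed in one coordinate -/
noncomputable def plc (n : ℕ) (S : H n →L[ℂ] H n) : lp H 2 →L[ℂ] lp H 2 :=
  lp.singleContinuousLinearMap ℂ H 2 n ∘L S ∘L lp.evalCLM ℂ H 2 n

omit [∀ n, CompleteSpace (H n)] in
lemma plc_apply (n : ℕ) (S : H n →L[ℂ] H n) (ξ : lp H 2) :
    plc n S ξ = lp.single 2 n (S (ξ n)) := rfl

omit [∀ n, Nontrivial (A n)] in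
lemma dgo_single (R : ∀ n, Rep (A n) (H n)) (a : lp A ∞) (n : ℕ) (v : H n) :
    dgo R a (lp.single 2 n v) = lp.single 2 n ((R n).π (a n) v) := lp.ext (funext fun m => by
  rw [dgo_apply]
  rcases eq_or_ne m n with rfl | h
  · simp
  · simp [Pi.single_eq_of_ne h])

/-- the direct sum of representations -/
noncomputable def dgRep (R : ∀ n, Rep (A n) (H n)) : Rep (lp A ∞) (lp H 2) where
  π := dgHom R
  inj a b h := lp.ext (funext fun n => (R n).ext' fun v => by
    have := congr($h (lp.single 2 n v) n)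
    change dgo R a _ n = dgo R b _ n at this
    simpa [dgo_apply] using this)
  bic T hT := by
    have key : ∀ n (S : H n →L[ℂ] H n), (∀ x, S * (R n).π x = (R n).π x * S) → ∀ ξ,
        S (T ξ n) = T (lp.single 2 n (S (ξ n))) n := fun n S hS ξ => by
      have h1 := hT (plc n S) fun a => ContinuousLinearMap.ext fun η => by
        change plc n S (dgo R a η) = dgo R a (plc n S η)
        rw [plc_apply, plc_apply, dgo_single, dgo_apply]
        exact congrArg _ congr($(hS (a n)) (η n))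
      have h2 : plc n S (T ξ) n = T (plc n S ξ) n := congr($h1 ξ n)
      simpa [plc_apply] using h2
    choose a ha using fun n => (R n).bic
      (lp.evalCLM ℂ H 2 n ∘L T ∘L lp.singleContinuousLinearMap ℂ H 2 n) fun S hS =>
        ContinuousLinearMap.ext fun v => by
          change S (T (lp.single 2 n v) n) = T (lp.single 2 n (S v)) n
          rw [key n S hS, lp.single_apply_self]
    have ha' : ∀ n v, (R n).π (a n) v = T (lp.single 2 n v) n := fun n v => congr($(ha n) v)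
    refine ⟨⟨a, memℓp_infty ⟨‖T‖, ?_⟩⟩, ext2 fun ξ n => ?_⟩
    · rintro _ ⟨n, rfl⟩
      change ‖a n‖ ≤ ‖T‖
      rw [← (R n).norm_π]
      refine ContinuousLinearMap.opNorm_le_bound _ (norm_nonneg _) fun v => ?_
      rw [ha']
      refine (lp.norm_apply_le_norm two_ne_zero _ n).trans ((T.le_opNorm _).trans ?_)
      rw [lp.norm_single two_pos]
    · change (R n).π (a n) (ξ n) = T ξ n
      rw [ha']
      exact (key n 1 (by simp) ξ).symm

theorem prod_vanish (R : ∀ n, Rep (A n) (H n)) {k : ℕ} (φ : ∀ n, Fn (A n))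
    (h1 : ∀ n, Co (k + 1) 1 (φ n)) (h2 : ∀ n, dd (k + 1) (φ n) = 0) :
    ∃ c : ℝ, ∀ n, ∃ G, Co k c G ∧ dd k G = φ n := by
  have nb : ∀ (x : lp A ∞) n, ‖x n‖ ≤ ‖x‖ := lp.norm_apply_le_norm ENNReal.top_ne_zero
  obtain ⟨Φ, hΦ⟩ : ∃ Φ : Fn (lp A ∞), ∀ a n, Φ a n = φ n fun i => a i n :=
    ⟨fun a => ⟨fun n => φ n fun i => a i n,
      memℓp_infty ⟨1 * ∏ i ∈ Finset.range (k + 1 + 2), ‖a i‖, by
        rintro _ ⟨n, rfl⟩
        exact ((h1 n).norm_le _).trans (by gcongr; exact nb _ _)⟩⟩, fun _ _ => rfl⟩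
  have h3 : Co (k + 1) 1 Φ :=
    { dep a a' h := lp.ext (funext fun n => by
        rw [hΦ, hΦ]; exact (h1 n).dep _ _ fun i hi => by rw [h i hi])
      lin i hi a a' a'' t e1 e2 e3 := lp.ext (funext fun n => by
        change Φ a n = Φ a' n + t • Φ a'' n
        rw [hΦ, hΦ, hΦ]
        exact (h1 n).lin i hi _ _ _ t (fun j hj => by rw [e1 j hj]) (fun j hj => by rw [e2 j hj])
          (by rw [e3]; rfl))
      left a a' b e1 e2 := lp.ext (funext fun n => by
        change Φ a n = b n * Φ a' n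
        rw [hΦ, hΦ]
        exact (h1 n).left _ _ _ (fun j hj => by rw [e1 j hj]) (by rw [e2]; rfl))
      right a a' b e1 e2 := lp.ext (funext fun n => by
        change Φ a n = Φ a' n * b n
        rw [hΦ, hΦ]
        exact (h1 n).right _ _ _ (fun j hj => by rw [e1 j hj]) (by rw [e2]; rfl))
      bd a ha := lp.norm_le_of_forall_le zero_le_one fun n => by
        rw [hΦ]; exact (h1 n).bd _ fun i hi => (nb _ _).trans (ha i hi) }
  have ev : ∀ (F : Fn (lp A ∞)) m a n, dd m F a n =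
      ∑ i ∈ Finset.range (m + 2), (-1 : ℂ) ^ i • F (mg i a) n := fun F m a n => by
    rw [dd, lp.coeFn_sum, Finset.sum_apply]; rfl
  have h4 : dd (k + 1) Φ = 0 := funext fun a => lp.ext (funext fun n => by
    rw [ev]
    refine Eq.trans (Finset.sum_congr rfl fun i _ => ?_) (congrFun (h2 n) fun i => a i n)
    rw [hΦ, map_mg (fun x : lp A ∞ => x n) fun _ _ => rfl])
  let := CStarAlgebra.spectralOrder (lp A ∞)
  have := CStarAlgebra.spectralOrderedRing (lp A ∞)
  obtain ⟨c, G, h5, h6⟩ := vanish (dgRep R) 1 Φ h3 h4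
  refine ⟨c, fun n => ?_⟩
  have s2 : ∀ x y : A n, (lp.single ∞ n (x * y) : lp A ∞) = lp.single ∞ n x * lp.single ∞ n y :=
    fun x y => lp.ext (funext fun m => by
      change _ = (lp.single ∞ n x : lp A ∞) m * (lp.single ∞ n y : lp A ∞) m
      rcases eq_or_ne m n with rfl | h
      · simp
      · simp [Pi.single_eq_of_ne h])
  refine ⟨_, co_pull h5 (fun x => lp.single ∞ n x) (fun x => x n)
    (fun x t y => by rw [lp.single_add, lp.single_smul]) s2
    (fun x => (lp.norm_single ENNReal.zero_lt_top n x).le) (fun _ _ _ => rfl) (fun b x => ?_)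
    (fun b x => ?_) fun x => nb x n, funext fun a => ?_⟩
  · change (lp.single ∞ n b : lp A ∞) n * x n = _
    rw [lp.single_apply_self]
  · change x n * (lp.single ∞ n b : lp A ∞) n = _
    rw [lp.single_apply_self]
  · have h7 := ev G k (fun i => lp.single ∞ n (a i)) n
    rw [h6, hΦ] at h7
    simp only [lp.single_apply_self] at h7
    rw [h7, dd]
    refine Finset.sum_congr rfl fun i _ => ?_
    rw [map_mg (fun x => (lp.single ∞ n x : lp A ∞)) s2]

end Kr

open P082 in
theorem vanish_unif (k : ℕ) : ∃ C : ℝ, 1 ≤ C ∧ ∀ {A H : Type u} [CStarAlgebra A]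
    [NormedAddCommGroup H] [InnerProductSpace ℂ H] [CompleteSpace H] (_ : P082.Rep A H) (c : ℝ)
    (φ : P082.Fn A), P082.Co (k + 1) c φ → P082.dd (k + 1) φ = 0 →
      ∃ G, P082.Co k (C * c) G ∧ P082.dd k G = φ := by
  by_contra! h
  choose A H i1 i2 i3 i4 R c φ h1 h2 h3 using fun n : ℕ => h (n + 1) (by simp)
  have h0 : ∀ n, φ n ≠ 0 := fun n e =>
    h3 n 0 (Co.zero (mul_nonneg (by positivity) (h1 n).nonneg)) (by ext a; simp [dd, e])
  have : ∀ n, Nontrivial (A n) := fun n => by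
    by_contra hn
    rw [not_nontrivial_iff_subsingleton] at hn
    exact h0 n (funext fun _ => Subsingleton.elim _ _)
  have hc : ∀ n, 0 < c n := fun n => (h1 n).nonneg.lt_of_ne fun e => h0 n (funext fun a => by
    simpa [← e] using (h1 n).norm_le a)
  obtain ⟨c', hc'⟩ := Kr.prod_vanish R (fun n => ((c n : ℂ))⁻¹ • φ n)
    (fun n => ((h1 n).smul _).mono (by simp [abs_of_pos (hc n), (hc n).ne']))
    fun n => by rw [dd_smul, h2, smul_zero]
  obtain ⟨n, hn⟩ := exists_nat_ge c'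
  obtain ⟨G, e1, e2⟩ := hc' n
  refine h3 n ((c n : ℂ) • G) ((e1.smul _).mono ?_) ?_
  · simp only [Complex.norm_real, Real.norm_eq_abs, abs_of_pos (hc n)]
    nlinarith [hc n]
  · rw [dd_smul, e2, smul_smul, mul_inv_cancel₀ (by simpa using (hc n).ne'), one_smul]

namespace Kr

open P082

variable {A : Type*} [CStarAlgebra A]

lemma co_bil (f : A →L[ℂ] A →L[ℂ] A) : Co 2 ‖f‖ fun a : ℕ → A => a 0 * f (a 1) (a 2) * a 3 where
  dep a a' e := by rw [e 0 (by omega), e 1 (by omega), e 2 (by omega), e 3 le_rfl]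
  lin i hi a a' a'' c e1 e2 e3 := by
    interval_cases i <;> simp [e1, e2, e3, mul_add, add_mul]
  left a a' b e1 e2 := by simp [e1, e2, mul_assoc]
  right a a' b e1 e2 := by simp [e1, e2, mul_assoc]
  bd a ha := by
    have h1 : ‖f (a 1) (a 2)‖ ≤ ‖f‖ * 1 * 1 :=
      f.le_of_opNorm₂_le_of_le le_rfl (ha 1 (by omega)) (ha 2 (by omega))
    simpa using norm_mul_le_of_le (norm_mul_le_of_le (ha 0 (by omega)) h1) (ha 3 le_rfl)

lemma exists_lin {c : ℝ} {G : Fn A} (hG : Co 1 c G) :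
    ∃ g : A →L[ℂ] A, ‖g‖ ≤ c ∧ ∀ a, G a = a 0 * g (a 1) * a 2 := by
  let g0 : A →ₗ[ℂ] A :=
    { toFun x := G (Function.update 1 1 x)
      map_add' x y := hG.upd_add _ (by omega) x y
      map_smul' t x := hG.upd_smul _ (by omega) t x }
  have one : ‖(1 : A)‖ ≤ 1 := norm_one_le
  have hb : ∀ x, ‖g0 x‖ ≤ c * ‖x‖ := fun x => by
    refine (hG.norm_le _).trans (mul_le_mul_of_nonneg_left ?_ hG.nonneg)
    simp only [Finset.prod_range_succ, Finset.prod_range_zero, one_mul]
    rw [Function.update_of_ne (by omega), Function.update_of_ne (a := 1 + 1) (by omega),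
      Function.update_self, Pi.one_apply, Pi.one_apply]
    calc _ ≤ 1 * ‖x‖ * 1 := by gcongr
      _ = _ := by ring
  refine ⟨g0.mkContinuous c hb, g0.mkContinuous_norm_le hG.nonneg hb, fun a => ?_⟩
  change G a = a 0 * G (Function.update 1 1 (a 1)) * a 2
  rw [hG.right a (Function.update a 2 1) (a 2) (by simp +contextual) (by simp),
    hG.left (Function.update a 2 1) (Function.update (Function.update a 2 1) 0 1)
      (a 0) (by simp +contextual) (by simp)]
  congr 2
  refine hG.dep _ _ fun i hi => ?_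
  interval_cases i <;> simp

end Kr

open P082 in
theorem kru : ∃ C : ℝ, 1 ≤ C ∧ ∀ {A H : Type u} [CStarAlgebra A] [NormedAddCommGroup H]
    [InnerProductSpace ℂ H] [CompleteSpace H] (_ : P082.Rep A H) (f : A →L[ℂ] A →L[ℂ] A) (c : ℝ),
    0 ≤ c → (∀ x y z, ‖x * f y z - f (x * y) z + f x (y * z) - f x y * z‖ ≤ c * ‖x‖ * ‖y‖ * ‖z‖) →
      ∃ g : A →L[ℂ] A, ‖g‖ ≤ C * (‖f‖ + c) ∧
        ∀ x y, ‖f x y - (x * g y - g (x * y) + g x * y)‖ ≤ C * c * ‖x‖ * ‖y‖ := by
  obtain ⟨C1, hC1, H1⟩ := vanish_unif.{u} 1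
  obtain ⟨C2, hC2, H2⟩ := vanish_unif.{u} 2
  refine ⟨C1 * C2, one_le_mul_of_one_le_of_one_le hC1 hC2, fun {A H} _ _ _ _ R f c hc hf => ?_⟩
  have h1 := Kr.co_bil f
  obtain ⟨φ, hφ⟩ : ∃ φ : Fn A, φ = fun a => a 0 * f (a 1) (a 2) * a 3 := ⟨_, rfl⟩
  rw [← hφ] at h1
  have h2 : Co 3 c (dd 2 φ) :=
    { h1.dd with
      bd a ha := by
        have e : dd 2 φ a = a 0 * (a 1 * f (a 2) (a 3) - f (a 1 * a 2) (a 3) +
            f (a 1) (a 2 * a 3) - f (a 1) (a 2) * a 3) * a 4 := by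
          have : (-1 : ℂ) ^ 3 = -1 := by norm_num
          simp [hφ, dd, Finset.sum_range_succ, mg, this]
          noncomm_ring
        have h3 : c * ‖a 1‖ * ‖a 2‖ * ‖a 3‖ ≤ c * 1 * 1 * 1 := by
          have := ha 1 (by omega)
          have := ha 2 (by omega)
          have := ha 3 (by omega)
          gcongr
        rw [e]
        simpa using norm_mul_le_of_le (norm_mul_le_of_le (ha 0 (by omega)) ((hf _ _ _).trans h3))
          (ha 4 le_rfl) }
  obtain ⟨G, h3, h4⟩ := H2 R c _ h2 (dd_dd 2 φ)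
  obtain ⟨G1, h5, h6⟩ := H1 R _ _ (h1.sub h3) (by rw [dd_sub, h4, sub_self])
  obtain ⟨g, h7, h8⟩ := Kr.exists_lin h5
  refine ⟨g, h7.trans ?_, fun x y => ?_⟩
  · have := norm_nonneg f
    rw [mul_assoc]
    gcongr
    nlinarith
  · have h9 := congrFun h6 fun i => if i = 1 then x else if i = 2 then y else 1
    have h10 := h3.norm_le fun i => if i = 1 then x else if i = 2 then y else 1
    simp [hφ, dd, Finset.sum_range_succ, mg, h8] at h9
    rw [← sub_eq_add_neg] at h9
    rw [h9, sub_sub_cancel]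
    refine h10.trans ?_
    have one : ‖(1 : A)‖ ≤ 1 := norm_one_le
    simp only [Finset.prod_range_succ, Finset.prod_range_zero, one_mul]
    norm_num
    calc _ ≤ C1 * C2 * c * (1 * ‖x‖ * ‖y‖ * 1) := by
          gcongr
          nlinarith
      _ = _ := by ring

end Vale.Agent.P096
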