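import Vale.Agent.P096.Defs

/-! The near maximum principle. -/

namespace Vale.Agent.P096

open scoped InnerProductSpace Topology
open Filter

universe u

lemma norm_sub_av_sq_le {κ E : Type*} [Fintype κ] [NormedAddCommGroup E] [InnerProductSpace ℂ E]
    (F : κ → E) {t : ℝ} (hF : ∀ j, ‖F j‖ ≤ t) (j : κ) :
    ‖F j - av F‖ ^ 2 ≤ Fintype.card κ * (t ^ 2 - ‖av F‖ ^ 2) := by
  have : Nonempty κ := ⟨j⟩
  have hs : ∑ i, F i = (Fintype.card κ : ℂ) • av F := by
    rw [av, smul_smul, mul_inv_cancel₀ (by simp), one_smul]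
  have h1 : ∑ i, RCLike.re ⟪F i, av F⟫_ℂ = Fintype.card κ * ‖av F‖ ^ 2 := by
    rw [← map_sum, ← sum_inner, hs, inner_smul_left, ← inner_self_eq_norm_sq (𝕜 := ℂ)]
    simp
  have h2 : ∑ i, ‖F i - av F‖ ^ 2 = ∑ i, ‖F i‖ ^ 2 - Fintype.card κ * ‖av F‖ ^ 2 := by
    simp only [norm_sub_sq (𝕜 := ℂ), Finset.sum_add_distrib, Finset.sum_sub_distrib,
      ← Finset.mul_sum, h1, Finset.sum_const, Finset.card_univ, nsmul_eq_mul]
    ring
  have h3 : ∑ i, ‖F i‖ ^ 2 ≤ Fintype.card κ * t ^ 2 := by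
    refine (Finset.sum_le_sum fun i _ => pow_le_pow_left₀ (norm_nonneg _) (hF i) 2).trans ?_
    simp
  have h4 := Finset.single_le_sum (f := fun i => ‖F i - av F‖ ^ 2) (s := Finset.univ)
    (fun i _ => sq_nonneg _) (Finset.mem_univ j)
  linarith

theorem near_max {G E : Type*} [Group G] [NormedAddCommGroup E] [InnerProductSpace ℂ E]
    (f : G → E) {b : ℝ} (hf : ∀ g, ‖f g‖ ≤ b) (S : Finset G) {η : ℝ} (hη : 0 < η) :
    ∃ (ι : Type) (_ : Fintype ι) (_ : Nonempty ι) (h : ι → G) (u : G), ∀ s ∈ S,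
      ‖(av fun i => f (u * s * h i)) - av fun i => f (u * h i)‖ ≤ η := by
  classical
  obtain ⟨T, hT⟩ : ∃ T : Set ℝ, T = {t | ∃ (ι : Type) (_ : Fintype ι) (_ : Nonempty ι) (h : ι → G),
    ∀ u, ‖av fun i => f (u * h i)‖ ≤ t} := ⟨_, rfl⟩
  have hb : b ∈ T := by
    rw [hT]
    exact ⟨Unit, inferInstance, inferInstance, fun _ => 1, fun u => norm_av_le fun _ => hf _⟩
  have hbd : BddBelow T := ⟨0, by
    rw [hT]
    rintro t ⟨ι, _, _, h, ht⟩
    exact (norm_nonneg _).trans (ht 1)⟩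
  have hb0 : 0 ≤ b := (norm_nonneg _).trans (hf 1)
  obtain ⟨n, hn⟩ : ∃ n, n = (insert 1 S).card := ⟨_, rfl⟩
  obtain ⟨σ, hσ⟩ : ∃ σ : Fin n → G, ∀ s ∈ insert 1 S, ∃ j, σ j = s := by
    subst hn
    exact ⟨fun j => ((insert 1 S).equivFin.symm j : G), fun s hs =>
      ⟨(insert 1 S).equivFin ⟨s, hs⟩, by simp⟩⟩
  obtain ⟨j1, hj1⟩ := hσ 1 (by simp)
  have : Nonempty (Fin n) := ⟨j1⟩
  have hn0 : (0 : ℝ) < n := by exact_mod_cast j1.pos
  obtain ⟨k, hk0, hk1, hk2⟩ : ∃ k : ℝ, 0 < k ∧ k ≤ 1 ∧ n * (4 * k * (b + 1)) ≤ (η / 2) ^ 2 := by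
    refine ⟨min 1 ((η / 2) ^ 2 / (n * (4 * (b + 1)))), by positivity, min_le_left _ _, ?_⟩
    have := min_le_right 1 ((η / 2) ^ 2 / (n * (4 * (b + 1))))
    rw [le_div_iff₀ (by positivity)] at this
    linarith
  obtain ⟨t, ht, htk⟩ := exists_lt_of_csInf_lt ⟨b, hb⟩ (show sInf T < sInf T + k by linarith)
  have ht0 := csInf_le hbd hb
  rw [hT] at ht
  obtain ⟨ι, _, _, h, ht⟩ := ht
  have : ∃ u, sInf T - k < ‖av fun p : Fin n × ι => f (u * (σ p.1 * h p.2))‖ := by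
    by_contra! hc
    have : sInf T - k ∈ T := by
      rw [hT]
      exact ⟨Fin n × ι, inferInstance, inferInstance, fun p => σ p.1 * h p.2, by rwa [← hT]⟩
    linarith [csInf_le hbd this]
  obtain ⟨u, hu⟩ := this
  rw [av_prod] at hu
  simp only [← mul_assoc] at hu
  have hle : ‖av fun j => av fun i => f (u * σ j * h i)‖ ≤ t := norm_av_le fun j => ht _
  have key : ∀ j, ‖(av fun i => f (u * σ j * h i)) -
      av fun j => av fun i => f (u * σ j * h i)‖ ≤ η / 2 := by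
    intro j
    refine (pow_le_pow_iff_left₀ (norm_nonneg _) (by positivity) two_ne_zero).1 ?_
    refine (norm_sub_av_sq_le (fun j => av fun i => f (u * σ j * h i)) (fun j => ht _) j).trans ?_
    refine le_trans ?_ hk2
    rw [Fintype.card_fin]
    refine mul_le_mul_of_nonneg_left ?_ hn0.le
    have h0 := norm_nonneg (av fun j => av fun i => f (u * σ j * h i))
    generalize ‖av fun j => av fun i => f (u * σ j * h i)‖ = p at *
    calc t ^ 2 - p ^ 2 = (t - p) * (t + p) := by ring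
      _ ≤ (2 * k) * (2 * (b + 1)) :=
        mul_le_mul (by linarith) (by linarith) (by linarith) (by linarith)
      _ = _ := by ring
  refine ⟨ι, inferInstance, inferInstance, h, u, fun s hs => ?_⟩
  obtain ⟨j, rfl⟩ := hσ s (by simp [hs])
  have h1 := key j
  have h2 := key j1
  rw [hj1, mul_one, norm_sub_rev] at h2
  exact (norm_sub_le_norm_sub_add_norm_sub _ _ _).trans (by linarith)

end Vale.Agent.P096
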