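import Vale.Agent.P096.Ext

/-! The linearised equation. -/

namespace Vale.Agent.P096

open scoped InnerProductSpace Topology
open Filter

universe u

namespace Nw

open Ex

variable {K : Type*} [NormedAddCommGroup K] [InnerProductSpace ℂ K]

/-- the defect of the linearised equation -/
noncomputable def df (Ω : K) (V x c a : K →L[ℂ] K) : K :=
  (x * c - c * x) Ω - ((V * x - x * V) * a - a * (V * x - x * V)) Ω

lemma df_sum_left (Ω : K) (V c a : K →L[ℂ] K) (k : Fin 4 → ℂ) (u : Fin 4 → K →L[ℂ] K) :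
    df Ω V (∑ i, k i • u i) c a = ∑ i, k i • df Ω V (u i) c a := by
  simp only [df, Fin.sum_univ_four, ContinuousLinearMap.sub_apply, ContinuousLinearMap.mul_apply,
    ContinuousLinearMap.add_apply, ContinuousLinearMap.smul_apply, map_add, map_sub, map_smul]
  module

lemma df_sum_right (Ω : K) (V x : K →L[ℂ] K) (k : Fin 4 → ℂ) (c a : Fin 4 → K →L[ℂ] K) :
    df Ω V x (∑ i, k i • c i) (∑ i, k i • a i) = ∑ i, k i • df Ω V x (c i) (a i) := by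
  simp only [df, Fin.sum_univ_four, ContinuousLinearMap.sub_apply, ContinuousLinearMap.mul_apply,
    ContinuousLinearMap.add_apply, ContinuousLinearMap.smul_apply, map_add, map_sub, map_smul]
  module

lemma df_change (Ω : K) (V x c c' a : K →L[ℂ] K) : df Ω V x c c = df Ω V x c' a +
    (x * (c - c') - (c - c') * x) Ω - (V * x - x * V) ((c - a) Ω) +
      (c - a) (V (x Ω) - x (V Ω)) := by
  simp only [df, ContinuousLinearMap.sub_apply, ContinuousLinearMap.mul_apply, map_sub]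
  abel

lemma norm_four {E : Type*} [SeminormedAddCommGroup E] [NormedSpace ℂ E] {k : Fin 4 → ℂ}
    {v : Fin 4 → E} {s r : ℝ} (hk : ∀ i, ‖k i‖ ≤ s) (hv : ∀ i, ‖v i‖ ≤ r) :
    ‖∑ i, k i • v i‖ ≤ 4 * (s * r) :=
  (norm_sum_le _ _).trans ((Finset.sum_le_sum (g := fun _ => s * r) fun i _ => by
    rw [norm_smul]
    exact mul_le_mul (hk i) (hv i) (norm_nonneg _) ((norm_nonneg _).trans (hk i))).trans (by simp))

variable [CompleteSpace K]

lemma df_lim {ι : Type*} {l : Filter ι} [l.NeBot] {W : ι → K →L[ℂ] K} {V : K →L[ℂ] K}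
    (h : WT l W V) {Ω : K} {x c a : K →L[ℂ] K} {r : ℝ} (hr : ∀ᶠ i in l, ‖df Ω (W i) x c a‖ ≤ r) :
    ‖df Ω V x c a‖ ≤ r := by
  have h1 := (h.mul_right x).sub (h.mul_left x)
  have h2 : WT l _ _ := (h1.mul_right a).sub (h1.mul_left a)
  rw [df, norm_sub_rev]
  exact h2.apply_sub_le (hr.mono fun i hi => by rw [norm_sub_rev]; exact hi)

theorem lim_step : ∃ C : ℝ, 1 ≤ C ∧ ∀ {K : Type u} [NormedAddCommGroup K] [InnerProductSpace ℂ K]
    [CompleteSpace K] (A R : StarSubalgebra ℂ (K →L[ℂ] K)) (B D : Subalgebra ℂ (K →L[ℂ] K))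
    (Ω : K) (δ γ : ℝ), 0 < δ → C * δ ≤ 1 → 0 < γ → SF A R Ω →
    Cm (D : Set (K →L[ℂ] K)) B → Sel A Ω δ γ R B → Sel A Ω δ γ A D → Gam A Ω γ B →
      ∃ V : K →L[ℂ] K, ‖V‖ ≤ C * δ ∧ Wk A Ω (C * γ) V ∧
        ∀ x ∈ unitary (K →L[ℂ] K), x ∈ A → ∀ a ∈ unitary (K →L[ℂ] K), a ∈ R → ∀ c ∈ B,
          ‖c - a‖ ≤ δ → ‖df Ω V x c a‖ ≤ C * δ * γ := by
  obtain ⟨C, hC, H⟩ := extract.{u}
  refine ⟨C, hC, fun {K} _ _ _ A R B D Ω δ γ hδ hδ1 hγ sf cm' sR sA hG => ?_⟩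
  classical
  choose W n1 w1 h1 using fun S : Finset ((K →L[ℂ] K) × (K →L[ℂ] K)) =>
    H A R B D Ω δ γ hδ hδ1 hγ sf cm' sR sA hG (S.filter fun p => p.1 ∈ unitary (K →L[ℂ] K) ∧
      p.1 ∈ A ∧ p.2 ∈ unitary (K →L[ℂ] K) ∧ p.2 ∈ R) fun p hp => (Finset.mem_filter.1 hp).2
  obtain ⟨U, hU⟩ := Ultrafilter.exists_le (atTop : Filter (Finset ((K →L[ℂ] K) × (K →L[ℂ] K))))
  obtain ⟨V, hV⟩ := exists_WT (x := W) U (.of_forall n1)
  refine ⟨V, hV.norm_le (.of_forall n1), hV.wk (.of_forall w1), fun x ux hx a ua ha c hc e =>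
    df_lim hV (hU ((eventually_ge_atTop {(x, a)}).mono fun S hS => ?_))⟩
  exact h1 S (x, a) (Finset.mem_filter.2 ⟨hS (Finset.mem_singleton_self _), ux, hx, ua, ha⟩) c hc e

end Nw

open Nw Ex in
theorem newton : ∃ C : ℝ, 1 ≤ C ∧ ∀ {K : Type u} [NormedAddCommGroup K] [InnerProductSpace ℂ K]
    [CompleteSpace K] (A R : StarSubalgebra ℂ (K →L[ℂ] K)) (B D : Subalgebra ℂ (K →L[ℂ] K))
    (Ω : K) (δ γ : ℝ), 0 < δ → C * δ ≤ 1 → 0 < γ → SF A R Ω →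
    Cm (D : Set (K →L[ℂ] K)) B → Sel A Ω δ γ R B → Sel A Ω δ γ B R → Sel A Ω δ γ A D →
    Gam A Ω γ B → ∃ V : K →L[ℂ] K, ‖V‖ ≤ C * δ ∧ Wk A Ω (C * γ) V ∧
      ∀ x ∈ A, ∀ c ∈ B, ‖(x * c - c * x) Ω - ((V * x - x * V) * c - c * (V * x - x * V)) Ω‖ ≤
        C * δ * γ * ‖x‖ * ‖c‖ := by
  obtain ⟨C, hC, H⟩ := lim_step.{u}
  refine ⟨17 * C, by linarith,
    fun {K} _ _ _ A R B D Ω δ γ hδ hδ1 hγ sf cm' sR sB sA hG => ?_⟩
  have hC0 : 0 < C := by linarith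
  have hCδ := mul_pos hC0 hδ
  have hCγ := mul_pos hC0 hγ
  have hδ2 : δ ≤ 1 := by nlinarith
  obtain ⟨V, n1, w1, h1⟩ := H A R B D Ω δ γ hδ (by linarith) hγ sf cm' sR sA hG
  refine ⟨V, by linarith, w1.mono (by linarith), fun x hx c hc => ?_⟩
  obtain ⟨v, k, hv, ev⟩ := exists_four sf.closed hx
  have h2 : ∀ a ∈ unitary (K →L[ℂ] K), a ∈ R → ∀ c ∈ B, ‖c - a‖ ≤ δ →
      ‖df Ω V x c a‖ ≤ 4 * (‖x‖ / 2 * (C * δ * γ)) := fun a ua ha c hc e => by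
    have := norm_four (fun i => (hv i).2.2) fun i => h1 _ (hv i).1 (hv i).2.1 a ua ha c hc e
    rwa [← df_sum_left, ← ev] at this
  obtain ⟨a, ha, e1, w2⟩ := sB c hc
  obtain ⟨b, m, hb, eb⟩ := exists_four sf.symm.closed ha
  have na : ‖a‖ / 2 ≤ ‖c‖ := by
    have := norm_sub_norm_le a c
    rw [norm_sub_rev] at this
    nlinarith [norm_nonneg c]
  choose c' hc' e2 _ using fun i => sR _ (hb i).2.1
  have e3 : ∀ i, ‖c' i - b i‖ ≤ δ := fun i => by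
    rw [norm_sub_rev]
    exact (e2 i).trans (mul_le_of_le_one_right hδ.le (norm_unit_le (hb i).1))
  have h3 := norm_four (fun i => (hb i).2.2.trans na) fun i =>
    h2 _ (hb i).1 (hb i).2.1 _ (hc' i) (e3 i)
  rw [← df_sum_right, ← eb] at h3
  have hB : ∑ i, m i • c' i ∈ B := sum_mem fun i _ => B.smul_mem (hc' i) _
  have h4 : ‖c - ∑ i, m i • c' i‖ ≤ δ * ‖c‖ + 4 * (‖c‖ * δ) := by
    have := norm_four (fun i => (hb i).2.2.trans na) e3
    simp only [smul_sub, Finset.sum_sub_distrib, ← eb] at this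
    rw [norm_sub_rev] at this
    exact (norm_sub_le_norm_sub_add_norm_sub _ a _).trans (add_le_add e1 this)
  have h5 := (hG x hx _ (sub_mem hc hB)).trans
    (mul_le_mul_of_nonneg_left h4 (by positivity))
  have one : ‖(1 : K →L[ℂ] K)‖ ≤ 1 := norm_unit_le (one_mem _)
  have h6 : ‖(c - a) Ω‖ ≤ γ * ‖c‖ :=
    (w2 1 (one_mem A)).trans (mul_le_of_le_one_right (by positivity) one)
  have h7 : ‖V Ω‖ ≤ C * γ := (w1 1 (one_mem A)).trans (mul_le_of_le_one_right hCγ.le one)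
  have h8 := ap_le (norm_sub_le_of_le (mul_le' n1 (le_refl ‖x‖)) (mul_le' (le_refl ‖x‖) n1)) h6
  have h9 := ap_le e1 (norm_sub_le_of_le (w1 x hx) (ap_le (le_refl ‖x‖) h7))
  change ‖df Ω V x c c‖ ≤ _
  rw [df_change Ω V x c (∑ i, m i • c' i) a]
  refine (norm_add_le_of_le (norm_sub_le_of_le (norm_add_le_of_le h3 h5) h8) h9).trans ?_
  have h10 : 0 ≤ (C - 1) * (δ * γ * ‖x‖ * ‖c‖) := mul_nonneg (by linarith) (by positivity)
  nlinarith

end Vale.Agent.P096
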