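import Vale.Agent.P096.Tr
import Vale.Agent.P096.Op
import Vale.Agent.P082.Main
import Vale.Agent.P096.NrmH

/-! Normal traces are locally given by vectors. -/

namespace Vale.Agent.P096

open scoped InnerProductSpace Topology
open Filter

universe u

variable {H : Type*} [NormedAddCommGroup H] [InnerProductSpace ℂ H] [CompleteSpace H]
  {M : VonNeumannAlgebra H} {τ : (H →L[ℂ] H) → ENNReal}

/-- Bounded directed sets of positive operators have suprema. -/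
lemma vn_lub {s : Set (H →L[ℂ] H)} {e : H →L[ℂ] H} (hne : s.Nonempty) (hd : DirectedOn (· ≤ ·) s)
    (hs : ∀ z ∈ s, z ∈ M ∧ 0 ≤ z ∧ z ≤ e) : ∃ y ∈ M, IsLUB s y ∧
      ∀ (η : H) (r : ℝ), (∀ z ∈ s, (⟪η, z η⟫_ℂ).re ≤ r) → (⟪η, y η⟫_ℂ).re ≤ r := by
  have : Nonempty s := hne.to_subtype
  have : IsDirectedOrder s := hd.isDirectedOrder
  let U : Ultrafilter s := Ultrafilter.of atTop
  have hU : (U : Filter s) ≤ atTop := Ultrafilter.of_le _
  obtain ⟨y, hy⟩ := exists_WT U (x := fun z : s => (z : H →L[ℂ] H)) (r := ‖e‖)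
    (Eventually.of_forall fun z =>
      CStarAlgebra.norm_le_norm_of_nonneg_of_le (hs z z.2).2.1 (hs z z.2).2.2)
  refine ⟨y, vn_mem fun S hS => hy.comm (Eventually.of_forall fun z => vn_comm (hs z z.2).1 hS),
    ⟨fun z hz => ?_, fun w hw => ?_⟩, fun η r hr => ?_⟩
  · refine sub_nonneg.1 (WT.nonneg (hy.sub (.const z)) ?_)
    exact ((eventually_ge_atTop (⟨z, hz⟩ : s)).filter_mono hU).mono fun w hw => sub_nonneg.2 hw
  · exact sub_nonneg.1 (WT.nonneg (P082.WL.T.sub (.const w) hy)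
      (Eventually.of_forall fun z => sub_nonneg.2 (hw z.2)))
  · exact le_of_tendsto' ((Complex.continuous_re.tendsto _).comp (WT_iff.1 hy η η))
      fun z => hr z z.2

lemma proj_le {δ : ℝ} (hδ : 0 < δ) {e p : H →L[ℂ] H} (he : IsStarProjection e)
    (hp : IsStarProjection p) (h : δ • e ≤ p) : p * e = e := by
  have h1 := P082.mul_eq_zero_of_le hδ he h hp.isIdempotentElem.mul_one_sub_self
  rw [mul_sub, mul_one, sub_eq_zero] at h1
  have h2 := congrArg star h1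
  rw [star_mul, he.isSelfAdjoint.star_eq, hp.isSelfAdjoint.star_eq] at h2
  exact h2.symm

lemma re_inner_star_mul (x : H →L[ℂ] H) (η : H) : (⟪η, (star x * x) η⟫_ℂ).re = ‖x η‖ ^ 2 := by
  rw [ContinuousLinearMap.mul_apply, ContinuousLinearMap.star_eq_adjoint,
    ContinuousLinearMap.adjoint_inner_right]
  exact inner_self_eq_norm_sq (𝕜 := ℂ) _

lemma re_inner_nonneg {y : H →L[ℂ] H} (hy : 0 ≤ y) (η : H) : 0 ≤ (⟪η, y η⟫_ℂ).re :=
  ((ContinuousLinearMap.nonneg_iff_isPositive _).1 hy).re_inner_nonneg_right η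

/-- Domination by a vector functional on a corner. -/
theorem IsTrace.dom (h : IsTrace M τ) {p : H →L[ℂ] H} (hp : IsStarProjection p) (hM : p ∈ M)
    (h0 : p ≠ 0) : ∃ q ∈ M, IsStarProjection q ∧ q ≠ 0 ∧ p * q = q ∧ ∃ η : H,
      ∀ x ∈ M, τ (star (x * q) * (x * q)) ≤ ENNReal.ofReal (‖(x * q) η‖ ^ 2) := by
  obtain ⟨y1, hy1, hy10, hy1p, hy1n, hy1f⟩ := h.semifinite p hM hp.nonneg h0
  obtain ⟨δ1, e, hδ1, heM, he, he0, he1⟩ := vn_cut hy1 hy10 hy1n
  have hef : τ e ≠ ⊤ := by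
    have h1 := h.mono (vn_rsmul _ heM) hy1 (smul_nonneg hδ1.le he.nonneg) he1
    rw [h.rsmul heM he.nonneg hδ1.le] at h1
    intro h2
    rw [h2, ENNReal.mul_top (ENNReal.ofReal_pos.2 hδ1).ne'] at h1
    exact hy1f (top_le_iff.1 h1)
  have hpe : p * e = e := proj_le hδ1 he hp (he1.trans hy1p)
  obtain ⟨η, hη⟩ : ∃ η : H, (τ e).toReal < (⟪η, e η⟫_ℂ).re := by
    obtain ⟨v, hv⟩ : ∃ v, e v ≠ 0 := by
      by_contra! h1
      exact he0 (ContinuousLinearMap.ext h1)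
    have hv' := norm_pos_iff.2 hv
    have ht := (ENNReal.toReal_nonneg (a := τ e))
    refine ⟨((√((τ e).toReal + 1) / ‖e v‖ : ℝ) : ℂ) • v, ?_⟩
    have e1 : ∀ w, (⟪w, e w⟫_ℂ).re = ‖e w‖ ^ 2 := fun w => by
      rw [← re_inner_star_mul, he.isSelfAdjoint.star_eq, he.isIdempotentElem.eq]
    rw [e1, map_smul, norm_smul, Complex.norm_real, Real.norm_of_nonneg
      (by positivity), div_mul_cancel₀ _ hv'.ne', Real.sq_sqrt (by positivity)]
    linarith
  let Z : Set (H →L[ℂ] H) :=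
    {y | (y ∈ M ∧ 0 ≤ y ∧ y ≤ e) ∧ ENNReal.ofReal (⟪η, y η⟫_ℂ).re ≤ τ y}
  obtain ⟨y0, -, hy0⟩ := zorn_le_nonempty₀ Z (fun c hc hch z hz => by
    obtain ⟨y, hyM, hy, hy'⟩ := vn_lub ⟨z, hz⟩ hch.directedOn fun w hw => (hc hw).1
    have hy0 : 0 ≤ y := (hc hz).1.2.1.trans (hy.1 hz)
    have hye : y ≤ e := hy.2 fun w hw => (hc hw).1.2.2
    refine ⟨y, ⟨⟨hyM, hy0, hye⟩, ?_⟩, fun w hw => hy.1 hw⟩
    have hf : τ y ≠ ⊤ := ne_top_of_le_ne_top hef (h.mono hyM heM hy0 hye)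
    rw [ENNReal.ofReal_le_iff_le_toReal hf]
    refine hy' η _ fun w hw => ?_
    rw [← ENNReal.ofReal_le_iff_le_toReal hf]
    exact (hc hw).2.trans (h.mono (hc hw).1.1 hyM (hc hw).1.2.1 (hy.1 hw))) 0
    ⟨⟨zero_mem M, le_rfl, he.nonneg⟩, by simp⟩
  obtain ⟨⟨h1, h2, h3⟩, h4⟩ := hy0.1
  have h5 : e - y0 ≠ 0 := fun h5 => by
    rw [← sub_eq_zero.1 h5, ENNReal.ofReal_le_iff_le_toReal hef] at h4
    exact absurd hη (not_lt.2 h4)
  obtain ⟨δ, q, hδ, hqM, hq, hq0, hq1⟩ := vn_cut (sub_mem heM h1) (sub_nonneg.2 h3) h5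
  have heq : e * q = q := proj_le hδ hq he (hq1.trans (sub_le_self _ h2))
  refine ⟨q, hqM, hq, hq0, by rw [← heq, ← mul_assoc, hpe], η, fun x hx => ?_⟩
  have hxq := mul_mem hx hqM
  set y := star (x * q) * (x * q) with hy
  have hyM : y ∈ M := mul_mem (star_mem hxq) hxq
  have hy1 : 0 ≤ y := star_mul_self_nonneg _
  by_cases hy2 : y = 0
  · rw [hy2, h.zero]
    exact zero_le
  have hN := norm_nonneg (star x * x)
  have hc : 0 < δ / (‖star x * x‖ + 1) := by positivity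
  set c := δ / (‖star x * x‖ + 1) with hcd
  have h6 : c • y ≤ δ • q := by
    have h7 := CStarAlgebra.star_left_conjugate_le_norm_smul (a := q) (b := star x * x)
      (IsSelfAdjoint.star_mul_self x)
    have h8 : star q * (star x * x) * q = y := by
      rw [hy, star_mul]
      simp only [mul_assoc]
    rw [h8, hq.isSelfAdjoint.star_eq, hq.isIdempotentElem.eq] at h7
    refine (smul_le_smul_of_nonneg_left h7 hc.le).trans ?_
    rw [smul_smul]
    refine smul_le_smul_of_nonneg_right ?_ hq.nonneg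
    rw [hcd, div_mul_eq_mul_div, div_le_iff₀ (by positivity)]
    nlinarith
  have h7 : 0 ≤ c • y := smul_nonneg hc.le hy1
  have h8 : τ (y0 + c • y) < ENNReal.ofReal (⟪η, (y0 + c • y) η⟫_ℂ).re := by
    by_contra! h8
    have h9 := hy0.2 (y := y0 + c • y) ⟨⟨add_mem h1 (vn_rsmul _ hyM), add_nonneg h2 h7,
      le_sub_iff_add_le'.1 (h6.trans hq1)⟩, h8⟩ (le_add_of_nonneg_right h7)
    have h10 : c • y = 0 := le_antisymm (add_le_iff_nonpos_right _ |>.1 h9) h7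
    exact hy2 ((smul_eq_zero.1 h10).resolve_left hc.ne')
  have e1 : (⟪η, (y0 + c • y) η⟫_ℂ).re = (⟪η, y0 η⟫_ℂ).re + c * ‖(x * q) η‖ ^ 2 := by
    rw [← re_inner_star_mul, ← hy, ContinuousLinearMap.add_apply, inner_add_right,
      ContinuousLinearMap.smul_apply, ← Complex.coe_smul, inner_smul_right, Complex.add_re,
      Complex.re_ofReal_mul]
  rw [h.add _ h1 _ (vn_rsmul _ hyM) h2 h7, h.rsmul hyM hy1 hc.le, e1,
    ENNReal.ofReal_add (re_inner_nonneg h2 η) (by positivity), ENNReal.ofReal_mul hc.le] at h8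
  have h9 := h8.trans_le (add_le_add h4 le_rfl)
  have hf : τ y0 ≠ ⊤ := ne_top_of_le_ne_top hef (h.mono h1 heM h2 h3)
  rw [ENNReal.add_lt_add_iff_left hf] at h9
  by_contra! h10
  exact absurd h9 (not_lt.2 (mul_le_mul_right h10.le _))

end Vale.Agent.P096
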