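import Vale.Agent.P096.KRU

/-! Rigidity of the product (Raeburn-Taylor, Johnson). -/

namespace Vale.Agent.P096

open scoped InnerProductSpace Topology
open Filter

universe u

section

variable {A B : Type*} [CStarAlgebra A] [CStarAlgebra B]

/-- The star symmetrisation of a linear map. -/
lemma exists_sym (g : A →L[ℂ] B) : ∃ G : A →L[ℂ] B,
    (∀ x, G x = (1 / 2 : ℂ) • (g x + star (g (star x)))) ∧ ∀ x, G (star x) = star (G x) := by
  refine ⟨LinearMap.mkContinuous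
    { toFun := fun x => (1 / 2 : ℂ) • (g x + star (g (star x)))
      map_add' := fun x y => by simp only [star_add, map_add, smul_add]; abel
      map_smul' := fun c x => by
        simp only [star_smul, map_smul, star_star, RingHom.id_apply, ← smul_add, smul_comm c] }
    ‖g‖ fun x => ?_, fun _ => rfl, fun x => ?_⟩
  · have h1 := g.le_opNorm x
    have h2 := g.le_opNorm (star x)
    rw [norm_star] at h2
    have h3 := norm_add_le (g x) (star (g (star x)))
    rw [norm_star] at h3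
    simp only [LinearMap.coe_mk, AddHom.coe_mk, norm_smul]
    norm_num
    linarith
  · simp [add_comm]

lemma norm_half_le {x y : B} {r : ℝ} (hx : ‖x‖ ≤ r) (hy : ‖y‖ ≤ r) :
    ‖(1 / 2 : ℂ) • (x + y)‖ ≤ r := by
  have := norm_add_le x y
  rw [norm_smul]
  norm_num
  linarith

lemma exists_inv_rta {G : A →L[ℂ] A} (hG : ‖G‖ ≤ 1 / 2) : ∃ k : A →L[ℂ] A,
    (∀ x, (1 - G) (k x) = x) ∧ (∀ x, k ((1 - G) x) = x) ∧ ∀ x, ‖k x‖ ≤ 2 * ‖x‖ := by
  have hG' : ‖G‖ < 1 := by linarith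
  have h1 : ∀ x, (1 - G) ((↑(Units.oneSub G hG')⁻¹ : A →L[ℂ] A) x) = x := fun x =>
    congr($((Units.oneSub G hG').mul_inv) x)
  refine ⟨↑(Units.oneSub G hG')⁻¹, h1, fun x => congr($((Units.oneSub G hG').inv_mul) x),
    fun x => ?_⟩
  have h2 := h1 x
  generalize (↑(Units.oneSub G hG')⁻¹ : A →L[ℂ] A) x = y at h2
  have h3 : y = x + G y := by rw [← h2]; simp
  have h4 := G.le_of_opNorm_le hG y
  have h5 := norm_add_le x (G y)
  rw [← h3] at h5
  linarith

/-- An associative star compatible product close to the given one. -/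
structure Prd (m : A →L[ℂ] A →L[ℂ] A) (d : ℝ) : Prop where
  as : ∀ x y z, m (m x y) z = m x (m y z)
  st : ∀ x y, star (m x y) = m (star y) (star x)
  cl : ∀ x y, ‖m x y - x * y‖ ≤ d * ‖x‖ * ‖y‖

lemma rigid_step {C : ℝ} (hC : 1 ≤ C)
    (hk : ∀ (f : A →L[ℂ] A →L[ℂ] A) (c : ℝ), 0 ≤ c →
      (∀ x y z, ‖x * f y z - f (x * y) z + f x (y * z) - f x y * z‖ ≤ c * ‖x‖ * ‖y‖ * ‖z‖) →
      ∃ g : A →L[ℂ] A, ‖g‖ ≤ C * (‖f‖ + c) ∧
        ∀ x y, ‖f x y - (x * g y - g (x * y) + g x * y)‖ ≤ C * c * ‖x‖ * ‖y‖)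
    {m : A →L[ℂ] A →L[ℂ] A} {d : ℝ} (hd : 0 ≤ d) (hd1 : 104 * C ^ 2 * d ≤ 1) (hm : Prd m d) :
    ∃ (h : A →L[ℂ] A) (m' : A →L[ℂ] A →L[ℂ] A), ‖h - 1‖ ≤ 3 * C * d ∧
      (∀ x, h (star x) = star (h x)) ∧ Prd m' (d / 2) ∧ ∀ x y, h (m' x y) = m (h x) (h y) := by
  obtain ⟨f, hf⟩ : ∃ f : A →L[ℂ] A →L[ℂ] A, ∀ x y, f x y = m x y - x * y :=
    ⟨m - ContinuousLinearMap.mul ℂ A, fun _ _ => rfl⟩
  have hmf : ∀ x y, m x y = x * y + f x y := fun x y => by rw [hf]; abel
  have nf : ∀ x y, ‖f x y‖ ≤ d * ‖x‖ * ‖y‖ := fun x y => by rw [hf]; exact hm.cl x y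
  have nf' : ‖f‖ ≤ d := f.opNorm_le_bound₂ hd nf
  have sf : ∀ x y, star (f x y) = f (star y) (star x) := fun x y => by
    rw [hf, hf, star_sub, hm.st, star_mul]
  have hCd : C * d ≤ C ^ 2 * d := by
    have : C ≤ C ^ 2 := by nlinarith
    gcongr
  have hd2 : d ≤ C * d := le_mul_of_one_le_left hd hC
  obtain ⟨g, ng, hg⟩ := hk f (2 * d ^ 2) (by positivity) fun x y z => by
    have h1 := hm.as x y z
    simp only [hmf, map_add, _root_.add_apply, mul_add] at h1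
    have h2 : x * f y z - f (x * y) z + f x (y * z) - f x y * z = f (f x y) z - f x (f y z) := by
      rw [mul_assoc, ← sub_eq_zero] at h1
      rw [← sub_eq_zero, ← neg_eq_zero, ← h1]
      abel
    rw [h2]
    have h3 := (nf (f x y) z).trans (show _ ≤ d * (d * ‖x‖ * ‖y‖) * ‖z‖ by gcongr; exact nf x y)
    have h4 := (nf x (f y z)).trans (show _ ≤ d * ‖x‖ * (d * ‖y‖ * ‖z‖) by gcongr; exact nf y z)
    exact (norm_sub_le _ _).trans (by nlinarith)
  obtain ⟨G, hG, sG⟩ := exists_sym g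
  have ng' : ‖g‖ ≤ 3 * C * d := by
    refine ng.trans ?_
    have : ‖f‖ + 2 * d ^ 2 ≤ 3 * d := by nlinarith
    calc C * (‖f‖ + 2 * d ^ 2) ≤ C * (3 * d) := by gcongr
      _ = _ := by ring
  have nG : ‖G‖ ≤ 3 * C * d := G.opNorm_le_bound (by positivity) fun x => by
    rw [hG]
    refine norm_half_le (g.le_of_opNorm_le ng' x) ?_
    rw [norm_star, ← norm_star x]
    exact g.le_of_opNorm_le ng' _
  have hG2 : ∀ x y, ‖f x y - (x * G y - G (x * y) + G x * y)‖ ≤ C * (2 * d ^ 2) * ‖x‖ * ‖y‖ := by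
    intro x y
    have e : f x y - (x * G y - G (x * y) + G x * y) = (1 / 2 : ℂ) •
        ((f x y - (x * g y - g (x * y) + g x * y)) + star (f (star y) (star x) -
          (star y * g (star x) - g (star y * star x) + g (star y) * star x))) := by
      simp only [hG, star_sub, star_add, star_mul, star_star, ← sf, mul_smul_comm, smul_mul_assoc,
        mul_add, add_mul]
      module
    rw [e]
    refine norm_half_le (hg x y) ?_
    rw [norm_star]
    refine (hg _ _).trans (le_of_eq ?_)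
    rw [norm_star, norm_star]
    ring
  obtain ⟨k, k1, k2, nk⟩ := exists_inv_rta (G := G) (by linarith)
  obtain ⟨m', hm'⟩ : ∃ m' : A →L[ℂ] A →L[ℂ] A, ∀ x y, m' x y = k (m ((1 - G) x) ((1 - G) y)) :=
    ⟨(ContinuousLinearMap.compL ℂ A A A k).comp (m.bilinearComp (1 - G) (1 - G)),
      fun _ _ => by simp⟩
  have sh : ∀ x, (1 - G) (star x) = star ((1 - G) x) := fun x => by simp [sG]
  have hh : ∀ x y, (1 - G) (m' x y) = m ((1 - G) x) ((1 - G) y) := fun x y => by rw [hm', k1]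
  have inj : Function.Injective (1 - G : A →L[ℂ] A) := Function.LeftInverse.injective k2
  refine ⟨1 - G, m', by simpa using nG, sh, ⟨fun x y z => inj ?_, fun x y => inj ?_,
    fun x y => ?_⟩, hh⟩
  · rw [hh, hh, hh, hh, hm.as]
  · rw [sh, hh, hh, sh, sh, hm.st]
  · have e : m' x y - x * y = k ((f x y - (x * G y - G (x * y) + G x * y)) + G x * G y
        - f (G x) y - f x (G y) + f (G x) (G y)) := by
      rw [hm', ← k2 (x * y), ← map_sub, k2 (x * y)]
      congr 1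
      simp only [hmf, _root_.sub_apply, map_sub, one_apply_eq_self]
      abel
    rw [e]
    refine (nk _).trans ?_
    have gx := G.le_of_opNorm_le nG x
    have gy := G.le_of_opNorm_le nG y
    have h1 := hG2 x y
    have h2 : ‖G x * G y‖ ≤ 3 * C * d * ‖x‖ * (3 * C * d * ‖y‖) :=
      (norm_mul_le _ _).trans (by gcongr)
    have h3 : ‖f (G x) y‖ ≤ d * (3 * C * d * ‖x‖) * ‖y‖ := (nf _ _).trans (by gcongr)
    have h4 : ‖f x (G y)‖ ≤ d * ‖x‖ * (3 * C * d * ‖y‖) := (nf _ _).trans (by gcongr)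
    have h5 : ‖f (G x) (G y)‖ ≤ 1 * (3 * C * d * ‖x‖) * (3 * C * d * ‖y‖) :=
      (nf _ _).trans (by gcongr; nlinarith)
    have h6 := norm_add_le ((f x y - (x * G y - G (x * y) + G x * y)) + G x * G y
        - f (G x) y - f x (G y)) (f (G x) (G y))
    have h7 := norm_sub_le ((f x y - (x * G y - G (x * y) + G x * y)) + G x * G y
        - f (G x) y) (f x (G y))
    have h8 := norm_sub_le ((f x y - (x * G y - G (x * y) + G x * y)) + G x * G y) (f (G x) y)
    have h9 := norm_add_le (f x y - (x * G y - G (x * y) + G x * y)) (G x * G y)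
    have hp : 0 ≤ d * ‖x‖ * ‖y‖ := by positivity
    have a1 := mul_le_mul_of_nonneg_right hCd hp
    have a2 := mul_le_mul_of_nonneg_right hd1 hp
    nlinarith

end

theorem rigid : ∃ C : ℝ, 1 ≤ C ∧ ∀ {A H : Type u} [CStarAlgebra A] [NormedAddCommGroup H]
    [InnerProductSpace ℂ H] [CompleteSpace H] (_ : P082.Rep A H) (m : A →L[ℂ] A →L[ℂ] A) (δ : ℝ),
    0 ≤ δ → C * δ ≤ 1 → (∀ x y z, m (m x y) z = m x (m y z)) →
    (∀ x y, star (m x y) = m (star y) (star x)) → (∀ x y, ‖m x y - x * y‖ ≤ δ * ‖x‖ * ‖y‖) →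
      ∃ h : A →L[ℂ] A, ‖h - 1‖ ≤ C * δ ∧ (∀ x, h (star x) = star (h x)) ∧
        ∀ x y, h (x * y) = m (h x) (h y) := by
  obtain ⟨C, hC, hk⟩ := kru.{u}
  refine ⟨104 * C ^ 2, by nlinarith, fun {A H} _ _ _ _ R m δ h0 h1 as st cl => ?_⟩
  have hCd : 12 * C * δ ≤ 104 * C ^ 2 * δ := by
    have : 12 * C ≤ 104 * C ^ 2 := by nlinarith
    gcongr
  obtain ⟨Inv, hInv⟩ : ∃ Inv : ℕ → (A →L[ℂ] A →L[ℂ] A) × (A →L[ℂ] A) → Prop, Inv = fun k p =>
      Prd p.1 (δ / 2 ^ k) ∧ ‖p.2 - 1‖ ≤ 12 * C * δ - 12 * C * (δ / 2 ^ k) ∧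
        (∀ x, p.2 (star x) = star (p.2 x)) ∧ ∀ x y, p.2 (p.1 x y) = m (p.2 x) (p.2 y) := ⟨_, rfl⟩
  have hn2 : ∀ k p, Inv k p → ‖p.2‖ ≤ 2 := by
    intro k p hp
    rw [hInv] at hp
    have a1 : ‖(1 : A →L[ℂ] A)‖ ≤ 1 := ContinuousLinearMap.norm_id_le
    have a2 := norm_add_le (p.2 - 1) 1
    rw [sub_add_cancel] at a2
    have a3 : 0 ≤ 12 * C * (δ / 2 ^ k) := by positivity
    linarith [hp.2.1]
  have step : ∀ k p, Inv k p → ∃ p', Inv (k + 1) p' ∧ dist p.2 p'.2 ≤ 12 * C * δ / 2 / 2 ^ k := by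
    intro k p hp
    have n2 := hn2 k p hp
    rw [hInv] at hp ⊢
    obtain ⟨p1, p2, p3, p4⟩ := hp
    have hle : δ / 2 ^ k ≤ δ := div_le_self h0 (one_le_pow₀ one_le_two)
    obtain ⟨h, m', q1, q2, q3, q4⟩ := rigid_step hC (hk R) (by positivity)
      (le_trans (by gcongr) h1) p1
    have a1 : ‖p.2 * h - p.2‖ ≤ 2 * (3 * C * (δ / 2 ^ k)) := by
      rw [← mul_sub_one]
      exact (norm_mul_le _ _).trans (by gcongr)
    refine ⟨(m', p.2 * h), ⟨by rwa [pow_succ, ← div_div], ?_, fun x => ?_, fun x y => ?_⟩, ?_⟩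
    · have a2 := norm_sub_le_norm_sub_add_norm_sub (p.2 * h) p.2 1
      rw [pow_succ, ← div_div]
      simp only
      linarith
    · simp only [mul_apply_eq_comp, q2, p3]
    · simp only [mul_apply_eq_comp, q4, p4]
    · rw [dist_comm, dist_eq_norm]
      exact a1.trans (le_of_eq (by ring))
  choose! F hF1 hF2 using step
  obtain ⟨s, s0, ss⟩ : ∃ s : ℕ → (A →L[ℂ] A →L[ℂ] A) × (A →L[ℂ] A), s 0 = (m, 1) ∧
      ∀ k, s (k + 1) = F k (s k) := ⟨fun k => Nat.rec (m, 1) F k, rfl, fun _ => rfl⟩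
  have hs : ∀ k, Inv k (s k) := by
    intro k
    induction k with
    | zero =>
      rw [s0, hInv]
      exact ⟨⟨as, st, by simpa using cl⟩, by simp, fun _ => rfl, fun _ _ => rfl⟩
    | succ k ih => rw [ss]; exact hF1 k _ ih
  obtain ⟨h, hh⟩ := cauchySeq_tendsto_of_complete
    (cauchySeq_of_le_geometric_two (f := fun k => (s k).2) fun k => by
      rw [ss]; exact hF2 k _ (hs k))
  have hx : ∀ x, Tendsto (fun k => (s k).2 x) atTop (𝓝 (h x)) := fun x =>
    ((ContinuousLinearMap.apply ℂ A x).continuous.tendsto h).comp hh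
  have hn := fun k => hn2 k _ (hs k)
  rw [hInv] at hs
  refine ⟨h, le_of_tendsto' (hh.sub_const 1).norm fun k => ?_, fun x => ?_, fun x y => ?_⟩
  · have a3 : 0 ≤ 12 * C * (δ / 2 ^ k) := by positivity
    linarith [(hs k).2.1]
  · refine tendsto_nhds_unique (hx (star x)) ?_
    simp only [fun k => (hs k).2.2.1 x]
    exact (hx x).star
  · have t1 : Tendsto (fun k => m ((s k).2 x) ((s k).2 y)) atTop (𝓝 (m (h x) (h y))) :=
      (m.continuous₂.tendsto (h x, h y)).comp ((hx x).prodMk_nhds (hx y))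
    have t2 : Tendsto (fun k => m ((s k).2 x) ((s k).2 y) - (s k).2 (x * y)) atTop (𝓝 0) := by
      refine squeeze_zero_norm (a := fun k => 2 * (δ / 2 ^ k * ‖x‖ * ‖y‖)) (fun k => ?_) ?_
      · rw [← (hs k).2.2.2, ← map_sub]
        exact ((s k).2.le_of_opNorm_le (hn k) _).trans (by gcongr; exact (hs k).1.cl x y)
      · have := (((tendsto_pow_atTop_atTop_of_one_lt (one_lt_two (α := ℝ))).const_div_atTop
          δ).mul_const ‖x‖).mul_const ‖y‖ |>.const_mul 2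
        simpa using this
    exact (sub_eq_zero.1 (tendsto_nhds_unique (t1.sub (hx (x * y))) t2)).symm

end Vale.Agent.P096
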