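import Vale.Agent.P096.Fin
import Vale.Agent.P096.NrmC

/-! The linear lift for semifinite algebras. -/

namespace Vale.Agent.P096

open scoped InnerProductSpace Topology
open Filter

universe u

section

variable {H : Type u} [NormedAddCommGroup H] [InnerProductSpace ℂ H] [CompleteSpace H]

lemma xt_star {S : Submodule ℂ H} [CompleteSpace S] (T : S →L[ℂ] S) :
    xt S (star T) = star (xt S T) := by
  have hP : IsStarProjection S.starProjection := isStarProjection_starProjection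
  conv_lhs => rw [← cmp_xt T, ← cmp_star, xt_cmp, ← hP.isSelfAdjoint.star_eq, ← star_mul,
    ← star_mul, xt_mul_proj, proj_mul_xt]

/-- The corner of a subalgebra. -/
def corner (S : Submodule ℂ H) [CompleteSpace S] (Q : StarSubalgebra ℂ (H →L[ℂ] H))
    (hp : S.starProjection ∈ Q) : StarSubalgebra ℂ (S →L[ℂ] S) where
  carrier := {T | xt S T ∈ Q}
  mul_mem' h1 h2 := by
    show xt S _ ∈ Q
    rw [xt_mul]
    exact mul_mem h1 h2
  add_mem' h1 h2 := by
    show xt S _ ∈ Q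
    rw [map_add]
    exact add_mem h1 h2
  algebraMap_mem' c := by
    show xt S _ ∈ Q
    rw [Algebra.algebraMap_eq_smul_one, map_smul]
    exact Q.smul_mem hp c
  star_mem' h := by
    show xt S _ ∈ Q
    rw [xt_star]
    exact star_mem h

lemma cmp_mem {S : Submodule ℂ H} [CompleteSpace S] {Q : StarSubalgebra ℂ (H →L[ℂ] H)}
    (hp : S.starProjection ∈ Q) {y : H →L[ℂ] H} (hy : y ∈ Q) : cmp S y ∈ corner S Q hp :=
  mul_mem (mul_mem hp hy) hp

lemma Near.corner {S : Submodule ℂ H} [CompleteSpace S] {Q Q' : StarSubalgebra ℂ (H →L[ℂ] H)}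
    (hp : S.starProjection ∈ Q) (hp' : S.starProjection ∈ Q') {δ : ℝ} (hδ : 0 ≤ δ)
    (h : Near δ (Q : Set (H →L[ℂ] H)) Q') :
    Near δ (corner S Q hp : Set (S →L[ℂ] S)) (corner S Q' hp') := fun T hT => by
  obtain ⟨y, hy, e⟩ := h _ hT
  refine ⟨cmp S y, cmp_mem hp' hy, ?_⟩
  nth_rewrite 1 [← cmp_xt T]
  rw [← map_sub]
  exact (norm_cmp_le _).trans (e.trans (mul_le_mul_of_nonneg_left (norm_xt_le T) hδ))

lemma norm_conj_sub {w y : H →L[ℂ] H} (hw : w ∈ unitary (H →L[ℂ] H)) {ε : ℝ} (h : ‖w - 1‖ ≤ ε) :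
    ‖w * y * star w - y‖ ≤ 2 * ε * ‖y‖ := by
  have e1 : w * y * star w - y = (w - 1) * y * star w + y * star (w - 1) := by
    rw [star_sub, star_one]; noncomm_ring
  have h1 := norm_unit_le (Unitary.star_mem hw)
  have h2 := (norm_mul_le (w - 1) y).trans (mul_le_mul_of_nonneg_right h (norm_nonneg y))
  have h3 := (norm_mul_le ((w - 1) * y) (star w)).trans
    (mul_le_mul h2 h1 (norm_nonneg _) ((norm_nonneg _).trans h2))
  have h4 := (norm_mul_le y (star (w - 1))).trans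
    (mul_le_mul_of_nonneg_left ((norm_star _).trans_le h) (norm_nonneg y))
  rw [e1]
  exact (norm_add_le _ _).trans (by linarith)

lemma norm_conj_le {w y : H →L[ℂ] H} (hw : w ∈ unitary (H →L[ℂ] H)) : ‖w * y * star w‖ ≤ ‖y‖ := by
  rw [CStarRing.norm_mul_mem_unitary _ (Unitary.star_mem hw), CStarRing.norm_mem_unitary_mul _ hw]

lemma WT_of_strong {ι : Type*} {l : Filter ι} {x : ι → H →L[ℂ] H} {y : H →L[ℂ] H}
    (h : ∀ v, Tendsto (fun i => x i v) l (𝓝 (y v))) : WT l x y :=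
  WT_iff.2 fun ξ _ => tendsto_const_nhds.inner (h ξ)

end

theorem cornerLift : ∃ C : ℝ, 1 ≤ C ∧ ∀ {H : Type u} [NormedAddCommGroup H]
    [InnerProductSpace ℂ H] [CompleteSpace H] (M N : VonNeumannAlgebra H)
    (τ : (H →L[ℂ] H) → ENNReal) (δ : ℝ), IsTrace M τ → 0 < δ → C * δ ≤ 1 →
    Near δ (M : Set (H →L[ℂ] H)) N → Near δ (N : Set (H →L[ℂ] H)) M →
    ∀ (F : Finset H) (η : ℝ), 0 < η → ∃ p : H →L[ℂ] H, ‖p‖ ≤ 1 ∧ (∀ v ∈ F, ‖p v - v‖ ≤ η) ∧
      ∃ ψ : N.toStarSubalgebra →ₗ[ℂ] (H →L[ℂ] H),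
        ∀ n, ψ n ∈ M ∧ ‖ψ n - p * n * p‖ ≤ C * δ * ‖n‖ := by
  obtain ⟨C, hC, hfin⟩ := finLift.{u}
  refine ⟨401 * C + 200, by linarith, fun {H} _ _ _ M N τ δ hτ hδ hCδ hMN hNM F η hη => ?_⟩
  obtain ⟨p, hpM, hp, hF, ι, _, ξ, hξ, h1, h2⟩ := hτ.loc F hη
  have hCδ' : 0 ≤ C * δ := by positivity
  have hδ1 : 100 * δ ≤ 1 := by nlinarith
  obtain ⟨c, hc, hpc⟩ := hMN p hpM
  obtain ⟨q, hq, -, w, hw, hw1, hwq⟩ := proj_near N.toStarSubalgebra (P082.vn_closed N) hp hc
    (ε := δ) (by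
      rw [norm_sub_rev]
      exact hpc.trans (mul_le_of_le_one_right hδ.le hp.norm_le)) hδ1
  have hw2 : ‖star w - 1‖ ≤ 100 * δ := by rw [← norm_star, star_sub, star_star, star_one]; exact hw1
  let S : Submodule ℂ H := (1 - p).ker
  have hS : ∀ v, v ∈ S ↔ p v = v := fun v => by
    show v - p v = 0 ↔ _
    rw [sub_eq_zero, eq_comm]
  have hSp : S.starProjection = p := ContinuousLinearMap.ext fun v =>
    Submodule.eq_starProjection_of_mem_of_inner_eq_zero
      ((hS _).2 congr($(hp.isIdempotentElem.eq) v)) fun z hz => by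
        rw [← (hS z).1 hz, ← ContinuousLinearMap.adjoint_inner_left, hp.isSelfAdjoint.adjoint_eq,
          map_sub, ← ContinuousLinearMap.mul_apply, hp.isIdempotentElem.eq, sub_self,
          inner_zero_left]
  let N' : StarSubalgebra ℂ (H →L[ℂ] H) := N.toStarSubalgebra.comap
    (Unitary.conjStarAlgAut ℂ _ (star (⟨w, hw⟩ : unitary (H →L[ℂ] H))) : _ →⋆ₐ[ℂ] _)
  have hN' : ∀ y, y ∈ N' ↔ star w * y * star (star w) ∈ N := fun _ => Iff.rfl
  have hN1 : ∀ y ∈ N, w * y * star w ∈ N' := fun y hy => by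
    rw [hN', star_star, ← mul_assoc, ← mul_assoc, hw.1, one_mul, mul_assoc, hw.1, mul_one]
    exact hy
  have hpM' : S.starProjection ∈ M.toStarSubalgebra := by rw [hSp]; exact hpM
  have hpN : S.starProjection ∈ N' := by
    rw [hSp, hN', star_star, mul_assoc, ← hwq, ← mul_assoc, hw.1, one_mul]
    exact hq
  have n1 : Near (401 * δ) (M.toStarSubalgebra : Set (H →L[ℂ] H)) N' := fun x hx => by
    obtain ⟨y, hy, e⟩ := hMN x hx
    refine ⟨_, hN1 y hy, ?_⟩
    have e1 := norm_conj_sub (y := y) hw hw1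
    have e2 := norm_sub_le x (x - y)
    have e3 := norm_sub_le (x - y) (w * y * star w - y)
    rw [sub_sub_cancel] at e2
    rw [sub_sub_sub_cancel_right] at e3
    have e4 : δ * ‖x‖ ≤ ‖x‖ := mul_le_of_le_one_left (norm_nonneg _) (by linarith)
    nlinarith [mul_le_mul_of_nonneg_left (show ‖y‖ ≤ 2 * ‖x‖ by linarith) hδ.le]
  have n2 : Near (401 * δ) (N' : Set (H →L[ℂ] H)) M.toStarSubalgebra := fun y hy => by
    obtain ⟨x, hx, e⟩ := hNM _ ((hN' y).1 hy)
    refine ⟨x, hx, ?_⟩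
    have e1 := norm_conj_sub (y := y) (Unitary.star_mem hw) hw2
    have e2 := norm_conj_le (y := y) (Unitary.star_mem hw)
    have e3 := norm_sub_le (star w * y * star (star w) - x) (star w * y * star (star w) - y)
    rw [sub_sub_sub_cancel_left] at e3
    nlinarith [mul_le_mul_of_nonneg_left e2 hδ.le, mul_nonneg hδ.le (norm_nonneg y)]
  have hx : ∀ x : S →L[ℂ] S, p * xt S x * p = xt S x := fun x => by
    have a1 := proj_mul_xt x
    have a2 := xt_mul_proj x
    rw [hSp] at a1 a2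
    rw [a1, a2]
  have hxξ : ∀ (x : S →L[ℂ] S) i, xt S x (ξ i) = x ⟨ξ i, (hS _).2 (hξ i)⟩ := fun x i => by
    rw [xt_apply, ← Submodule.orthogonalProjection_mem_subspace_eq_self ⟨ξ i, (hS _).2 (hξ i)⟩]
  obtain ⟨ψ, hψ⟩ := hfin (corner S _ hpM') (corner S N' hpN) (fun i => ⟨ξ i, (hS _).2 (hξ i)⟩)
    (401 * δ) (fun T hT => vn_mem (T := xt S T) fun c hc => by
      have c1 : S.starProjection * c = c * S.starProjection := vn_comm hpM' hc
      have c2 := hT (cmp S c) fun x hx => by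
        rw [← cmp_xt x, ← cmp_mul _ c1, ← cmp_mul _ (by rw [proj_mul_xt, xt_mul_proj]),
          vn_comm (M := M) hx hc]
      have c3 := congrArg (xt S) c2
      have c4 : S.starProjection * c * S.starProjection * xt S T = c * xt S T := by
        rw [mul_assoc, proj_mul_xt, c1, mul_assoc, proj_mul_xt]
      have c5 : xt S T * (S.starProjection * c * S.starProjection) = xt S T * c := by
        rw [mul_assoc, ← c1, ← mul_assoc, ← mul_assoc, xt_mul_proj, xt_mul_proj]
      rw [xt_mul, xt_mul, xt_cmp, c4, c5] at c3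
      exact c3.symm)
    (fun x hxM => by
      have := h1 _ hxM (hx x)
      simp only [← xt_star, hxξ] at this
      exact this)
    (fun x hxM h0 => by
      rw [← cmp_xt x, h2 _ hxM (hx x) fun i => by rw [hxξ, h0 i]; rfl, map_zero])
    (by positivity) (by nlinarith) (n1.corner _ _ (by positivity)) (n2.corner _ _ (by positivity))
  let j : N.toStarSubalgebra →ₗ[ℂ] corner S N' hpN :=
    { toFun := fun n => ⟨cmp S (w * n * star w), cmp_mem hpN (hN1 n n.2)⟩
      map_add' := fun a b => Subtype.ext (by simp [mul_add, add_mul])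
      map_smul' := fun a b => Subtype.ext (by simp) }
  refine ⟨p, hp.norm_le, hF, xt S ∘ₗ ψ ∘ₗ j, fun n => ⟨(hψ (j n)).1, ?_⟩⟩
  have e1 : (xt S ∘ₗ ψ ∘ₗ j) n - p * n * p =
      xt S (ψ (j n) - j n) + xt S (cmp S (w * n * star w - n)) := by
    rw [map_sub, map_sub, map_sub, xt_cmp (n : H →L[ℂ] H), hSp]
    exact (sub_add_sub_cancel _ _ _).symm
  have e2 : ‖j n‖ ≤ ‖n‖ := (norm_cmp_le _).trans (norm_conj_le hw)
  have e3 := (norm_xt_le _).trans ((hψ (j n)).2.trans
    (mul_le_mul_of_nonneg_left e2 (by positivity)))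
  have e4 := (norm_xt_le (S := S) _).trans ((norm_cmp_le _).trans
    (norm_conj_sub (y := (n : H →L[ℂ] H)) hw hw1))
  rw [e1]
  refine (norm_add_le _ _).trans ((add_le_add e3 e4).trans_eq ?_)
  show _ + _ * ‖n‖ = _
  ring

theorem semiLift : ∃ C : ℝ, 1 ≤ C ∧ ∀ {H : Type u} [NormedAddCommGroup H] [InnerProductSpace ℂ H]
    [CompleteSpace H] (M N : VonNeumannAlgebra H) (τ : (H →L[ℂ] H) → ENNReal) (δ : ℝ),
    IsTrace M τ → 0 < δ → C * δ ≤ 1 →
    Near δ (M : Set (H →L[ℂ] H)) N → Near δ (N : Set (H →L[ℂ] H)) M →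
      ∃ ψ : N.toStarSubalgebra →ₗ[ℂ] (H →L[ℂ] H), ∀ n, ψ n ∈ M ∧ ‖ψ n - n‖ ≤ C * δ * ‖n‖ := by
  classical
  obtain ⟨C, hC, h⟩ := cornerLift.{u}
  refine ⟨C, hC, fun {H} _ _ _ M N τ δ hτ hδ hCδ hMN hNM => ?_⟩
  choose p hp1 hp2 ψ hψ using fun i : Finset H × ℕ =>
    h M N τ δ hτ hδ hCδ hMN hNM i.1 (1 / ((i.2 : ℝ) + 1)) Nat.one_div_pos_of_nat
  let U : Ultrafilter (Finset H × ℕ) := Ultrafilter.of atTop
  have hU : (U : Filter (Finset H × ℕ)) ≤ atTop := Ultrafilter.of_le _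
  have hs : ∀ v, Tendsto (fun i => ‖p i v - v‖) U (𝓝 0) := fun v => by
    have h1 : Tendsto (fun i : Finset H × ℕ => 1 / ((i.2 : ℝ) + 1)) U (𝓝 0) :=
      tendsto_one_div_add_atTop_nhds_zero_nat.comp
        ((tendsto_atTop_atTop_of_monotone monotone_snd fun b => ⟨(∅, b), le_rfl⟩).mono_left hU)
    exact squeeze_zero' (Eventually.of_forall fun _ => norm_nonneg _)
      (((eventually_ge_atTop (({v}, 0) : Finset H × ℕ)).filter_mono hU).mono fun i hi =>
        hp2 i v (hi.1 (Finset.mem_singleton_self v))) h1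
  have hw : ∀ n : H →L[ℂ] H, WT U (fun i => p i * n * p i) n := fun n => WT_of_strong fun v => by
    rw [tendsto_iff_norm_sub_tendsto_zero]
    have h1 := ((hs v).const_mul ‖n‖).add (hs (n v))
    rw [mul_zero, add_zero] at h1
    refine squeeze_zero (fun _ => norm_nonneg _) (fun i => ?_) h1
    have e1 : (p i * n * p i) v - n v = p i (n (p i v - v)) + (p i (n v) - n v) := by simp
    rw [e1]
    refine (norm_add_le _ _).trans (add_le_add ?_ le_rfl)
    exact ((p i).le_of_opNorm_le (hp1 i) _).trans ((one_mul _).trans_le (n.le_opNorm _))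
  choose y hy using fun n : N.toStarSubalgebra => exists_WT U (x := fun i => ψ i n)
    (r := C * δ * ‖n‖ + ‖(n : H →L[ℂ] H)‖) (Eventually.of_forall fun i => by
      have e1 := norm_add_le (ψ i n - p i * n * p i) (p i * n * p i)
      have e2 := (norm_mul_le (p i) (n : H →L[ℂ] H)).trans
        (mul_le_of_le_one_left (norm_nonneg _) (hp1 i))
      have e3 := (norm_mul_le (p i * n) (p i)).trans
        (mul_le_of_le_one_right (norm_nonneg _) (hp1 i))
      rw [sub_add_cancel] at e1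
      linarith [(hψ i n).2])
  refine ⟨{ toFun := y
            map_add' := fun a b => (hy (a + b)).eq_of ((hy a).add (hy b))
              (Eventually.of_forall fun i => map_add _ _ _)
            map_smul' := fun c a => (hy (c • a)).eq_of ((hy a).smul c)
              (Eventually.of_forall fun i => map_smul _ _ _) }, fun n => ⟨?_, ?_⟩⟩
  · exact vn_mem fun S hS => (hy n).comm (Eventually.of_forall fun i => vn_comm (hψ i n).1 hS)
  · exact ((hy n).sub (hw n)).norm_le (Eventually.of_forall fun i => (hψ i n).2)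

end Vale.Agent.P096
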