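import Mathlib.Analysis.VonNeumannAlgebra.Basic
import Mathlib.Analysis.InnerProductSpace.Positive

namespace Vale.Agent.P096

open scoped ENNReal NNReal

/-- A faithful normal semifinite trace, given on the positive cone of `M`. -/
structure IsTrace {H : Type*} [NormedAddCommGroup H] [InnerProductSpace ℂ H] [CompleteSpace H]
    (M : VonNeumannAlgebra H) (τ : (H →L[ℂ] H) → ℝ≥0∞) : Prop where
  add : ∀ x ∈ M, ∀ y ∈ M, 0 ≤ x → 0 ≤ y → τ (x + y) = τ x + τ y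
  smul : ∀ x ∈ M, 0 ≤ x → ∀ c : ℝ≥0, τ ((c : ℂ) • x) = c * τ x
  tracial : ∀ a ∈ M, τ (star a * a) = τ (a * star a)
  faithful : ∀ x ∈ M, 0 ≤ x → τ x = 0 → x = 0
  normal : ∀ (s : Set (H →L[ℂ] H)) (x : H →L[ℂ] H), s.Nonempty → (∀ y ∈ s, y ∈ M ∧ 0 ≤ y) →
    DirectedOn (· ≤ ·) s → IsLUB s x → τ x = ⨆ y ∈ s, τ y
  semifinite : ∀ x ∈ M, 0 ≤ x → x ≠ 0 → ∃ y ∈ M, 0 ≤ y ∧ y ≤ x ∧ y ≠ 0 ∧ τ y ≠ ∞

end Vale.Agent.P096
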